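import Mathlib

/-! Scalar part: from a family of `log (x + τ)` inequalities to an entropy inequality. -/

set_option autoImplicit false

namespace Crest.Agent.GAD

open Real Filter Topology

/-- the key integral lemma in differential form -/
theorem entE {ι : Type*} [Fintype ι] (c x : ι → ℝ) (hx : ∀ i, 0 ≤ x i)
    (hc : ∑ i, c i = 0) (hcx : ∑ i, c i * x i = 0)
    (h : ∀ τ : ℝ, 0 < τ → 0 ≤ ∑ i, c i * Real.log (x i + τ)) :
    0 ≤ ∑ i, c i * negMulLog (x i) := by
  set G : ℝ → ℝ := fun Λ => ∑ i, c i * (negMulLog (x i) - negMulLog (x i + Λ)) with hG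
  have hG0 : G 0 = 0 := by simp [hG]
  have hcont : ContinuousOn G (Set.Ici 0) := by
    apply Continuous.continuousOn
    rw [hG]
    apply continuous_finsetSum
    intro i _
    exact continuous_const.mul (continuous_const.sub (continuous_negMulLog.comp (continuous_const.add continuous_id)))
  have hderiv : ∀ Λ ∈ interior (Set.Ici (0:ℝ)), HasDerivWithinAt G (∑ i, c i * Real.log (x i + Λ)) (interior (Set.Ici 0)) Λ := by
    intro Λ hΛ
    rw [interior_Ici] at hΛ
    have hΛ' : 0 < Λ := hΛ
    apply HasDerivAt.hasDerivWithinAt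
    have h1 : HasDerivAt G (∑ i, c i * (0 - (- Real.log (x i + Λ) - 1) * 1)) Λ := by
      rw [hG]
      apply HasDerivAt.fun_sum
      intro i _
      apply HasDerivAt.const_mul
      apply HasDerivAt.sub (hasDerivAt_const _ _)
      have hne : x i + Λ ≠ 0 := by have := hx i; positivity
      have := (hasDerivAt_negMulLog hne)
      exact HasDerivAt.comp Λ this ((hasDerivAt_id Λ).const_add (x i))
    have : ∑ i, c i * (0 - (- Real.log (x i + Λ) - 1) * 1) = ∑ i, c i * Real.log (x i + Λ) + ∑ i, c i := by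
      rw [← Finset.sum_add_distrib]
      apply Finset.sum_congr rfl
      intro i _
      ring
    rw [this, hc, add_zero] at h1
    exact h1
  have hmono : MonotoneOn G (Set.Ici 0) := by
    apply monotoneOn_of_hasDerivWithinAt_nonneg (convex_Ici 0) hcont hderiv
    intro Λ hΛ
    rw [interior_Ici] at hΛ
    exact h Λ hΛ
  have hpos : ∀ Λ : ℝ, 0 ≤ Λ → 0 ≤ G Λ := by
    intro Λ hΛ
    have := hmono (Set.mem_Ici.2 le_rfl) (Set.mem_Ici.2 hΛ) hΛ
    rwa [hG0] at this
  -- limit
  have hlim : Tendsto G atTop (𝓝 (∑ i, c i * negMulLog (x i))) := by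
    have hrw : ∀ Λ : ℝ, 0 < Λ → G Λ = ∑ i, c i * (negMulLog (x i) + (x i * Real.log (1 + x i / Λ) + Λ * Real.log (1 + x i / Λ))) := by
      intro Λ hΛ
      have h2 : ∀ i, negMulLog (x i + Λ) = -(x i * Real.log Λ) - Λ * Real.log Λ - (x i * Real.log (1 + x i / Λ) + Λ * Real.log (1 + x i / Λ)) := by
        intro i
        have hxi := hx i
        have e1 : x i + Λ = Λ * (1 + x i / Λ) := by field_simp; ring
        have e2 : Real.log (x i + Λ) = Real.log Λ + Real.log (1 + x i / Λ) := by
          rw [e1, Real.log_mul hΛ.ne' (by positivity)]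
        rw [negMulLog, e2]
        ring
      have h3 : G Λ = ∑ i, c i * (negMulLog (x i) + (x i * Real.log (1 + x i / Λ) + Λ * Real.log (1 + x i / Λ))) + Real.log Λ * ∑ i, c i * x i + (Λ * Real.log Λ) * ∑ i, c i := by
        rw [hG]
        simp only
        rw [Finset.mul_sum, Finset.mul_sum, ← Finset.sum_add_distrib, ← Finset.sum_add_distrib]
        apply Finset.sum_congr rfl
        intro i _
        rw [h2 i]
        ring
      rw [h3, hc, hcx]
      ring
    have hlim2 : Tendsto (fun Λ : ℝ => ∑ i, c i * (negMulLog (x i) + (x i * Real.log (1 + x i / Λ) + Λ * Real.log (1 + x i / Λ)))) atTop (𝓝 (∑ i, c i * (negMulLog (x i) + (x i * Real.log (1 + 0) + x i)))) := by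
      apply tendsto_finsetSum
      intro i _
      apply Tendsto.const_mul
      apply Tendsto.const_add
      apply Tendsto.add
      · apply Tendsto.const_mul
        have hc1 : ContinuousAt (fun y : ℝ => Real.log (1 + y)) 0 := by
          apply ContinuousAt.log
          · fun_prop
          · norm_num
        have : Tendsto (fun Λ : ℝ => x i / Λ) atTop (𝓝 0) := tendsto_const_nhds.div_atTop tendsto_id
        exact hc1.tendsto.comp this
      · exact tendsto_mul_log_one_add_div_atTop (x i)
    have hval : ∑ i, c i * (negMulLog (x i) + (x i * Real.log (1 + 0) + x i)) = ∑ i, c i * negMulLog (x i) := by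
      have : ∑ i, c i * (negMulLog (x i) + (x i * Real.log (1 + 0) + x i)) = ∑ i, c i * negMulLog (x i) + ∑ i, c i * x i := by
        rw [← Finset.sum_add_distrib]
        apply Finset.sum_congr rfl
        intro i _
        simp
        ring
      rw [this, hcx, add_zero]
    rw [hval] at hlim2
    apply hlim2.congr'
    filter_upwards [eventually_gt_atTop 0] with Λ hΛ
    rw [hrw Λ hΛ]
  apply ge_of_tendsto hlim
  filter_upwards [eventually_ge_atTop 0] with Λ hΛ
  exact hpos Λ hΛ


/-- the larger root of `λ² - t λ + x` -/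
noncomputable def rp (t x : ℝ) : ℝ := (t + √(t ^ 2 - 4 * x)) / 2
/-- the smaller root of `λ² - t λ + x` -/
noncomputable def rm (t x : ℝ) : ℝ := (t - √(t ^ 2 - 4 * x)) / 2
/-- entropy of the pair of roots -/
noncomputable def sE (t x : ℝ) : ℝ := negMulLog (rp t x) + negMulLog (rm t x)

theorem rp_add_rm (t x : ℝ) : rp t x + rm t x = t := by unfold rp rm; ring

theorem rp_mul_rm {t x : ℝ} (h : 4 * x ≤ t ^ 2) : rp t x * rm t x = x := by
  unfold rp rm
  have := Real.sq_sqrt (show 0 ≤ t ^ 2 - 4 * x by linarith)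
  nlinarith

theorem rp_nonneg {t x : ℝ} (ht : 0 ≤ t) : 0 ≤ rp t x := by
  unfold rp; positivity

theorem rm_nonneg {t x : ℝ} (ht : 0 ≤ t) (hx : 0 ≤ x) : 0 ≤ rm t x := by
  unfold rm
  have : √(t ^ 2 - 4 * x) ≤ t := by
    apply Real.sqrt_le_iff.2
    constructor
    · exact ht
    · linarith
  linarith

theorem rp_add_mul_rm_add {t x : ℝ} (h : 4 * x ≤ t ^ 2) (τ : ℝ) :
    (rp t x + τ) * (rm t x + τ) = x + t * τ + τ ^ 2 := by
  have h1 := rp_mul_rm h
  have h2 := rp_add_rm t x
  calc (rp t x + τ) * (rm t x + τ) = rp t x * rm t x + (rp t x + rm t x) * τ + τ ^ 2 := by ring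
    _ = _ := by rw [h1, h2]

theorem rp_scale {c : ℝ} (hc : 0 ≤ c) (t x : ℝ) : rp (c * t) (c ^ 2 * x) = c * rp t x := by
  unfold rp
  have : (c * t) ^ 2 - 4 * (c ^ 2 * x) = c ^ 2 * (t ^ 2 - 4 * x) := by ring
  rw [this, Real.sqrt_mul (sq_nonneg c), Real.sqrt_sq hc]
  ring

theorem rm_scale {c : ℝ} (hc : 0 ≤ c) (t x : ℝ) : rm (c * t) (c ^ 2 * x) = c * rm t x := by
  unfold rm
  have : (c * t) ^ 2 - 4 * (c ^ 2 * x) = c ^ 2 * (t ^ 2 - 4 * x) := by ring
  rw [this, Real.sqrt_mul (sq_nonneg c), Real.sqrt_sq hc]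
  ring

theorem sE_scale {c : ℝ} (hc : 0 ≤ c) (t x : ℝ) :
    sE (c * t) (c ^ 2 * x) = c * sE t x + t * negMulLog c := by
  unfold sE
  rw [rp_scale hc, rm_scale hc, negMulLog_mul, negMulLog_mul]
  have h2 := rp_add_rm t x
  linear_combination (negMulLog c) * h2

/-- `Q a b d = s(a,b,d) - η(b) - η(d)` -/
noncomputable def Q (a b d : ℝ) : ℝ := sE (a + b + d) (b * d) - negMulLog b - negMulLog d

theorem disc_nonneg {a b d : ℝ} (ha : 0 ≤ a) (hb : 0 ≤ b) (hd : 0 ≤ d) :
    4 * (b * d) ≤ (a + b + d) ^ 2 := by nlinarith [sq_nonneg (b - d), mul_nonneg ha hb, mul_nonneg ha hd]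

theorem Q_scale {c : ℝ} (hc : 0 ≤ c) (a b d : ℝ) :
    Q (c * a) (c * b) (c * d) = c * Q a b d + a * negMulLog c := by
  unfold Q
  have h1 : c * a + c * b + c * d = c * (a + b + d) := by ring
  have h2 : c * b * (c * d) = c ^ 2 * (b * d) := by ring
  rw [h1, h2, sE_scale hc, negMulLog_mul, negMulLog_mul]
  ring

theorem Q_zero (b d : ℝ) : Q 0 b d = 0 := by
  unfold Q sE rp rm
  have h1 : (0 + b + d) ^ 2 - 4 * (b * d) = (b - d) ^ 2 := by ring
  rw [h1, Real.sqrt_sq_eq_abs]
  rcases le_total b d with h | h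
  · rw [abs_of_nonpos (by linarith)]
    have e1 : (0 + b + d + -(b - d)) / 2 = d := by ring
    have e2 : (0 + b + d - -(b - d)) / 2 = b := by ring
    rw [e1, e2]; ring
  · rw [abs_of_nonneg (by linarith)]
    have e1 : (0 + b + d + (b - d)) / 2 = b := by ring
    have e2 : (0 + b + d - (b - d)) / 2 = d := by ring
    rw [e1, e2]; ring

theorem log_roots {a b d τ : ℝ} (ha : 0 ≤ a) (hb : 0 ≤ b) (hd : 0 ≤ d) (hτ : 0 < τ) :
    Real.log (rp (a + b + d) (b * d) + τ) + Real.log (rm (a + b + d) (b * d) + τ)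
      - Real.log (b + τ) - Real.log (d + τ)
      = Real.log (1 + τ * a / ((b + τ) * (d + τ))) := by
  have h1 : 0 < rp (a + b + d) (b * d) + τ := by
    have := rp_nonneg (t := a + b + d) (x := b * d) (by positivity)
    linarith
  have h2 : 0 < rm (a + b + d) (b * d) + τ := by
    have := rm_nonneg (t := a + b + d) (x := b * d) (by positivity) (by positivity)
    linarith
  have h3 : 0 < b + τ := by linarith
  have h4 : 0 < d + τ := by linarith
  rw [← Real.log_mul h1.ne' h2.ne', rp_add_mul_rm_add (disc_nonneg ha hb hd)]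
  have e : b * d + (a + b + d) * τ + τ ^ 2 = ((b + τ) * (d + τ)) * (1 + τ * a / ((b + τ) * (d + τ))) := by
    field_simp
    ring
  rw [e, Real.log_mul (by positivity) (by positivity), Real.log_mul h3.ne' h4.ne']
  ring

theorem log_one_add_div_convex {τ u1 w1 u2 w2 s t : ℝ} (hτ : 0 < τ) (hu1 : 0 < u1) (hw1 : 0 < w1)
    (hu2 : 0 < u2) (hw2 : 0 < w2) (hs : 0 ≤ s) (ht : 0 ≤ t) (hst : s + t = 1) :
    Real.log (1 + τ / ((s * u1 + t * u2) * (s * w1 + t * w2))) ≤
      s * Real.log (1 + τ / (u1 * w1)) + t * Real.log (1 + τ / (u2 * w2)) := by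
  have hu : u1 ^ s * u2 ^ t ≤ s * u1 + t * u2 :=
    Real.geom_mean_le_arith_mean2_weighted hs ht hu1.le hu2.le hst
  have hw : w1 ^ s * w2 ^ t ≤ s * w1 + t * w2 :=
    Real.geom_mean_le_arith_mean2_weighted hs ht hw1.le hw2.le hst
  set x := τ / (u1 * w1) with hx
  set y := τ / (u2 * w2) with hy
  have hx0 : 0 < x := by positivity
  have hy0 : 0 < y := by positivity
  have h1 : τ / ((s * u1 + t * u2) * (s * w1 + t * w2)) ≤ x ^ s * y ^ t := by
    have e : x ^ s * y ^ t = τ / ((u1 ^ s * u2 ^ t) * (w1 ^ s * w2 ^ t)) := by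
      rw [hx, hy, Real.div_rpow hτ.le (by positivity), Real.div_rpow hτ.le (by positivity),
        Real.mul_rpow hu1.le hw1.le, Real.mul_rpow hu2.le hw2.le]
      have : τ = τ ^ s * τ ^ t := by rw [← Real.rpow_add hτ, hst, Real.rpow_one]
      rw [div_mul_div_comm, ← this]
      congr 1
      ring
    rw [e]
    apply div_le_div_of_nonneg_left hτ.le (by positivity)
    exact mul_le_mul hu hw (by positivity) (le_trans (by positivity) hu)
  have h2 : 1 + x ^ s * y ^ t ≤ (1 + x) ^ s * (1 + y) ^ t := by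
    have a1 : (1 / (1 + x)) ^ s * (1 / (1 + y)) ^ t ≤ s * (1 / (1 + x)) + t * (1 / (1 + y)) :=
      Real.geom_mean_le_arith_mean2_weighted hs ht (by positivity) (by positivity) hst
    have a2 : (x / (1 + x)) ^ s * (y / (1 + y)) ^ t ≤ s * (x / (1 + x)) + t * (y / (1 + y)) :=
      Real.geom_mean_le_arith_mean2_weighted hs ht (by positivity) (by positivity) hst
    have a3 : s * (1 / (1 + x)) + t * (1 / (1 + y)) + (s * (x / (1 + x)) + t * (y / (1 + y))) = 1 := by
      have : s * (1 / (1 + x)) + t * (1 / (1 + y)) + (s * (x / (1 + x)) + t * (y / (1 + y))) = s * ((1 + x) / (1 + x)) + t * ((1 + y) / (1 + y)) := by ring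
      rw [this, div_self (by positivity), div_self (by positivity)]
      linarith
    have b1 : (1 / (1 + x)) ^ s * (1 / (1 + y)) ^ t = 1 / ((1 + x) ^ s * (1 + y) ^ t) := by
      rw [Real.div_rpow (by norm_num) (by positivity), Real.div_rpow (by norm_num) (by positivity)]
      simp only [Real.one_rpow]
      rw [div_mul_div_comm, one_mul]
    have b2 : (x / (1 + x)) ^ s * (y / (1 + y)) ^ t = (x ^ s * y ^ t) / ((1 + x) ^ s * (1 + y) ^ t) := by
      rw [Real.div_rpow hx0.le (by positivity), Real.div_rpow hy0.le (by positivity), div_mul_div_comm]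
    rw [b1] at a1
    rw [b2] at a2
    have h5 : 0 < (1 + x) ^ s * (1 + y) ^ t := by positivity
    have h6 : (1 + x ^ s * y ^ t) / ((1 + x) ^ s * (1 + y) ^ t) ≤ 1 := by
      rw [add_div]; linarith
    rwa [div_le_one h5] at h6
  calc Real.log (1 + τ / ((s * u1 + t * u2) * (s * w1 + t * w2)))
      ≤ Real.log ((1 + x) ^ s * (1 + y) ^ t) := by
        apply Real.log_le_log
        · have : 0 ≤ (s * u1 + t * u2) * (s * w1 + t * w2) := by positivity
          positivity
        · linarith
    _ = s * Real.log (1 + x) + t * Real.log (1 + y) := by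
        rw [Real.log_mul (by positivity) (by positivity), Real.log_rpow (by positivity), Real.log_rpow (by positivity)]

theorem Q_one_convexOn : ConvexOn ℝ (Set.Ici (0:ℝ) ×ˢ Set.Ici (0:ℝ)) (fun p : ℝ × ℝ => Q 1 p.1 p.2) := by
  refine ⟨(convex_Ici 0).prod (convex_Ici 0), ?_⟩
  rintro ⟨b1, d1⟩ ⟨hb1, hd1⟩ ⟨b2, d2⟩ ⟨hb2, hd2⟩ s t hs ht hst
  simp only [Set.mem_Ici] at hb1 hd1 hb2 hd2
  simp only [Prod.smul_mk, smul_eq_mul, Prod.mk_add_mk]
  set b := s * b1 + t * b2 with hb
  set d := s * d1 + t * d2 with hd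
  have hb0 : 0 ≤ b := by positivity
  have hd0 : 0 ≤ d := by positivity
  have key := entE (ι := Fin 12)
    ![s, s, -s, -s, t, t, -t, -t, -1, -1, 1, 1]
    ![rp (1 + b1 + d1) (b1 * d1), rm (1 + b1 + d1) (b1 * d1), b1, d1,
      rp (1 + b2 + d2) (b2 * d2), rm (1 + b2 + d2) (b2 * d2), b2, d2,
      rp (1 + b + d) (b * d), rm (1 + b + d) (b * d), b, d]
    (by
      intro i
      fin_cases i
      · exact rp_nonneg (by positivity)
      · exact rm_nonneg (by positivity) (by positivity)
      · exact hb1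
      · exact hd1
      · exact rp_nonneg (by positivity)
      · exact rm_nonneg (by positivity) (by positivity)
      · exact hb2
      · exact hd2
      · exact rp_nonneg (by positivity)
      · exact rm_nonneg (by positivity) (by positivity)
      · exact hb0
      · exact hd0)
    (by simp [Fin.sum_univ_succ])
    (by
      have e1 := rp_add_rm (1 + b1 + d1) (b1 * d1)
      have e2 := rp_add_rm (1 + b2 + d2) (b2 * d2)
      have e3 := rp_add_rm (1 + b + d) (b * d)
      simp [Fin.sum_univ_succ]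
      linear_combination s * e1 + t * e2 - e3 + hst)
    (by
      intro τ hτ
      have e1 := log_roots (a := 1) (b := b1) (d := d1) (τ := τ) zero_le_one hb1 hd1 hτ
      have e2 := log_roots (a := 1) (b := b2) (d := d2) (τ := τ) zero_le_one hb2 hd2 hτ
      have e3 := log_roots (a := 1) (b := b) (d := d) (τ := τ) zero_le_one hb0 hd0 hτ
      have h := log_one_add_div_convex (τ := τ) (u1 := b1 + τ) (w1 := d1 + τ) (u2 := b2 + τ) (w2 := d2 + τ)
        (s := s) (t := t) hτ (by positivity) (by positivity) (by positivity) (by positivity) hs ht hst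
      have e4 : s * (b1 + τ) + t * (b2 + τ) = b + τ := by rw [hb]; linear_combination τ * hst
      have e5 : s * (d1 + τ) + t * (d2 + τ) = d + τ := by rw [hd]; linear_combination τ * hst
      rw [e4, e5] at h
      simp only [mul_one] at e1 e2 e3
      simp [Fin.sum_univ_succ]
      rw [← e1, ← e2, ← e3] at h
      linarith)
  simp [Fin.sum_univ_succ] at key
  unfold Q sE
  linarith

theorem Q_one_anti {b d b' d' : ℝ} (hb : 0 ≤ b) (hd : 0 ≤ d) (hbb : b ≤ b') (hdd : d ≤ d') :
    Q 1 b' d' ≤ Q 1 b d := by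
  have hb' : 0 ≤ b' := hb.trans hbb
  have hd' : 0 ≤ d' := hd.trans hdd
  have key := entE (ι := Fin 8)
    ![1, 1, -1, -1, -1, -1, 1, 1]
    ![rp (1 + b + d) (b * d), rm (1 + b + d) (b * d), b, d,
      rp (1 + b' + d') (b' * d'), rm (1 + b' + d') (b' * d'), b', d']
    (by
      intro i
      fin_cases i
      · exact rp_nonneg (by positivity)
      · exact rm_nonneg (by positivity) (by positivity)
      · exact hb
      · exact hd
      · exact rp_nonneg (by positivity)
      · exact rm_nonneg (by positivity) (by positivity)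
      · exact hb'
      · exact hd')
    (by simp [Fin.sum_univ_succ])
    (by
      have e1 := rp_add_rm (1 + b + d) (b * d)
      have e2 := rp_add_rm (1 + b' + d') (b' * d')
      simp [Fin.sum_univ_succ]
      linear_combination e1 - e2)
    (by
      intro τ hτ
      have e1 := log_roots (a := 1) (b := b) (d := d) (τ := τ) zero_le_one hb hd hτ
      have e2 := log_roots (a := 1) (b := b') (d := d') (τ := τ) zero_le_one hb' hd' hτ
      have h : Real.log (1 + τ * 1 / ((b' + τ) * (d' + τ))) ≤ Real.log (1 + τ * 1 / ((b + τ) * (d + τ))) := by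
        apply Real.log_le_log (by positivity)
        have : (b + τ) * (d + τ) ≤ (b' + τ) * (d' + τ) := by
          apply mul_le_mul <;> linarith
        gcongr
      rw [← e1, ← e2] at h
      simp [Fin.sum_univ_succ]
      linarith)
  simp [Fin.sum_univ_succ] at key
  unfold Q sE
  linarith

/-- perspective Jensen inequality -/
theorem Q_sum {ι : Type*} [Fintype ι] (a b d : ι → ℝ) (ha : ∀ i, 0 ≤ a i) (hb : ∀ i, 0 ≤ b i)
    (hd : ∀ i, 0 ≤ d i) (B D : ℝ) (hB : ∑ i, b i ≤ B) (hD : ∑ i, d i ≤ D) :
    Q (∑ i, a i) B D + ∑ i, negMulLog (a i) - negMulLog (∑ i, a i) ≤ ∑ i, Q (a i) (b i) (d i) := by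
  set A := ∑ i, a i with hA
  have hA0 : 0 ≤ A := Finset.sum_nonneg (fun i _ => ha i)
  rcases hA0.eq_or_lt with h0 | h0
  · have hz : ∀ i, a i = 0 := by
      intro i
      have := (Finset.sum_eq_zero_iff_of_nonneg (fun i _ => ha i)).1 (hA.symm.trans h0.symm)
      exact this i (Finset.mem_univ i)
    rw [← h0]
    simp [hz, Q_zero]
  · have hJ := Q_one_convexOn.map_sum_le (t := Finset.univ) (w := fun i => a i / A)
      (p := fun i => (b i / a i, d i / a i)) (fun i _ => by have := ha i; positivity)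
      (by rw [← Finset.sum_div, ← hA, div_self h0.ne'])
      (fun i _ => ⟨Set.mem_Ici.2 (div_nonneg (hb i) (ha i)), Set.mem_Ici.2 (div_nonneg (hd i) (ha i))⟩)
    simp only [Prod.smul_mk, smul_eq_mul, Prod.fst_sum, Prod.snd_sum] at hJ
    have hterm : ∀ i, a i / A * Q 1 (b i / a i) (d i / a i) = (Q (a i) (b i) (d i) - negMulLog (a i)) / A := by
      intro i
      rcases (ha i).eq_or_lt with h | h
      · rw [← h]; simp [Q_zero]
      · have := Q_scale (ha i) 1 (b i / a i) (d i / a i)
        have e1 : a i * (b i / a i) = b i := by field_simp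
        have e2 : a i * (d i / a i) = d i := by field_simp
        rw [e1, e2, mul_one, one_mul] at this
        rw [this]
        ring
    have h1 : ∑ i, a i / A * (b i / a i) ≤ B / A := by
      calc ∑ i, a i / A * (b i / a i) ≤ ∑ i, b i / A := by
            apply Finset.sum_le_sum
            intro i _
            rcases (ha i).eq_or_lt with h | h
            · rw [← h]; simp; have := hb i; positivity
            · apply le_of_eq; field_simp
        _ = (∑ i, b i) / A := by rw [Finset.sum_div]
        _ ≤ B / A := by gcongr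
    have h2 : ∑ i, a i / A * (d i / a i) ≤ D / A := by
      calc ∑ i, a i / A * (d i / a i) ≤ ∑ i, d i / A := by
            apply Finset.sum_le_sum
            intro i _
            rcases (ha i).eq_or_lt with h | h
            · rw [← h]; simp; have := hd i; positivity
            · apply le_of_eq; field_simp
        _ = (∑ i, d i) / A := by rw [Finset.sum_div]
        _ ≤ D / A := by gcongr
    have h3 := Q_one_anti (b := ∑ i, a i / A * (b i / a i)) (d := ∑ i, a i / A * (d i / a i))
      (b' := B / A) (d' := D / A)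
      (Finset.sum_nonneg (fun i _ => mul_nonneg (div_nonneg (ha i) h0.le) (div_nonneg (hb i) (ha i))))
      (Finset.sum_nonneg (fun i _ => mul_nonneg (div_nonneg (ha i) h0.le) (div_nonneg (hd i) (ha i)))) h1 h2
    have h4 : Q 1 (B / A) (D / A) ≤ ∑ i, (Q (a i) (b i) (d i) - negMulLog (a i)) / A := by
      refine h3.trans (hJ.trans ?_)
      apply le_of_eq
      apply Finset.sum_congr rfl
      intro i _
      exact hterm i
    have h5 := Q_scale h0.le 1 (B / A) (D / A)
    have e1 : A * (B / A) = B := by field_simp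
    have e2 : A * (D / A) = D := by field_simp
    rw [e1, e2, mul_one, one_mul] at h5
    rw [← Finset.sum_div, le_div_iff₀ h0, Finset.sum_sub_distrib] at h4
    rw [h5]
    linarith

end Crest.Agent.GAD
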