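import Mathlib
import Crest.Agent.GAD.Scalar

/-! Convexity of the output entropy of pure states. -/

set_option autoImplicit false

namespace Crest.Agent.GAD

open Real Set

noncomputable def FF (c : ℝ) : ℝ := binEntropy ((1 + √(1 - c ^ 2)) / 2)

theorem log_ge {s : ℝ} (h0 : 0 < s) (h1 : s < 1) : 2 * s ≤ Real.log (1 + s) - Real.log (1 - s) := by
  have h := Real.hasSum_log_sub_log_of_abs_lt_one (x := s) (by rw [abs_of_pos h0]; exact h1)
  have h2 := le_hasSum h 0 (fun k _ => by positivity)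
  simpa using h2

theorem FF_convex : ConvexOn ℝ (Icc 0 1) FF := by
  have hint : interior (Icc (0:ℝ) 1) = Ioo 0 1 := interior_Icc
  apply convexOn_of_hasDerivWithinAt2_nonneg (convex_Icc 0 1)
    (f' := fun c => c * (Real.log (1 + √(1 - c ^ 2)) - Real.log (1 - √(1 - c ^ 2))) / (2 * √(1 - c ^ 2)))
    (f'' := fun c => ((Real.log (1 + √(1 - c ^ 2)) - Real.log (1 - √(1 - c ^ 2))) / 2 - √(1 - c ^ 2)) / (√(1 - c ^ 2)) ^ 3)
  · apply Continuous.continuousOn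
    unfold FF
    fun_prop
  · intro c hc
    rw [hint] at hc
    apply HasDerivAt.hasDerivWithinAt
    have hc2 : 0 < 1 - c ^ 2 := by nlinarith [hc.1, hc.2]
    set s := √(1 - c ^ 2) with hs
    have hs0 : 0 < s := Real.sqrt_pos.2 hc2
    have hs2 : s ^ 2 = 1 - c ^ 2 := Real.sq_sqrt hc2.le
    have hs1 : s < 1 := by nlinarith [hc.1]
    have hd1 : HasDerivAt (fun c : ℝ => 1 - c ^ 2) (-(2 * c)) c := by
      have := (hasDerivAt_pow 2 c).const_sub 1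
      simpa using this
    have hd2 : HasDerivAt (fun c : ℝ => (1 + √(1 - c ^ 2)) / 2) ((-(2 * c) / (2 * √(1 - c ^ 2))) / 2) c :=
      ((hd1.sqrt hc2.ne').const_add 1).div_const 2
    have hd3 := (hasDerivAt_binEntropy (p := (1 + √(1 - c ^ 2)) / 2) (by rw [← hs]; positivity) (by rw [← hs]; intro h; linarith)).comp c hd2
    refine hd3.congr_deriv ?_
    rw [← hs]
    have e1 : 1 - (1 + s) / 2 = (1 - s) / 2 := by ring
    rw [e1, Real.log_div (by linarith) (by norm_num), Real.log_div (by linarith) (by norm_num)]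
    field_simp
    ring
  · intro c hc
    rw [hint] at hc
    apply HasDerivAt.hasDerivWithinAt
    have hc2 : 0 < 1 - c ^ 2 := by nlinarith [hc.1, hc.2]
    set s := √(1 - c ^ 2) with hs
    have hs0 : 0 < s := Real.sqrt_pos.2 hc2
    have hs2 : s ^ 2 = 1 - c ^ 2 := Real.sq_sqrt hc2.le
    have hs1 : s < 1 := by nlinarith [hc.1]
    have hc0 := hc.1
    have hd1 : HasDerivAt (fun c : ℝ => 1 - c ^ 2) (-(2 * c)) c := by
      have := (hasDerivAt_pow 2 c).const_sub 1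
      simpa using this
    have hd2 : HasDerivAt (fun c : ℝ => √(1 - c ^ 2)) (-(2 * c) / (2 * √(1 - c ^ 2))) c :=
      hd1.sqrt hc2.ne'
    have hd3 : HasDerivAt (fun c : ℝ => Real.log (1 + √(1 - c ^ 2))) ((-(2 * c) / (2 * √(1 - c ^ 2))) / (1 + √(1 - c ^ 2))) c :=
      (hd2.const_add 1).log (by rw [← hs]; positivity)
    have hd4 : HasDerivAt (fun c : ℝ => Real.log (1 - √(1 - c ^ 2))) (-(-(2 * c) / (2 * √(1 - c ^ 2))) / (1 - √(1 - c ^ 2))) c :=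
      (hd2.const_sub 1).log (by rw [← hs]; linarith)
    have hd5 := ((hasDerivAt_id c).mul (hd3.sub hd4)).div (hd2.const_mul 2) (by rw [← hs]; positivity)
    refine hd5.congr_deriv ?_
    simp only [id, Pi.mul_apply, Pi.sub_apply, ← hs]
    have h1s : 1 - s ≠ 0 := by linarith
    have hcs : c ^ 2 = 1 - s ^ 2 := by linarith
    have hc3 : c ^ 2 = (1 - s) * (1 + s) := by linarith
    generalize Real.log (1 + s) - Real.log (1 - s) = L
    have e1 : -(2 * c) / (2 * s) / (1 + s) - -(-(2 * c) / (2 * s)) / (1 - s) = - (2 / (c * s)) := by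
      field_simp
      rw [hcs]
      ring
    rw [e1]
    field_simp
    rw [hcs]
    ring
  · intro c hc
    rw [hint] at hc
    have hc2 : 0 < 1 - c ^ 2 := by nlinarith [hc.1, hc.2]
    set s := √(1 - c ^ 2) with hs
    have hs0 : 0 < s := Real.sqrt_pos.2 hc2
    have hs2 : s ^ 2 = 1 - c ^ 2 := Real.sq_sqrt hc2.le
    have hs1 : s < 1 := by nlinarith [hc.1]
    have := log_ge hs0 hs1
    apply div_nonneg
    · linarith
    · positivity

theorem FF_mono {c c' : ℝ} (h0 : 0 ≤ c) (h : c ≤ c') : FF c ≤ FF c' := by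
  unfold FF
  have h2 : 0 ≤ √(1 - c' ^ 2) := Real.sqrt_nonneg _
  have h3 : √(1 - c' ^ 2) ≤ √(1 - c ^ 2) := by
    apply Real.sqrt_le_sqrt
    nlinarith
  have h4 : √(1 - c ^ 2) ≤ 1 := by
    apply Real.sqrt_le_one.2
    nlinarith
  apply binEntropy_strictAntiOn.antitoneOn
  · constructor
    · norm_num; linarith
    · linarith
  · constructor
    · norm_num; linarith
    · linarith
  · linarith

theorem sqrt_convex {α β s t z1 z2 : ℝ} (hα : 0 ≤ α) (hβ : 0 ≤ β) (hs : 0 ≤ s) (ht : 0 ≤ t) (hst : s + t = 1) :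
    √(α + β * (s * z1 + t * z2) ^ 2) ≤ s * √(α + β * z1 ^ 2) + t * √(α + β * z2 ^ 2) := by
  apply Real.sqrt_le_iff.2
  refine ⟨by positivity, ?_⟩
  have h1 : √(α + β * z1 ^ 2) ^ 2 = α + β * z1 ^ 2 := Real.sq_sqrt (by positivity)
  have h2 : √(α + β * z2 ^ 2) ^ 2 = α + β * z2 ^ 2 := Real.sq_sqrt (by positivity)
  have h3 : α + β * z1 * z2 ≤ √(α + β * z1 ^ 2) * √(α + β * z2 ^ 2) := by
    rw [← Real.sqrt_mul (by positivity)]
    apply Real.le_sqrt_of_sq_le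
    nlinarith [mul_nonneg (mul_nonneg hα hβ) (sq_nonneg (z1 - z2))]
  have h4 : (s * √(α + β * z1 ^ 2) + t * √(α + β * z2 ^ 2)) ^ 2 = s ^ 2 * (α + β * z1 ^ 2) + t ^ 2 * (α + β * z2 ^ 2) + 2 * (s * t) * (√(α + β * z1 ^ 2) * √(α + β * z2 ^ 2)) := by
    have : (s * √(α + β * z1 ^ 2) + t * √(α + β * z2 ^ 2)) ^ 2 = s ^ 2 * √(α + β * z1 ^ 2) ^ 2 + t ^ 2 * √(α + β * z2 ^ 2) ^ 2 + 2 * (s * t) * (√(α + β * z1 ^ 2) * √(α + β * z2 ^ 2)) := by ring
    rw [this, h1, h2]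
  rw [h4]
  have h5 : 2 * (s * t) * (α + β * z1 * z2) ≤ 2 * (s * t) * (√(α + β * z1 ^ 2) * √(α + β * z2 ^ 2)) := by gcongr
  have h6 : s = 1 - t := by linarith
  subst h6
  nlinarith

/-- the output entropy of a pure state with excited population `p` -/
noncomputable def EE (γ ν p : ℝ) : ℝ :=
  binEntropy ((1 + √(1 - 4 * (γ * ν * (1 - ν) + γ * (1 - γ) * (p - ν) ^ 2))) / 2)

theorem vv_eq (γ ν p : ℝ) : γ * ν * (1 - ν) + γ * (1 - γ) * (p - ν) ^ 2 =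
    ((1 - γ) * p + γ * ν) * (1 - ((1 - γ) * p + γ * ν)) - (1 - γ) * (p * (1 - p)) := by ring

theorem vv_nonneg {γ ν p : ℝ} (hγ : γ ∈ Icc (0:ℝ) 1) (hν : ν ∈ Icc (0:ℝ) 1) :
    0 ≤ γ * ν * (1 - ν) + γ * (1 - γ) * (p - ν) ^ 2 := by
  have h1 := hγ.1; have h2 := hν.1
  have h3 : 0 ≤ 1 - γ := by linarith [hγ.2]
  have h4 : 0 ≤ 1 - ν := by linarith [hν.2]
  positivity

theorem vv_le {γ ν p : ℝ} (hγ : γ ∈ Icc (0:ℝ) 1) (hp : p ∈ Icc (0:ℝ) 1) :
    4 * (γ * ν * (1 - ν) + γ * (1 - γ) * (p - ν) ^ 2) ≤ 1 := by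
  rw [vv_eq]
  have h3 : 0 ≤ 1 - γ := by linarith [hγ.2]
  have h5 : 0 ≤ p * (1 - p) := mul_nonneg hp.1 (by linarith [hp.2])
  nlinarith [sq_nonneg (2 * ((1 - γ) * p + γ * ν) - 1), mul_nonneg h3 h5]

theorem EE_eq {γ ν p : ℝ} (hγ : γ ∈ Icc (0:ℝ) 1) (hν : ν ∈ Icc (0:ℝ) 1) :
    EE γ ν p = FF (2 * √(γ * ν * (1 - ν) + γ * (1 - γ) * (p - ν) ^ 2)) := by
  unfold EE FF
  congr 4
  rw [mul_pow, Real.sq_sqrt (vv_nonneg hγ hν)]
  norm_num

theorem EE_sE {γ ν p : ℝ} : EE γ ν p = sE 1 (γ * ν * (1 - ν) + γ * (1 - γ) * (p - ν) ^ 2) := by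
  unfold EE sE rp rm
  rw [binEntropy_eq_negMulLog_add_negMulLog_one_sub]
  congr 3
  · norm_num
  · norm_num
    ring

theorem EE_nonneg {γ ν p : ℝ} (hγ : γ ∈ Icc (0:ℝ) 1) (hν : ν ∈ Icc (0:ℝ) 1) :
    0 ≤ EE γ ν p := by
  unfold EE
  have h1 := vv_nonneg (p := p) hγ hν
  have h2 : 0 ≤ √(1 - 4 * (γ * ν * (1 - ν) + γ * (1 - γ) * (p - ν) ^ 2)) := Real.sqrt_nonneg _
  have h3 : √(1 - 4 * (γ * ν * (1 - ν) + γ * (1 - γ) * (p - ν) ^ 2)) ≤ 1 := by
    apply Real.sqrt_le_one.2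
    linarith
  apply binEntropy_nonneg <;> linarith

theorem EE_convex {γ ν : ℝ} (hγ : γ ∈ Icc (0:ℝ) 1) (hν : ν ∈ Icc (0:ℝ) 1) :
    ConvexOn ℝ (Icc 0 1) (EE γ ν) := by
  refine ⟨convex_Icc 0 1, ?_⟩
  intro p1 hp1 p2 hp2 s t hs ht hst
  simp only [smul_eq_mul]
  rw [EE_eq hγ hν, EE_eq hγ hν, EE_eq hγ hν]
  have hα : 0 ≤ γ * ν * (1 - ν) := by
    have h1 := hγ.1; have h2 := hν.1
    have h4 : 0 ≤ 1 - ν := by linarith [hν.2]
    positivity
  have hβ : 0 ≤ γ * (1 - γ) := mul_nonneg hγ.1 (by linarith [hγ.2])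
  have h1 := sqrt_convex (z1 := p1 - ν) (z2 := p2 - ν) hα hβ hs ht hst
  have e1 : s * (p1 - ν) + t * (p2 - ν) = s * p1 + t * p2 - ν := by
    linear_combination -ν * hst
  rw [e1] at h1
  have hle : ∀ p ∈ Icc (0:ℝ) 1, 2 * √(γ * ν * (1 - ν) + γ * (1 - γ) * (p - ν) ^ 2) ∈ Icc (0:ℝ) 1 := by
    intro p hp
    refine ⟨by positivity, ?_⟩
    have h2 := vv_le (ν := ν) hγ hp
    have h3 : √(γ * ν * (1 - ν) + γ * (1 - γ) * (p - ν) ^ 2) ≤ √(1 / 4) := Real.sqrt_le_sqrt (by linarith)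
    have h4 : √(1 / 4 : ℝ) = 1 / 2 := by
      rw [show (1 / 4 : ℝ) = (1 / 2) ^ 2 by norm_num, Real.sqrt_sq (by norm_num)]
    linarith
  have h2 := FF_convex.2 (hle p1 hp1) (hle p2 hp2) hs ht hst
  simp only [smul_eq_mul] at h2
  refine le_trans (FF_mono (by positivity) ?_) h2
  linarith

end Crest.Agent.GAD
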