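import Mathlib
import Crest.Prelude.Def_QState
import Crest.Prelude.Def_QChannel
import Crest.Prelude.Def_AmpDamp
import Crest.Agent.GAD.Scalar

/-! Basic facts on the von Neumann entropy of complex matrices. -/

set_option autoImplicit false
set_option linter.unusedSectionVars false

namespace Crest.Agent.GAD

open Real Matrix Crest.Quantum
open scoped ComplexOrder

variable {d e : Type*} [Fintype d] [DecidableEq d] [Fintype e] [DecidableEq e]

theorem vn_eq {ρ : Matrix d d ℂ} (h : ρ.IsHermitian) :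
    vnEntropy ρ = ∑ i, negMulLog (h.eigenvalues i) := by
  unfold vnEntropy
  rw [dif_pos h, ← Finset.sum_neg_distrib]
  apply Finset.sum_congr rfl
  intro i _
  rw [negMulLog]; ring

theorem sum_f_eig {ρ : Matrix d d ℂ} (h : ρ.IsHermitian) (f : ℝ → ℝ) :
    ∑ i, f (h.eigenvalues i) = ((ρ.charpoly.roots).map (fun z => f z.re)).sum := by
  rw [h.roots_charpoly_eq_eigenvalues, Multiset.map_map]
  rfl

theorem sum_f_of_charpoly {ρ : Matrix d d ℂ} {σ : Matrix e e ℂ} (hρ : ρ.IsHermitian)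
    (hσ : σ.IsHermitian) (h : ρ.charpoly = σ.charpoly) (f : ℝ → ℝ) :
    ∑ i, f (hρ.eigenvalues i) = ∑ i, f (hσ.eigenvalues i) := by
  rw [sum_f_eig hρ, sum_f_eig hσ, h]

theorem vn_of_charpoly {ρ : Matrix d d ℂ} {σ : Matrix e e ℂ} (hρ : ρ.IsHermitian)
    (hσ : σ.IsHermitian) (h : ρ.charpoly = σ.charpoly) : vnEntropy ρ = vnEntropy σ := by
  rw [vn_eq hρ, vn_eq hσ, sum_f_of_charpoly hρ hσ h]

theorem isHermitian_diag (x : d → ℝ) : (diagonal (fun i => (x i : ℂ))).IsHermitian := by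
  apply isHermitian_diagonal_of_self_adjoint
  ext i
  simp

theorem sum_f_diag (x : d → ℝ) (f : ℝ → ℝ) :
    ∑ i, f ((isHermitian_diag x).eigenvalues i) = ∑ i, f (x i) := by
  rw [sum_f_eig, charpoly_diagonal, Polynomial.roots_prod _ _ (by
    simp [Finset.prod_ne_zero_iff, Polynomial.X_sub_C_ne_zero])]
  simp

theorem vn_diag (x : d → ℝ) : vnEntropy (diagonal (fun i => (x i : ℂ))) = ∑ i, negMulLog (x i) := by
  rw [vn_eq (isHermitian_diag x), sum_f_diag]

theorem charpoly_conj {U : Matrix d d ℂ} (hU : Uᴴ * U = 1) (ρ : Matrix d d ℂ) :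
    (U * ρ * Uᴴ).charpoly = ρ.charpoly := by
  rw [Matrix.charpoly_mul_comm, ← Matrix.mul_assoc, hU, Matrix.one_mul]

theorem vn_conj {U : Matrix d d ℂ} (hU : Uᴴ * U = 1) {ρ : Matrix d d ℂ} (hρ : ρ.IsHermitian) :
    vnEntropy (U * ρ * Uᴴ) = vnEntropy ρ := by
  apply vn_of_charpoly (isHermitian_mul_mul_conjTranspose U hρ) hρ
  exact charpoly_conj hU ρ

theorem vn_reindex (s : d ≃ e) {ρ : Matrix d d ℂ} (hρ : ρ.IsHermitian) :
    vnEntropy (Matrix.reindex s s ρ) = vnEntropy ρ := by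
  apply vn_of_charpoly (by simpa using hρ.submatrix s.symm) hρ
  exact Matrix.charpoly_reindex s ρ

/-- spectral decomposition -/
theorem exists_diag {ρ : Matrix d d ℂ} (hρ : ρ.IsHermitian) :
    ∃ U : Matrix d d ℂ, Uᴴ * U = 1 ∧ U * Uᴴ = 1 ∧
      ρ = U * diagonal (fun i => (hρ.eigenvalues i : ℂ)) * Uᴴ := by
  refine ⟨hρ.eigenvectorUnitary, ?_, ?_, ?_⟩
  · exact Unitary.coe_star_mul_self hρ.eigenvectorUnitary
  · exact Unitary.coe_mul_star_self hρ.eigenvectorUnitary
  · conv_lhs => rw [hρ.spectral_theorem]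
    rw [Unitary.conjStarAlgAut_apply]
    rfl

theorem det_add_smul_one {ρ : Matrix d d ℂ} (hρ : ρ.IsHermitian) (τ : ℝ) :
    (ρ + (τ : ℂ) • (1 : Matrix d d ℂ)).det = ((∏ i, (hρ.eigenvalues i + τ) : ℝ) : ℂ) := by
  obtain ⟨U, h1, h2, h3⟩ := exists_diag hρ
  have : ρ + (τ : ℂ) • (1 : Matrix d d ℂ) =
      U * (diagonal (fun i => ((hρ.eigenvalues i + τ : ℝ) : ℂ))) * Uᴴ := by
    have e1 : (diagonal (fun i => ((hρ.eigenvalues i + τ : ℝ) : ℂ))) =
        diagonal (fun i => (hρ.eigenvalues i : ℂ)) + (τ : ℂ) • (1 : Matrix d d ℂ) := by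
      rw [← diagonal_one, ← diagonal_smul, diagonal_add]
      congr 1
      ext i
      simp
    rw [e1, Matrix.mul_add, Matrix.add_mul, ← h3, Matrix.mul_smul, Matrix.smul_mul, Matrix.mul_one, h2]
  rw [this, det_mul, det_mul, mul_right_comm, ← det_mul, h2, det_one, one_mul, det_diagonal]
  push_cast
  rfl

theorem logdet {ρ : Matrix d d ℂ} (hρ : ρ.PosSemidef) {τ : ℝ} (hτ : 0 < τ) :
    Real.log ((ρ + (τ : ℂ) • (1 : Matrix d d ℂ)).det.re) = ∑ i, Real.log (hρ.1.eigenvalues i + τ) := by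
  rw [det_add_smul_one hρ.1, Complex.ofReal_re, Real.log_prod]
  intro i _
  have := hρ.eigenvalues_nonneg i
  positivity

theorem trace_re_eq {ρ : Matrix d d ℂ} (hρ : ρ.IsHermitian) :
    ρ.trace.re = ∑ i, hρ.eigenvalues i := by
  rw [hρ.trace_eq_sum_eigenvalues]
  simp

theorem vn_smul {ρ : Matrix d d ℂ} (hρ : ρ.IsHermitian) (c : ℝ) :
    vnEntropy ((c : ℂ) • ρ) = c * vnEntropy ρ + negMulLog c * ρ.trace.re := by
  obtain ⟨U, h1, h2, h3⟩ := exists_diag hρ
  have e1 : (c : ℂ) • ρ = U * (diagonal (fun i => ((c * hρ.eigenvalues i : ℝ) : ℂ))) * Uᴴ := by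
    have : (diagonal (fun i => ((c * hρ.eigenvalues i : ℝ) : ℂ))) =
        (c : ℂ) • diagonal (fun i => (hρ.eigenvalues i : ℂ)) := by
      rw [← diagonal_smul]
      congr 1
      ext i
      simp
    rw [this, Matrix.mul_smul, Matrix.smul_mul, ← h3]
  rw [e1, vn_conj h1 (isHermitian_diag _), vn_diag, vn_eq hρ, trace_re_eq hρ, Finset.mul_sum,
    Finset.mul_sum, ← Finset.sum_add_distrib]
  apply Finset.sum_congr rfl
  intro i _
  rw [negMulLog_mul]; ring

/-- Schur: the entropy is at most the entropy of the diagonal. -/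
theorem vn_le_diag {ρ : Matrix d d ℂ} (hρ : ρ.PosSemidef) :
    vnEntropy ρ ≤ ∑ i, negMulLog (ρ i i).re := by
  obtain ⟨U, h1, h2, h3⟩ := exists_diag hρ.1
  have hdiag : ∀ i, (ρ i i).re = ∑ j, Complex.normSq (U i j) * hρ.1.eigenvalues j := by
    intro i
    conv_lhs => rw [h3]
    rw [Matrix.mul_apply]
    simp only [Matrix.mul_diagonal, conjTranspose_apply]
    rw [Complex.re_sum]
    apply Finset.sum_congr rfl
    intro j _
    have : U i j * (hρ.1.eigenvalues j : ℂ) * star (U i j) = ((Complex.normSq (U i j) * hρ.1.eigenvalues j : ℝ) : ℂ) := by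
      push_cast
      rw [Complex.normSq_eq_conj_mul_self]
      simp only [Complex.star_def]
      ring
    rw [this, Complex.ofReal_re]
  have hrow : ∀ i, ∑ j, Complex.normSq (U i j) = 1 := by
    intro i
    have := congrFun (congrFun h2 i) i
    rw [Matrix.mul_apply, Matrix.one_apply_eq] at this
    have h := congrArg Complex.re this
    rw [Complex.re_sum] at h
    simp only [conjTranspose_apply, Complex.one_re] at h
    rw [← h]
    apply Finset.sum_congr rfl
    intro j _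
    rw [Complex.star_def, Complex.mul_conj, Complex.ofReal_re]
  have hcol : ∀ j, ∑ i, Complex.normSq (U i j) = 1 := by
    intro j
    have := congrFun (congrFun h1 j) j
    rw [Matrix.mul_apply, Matrix.one_apply_eq] at this
    have h := congrArg Complex.re this
    rw [Complex.re_sum] at h
    simp only [conjTranspose_apply, Complex.one_re] at h
    rw [← h]
    apply Finset.sum_congr rfl
    intro i _
    rw [Complex.star_def, mul_comm, Complex.mul_conj, Complex.ofReal_re]
  rw [vn_eq hρ.1]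
  calc ∑ j, negMulLog (hρ.1.eigenvalues j)
      = ∑ j, ∑ i, Complex.normSq (U i j) * negMulLog (hρ.1.eigenvalues j) := by
        apply Finset.sum_congr rfl
        intro j _
        rw [← Finset.sum_mul, hcol, one_mul]
    _ = ∑ i, ∑ j, Complex.normSq (U i j) * negMulLog (hρ.1.eigenvalues j) := Finset.sum_comm
    _ ≤ ∑ i, negMulLog (ρ i i).re := by
        apply Finset.sum_le_sum
        intro i _
        rw [hdiag i]
        have := concaveOn_negMulLog.le_map_sum (t := Finset.univ) (w := fun j => Complex.normSq (U i j))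
          (p := fun j => hρ.1.eigenvalues j) (fun j _ => Complex.normSq_nonneg _) (hrow i)
          (fun j _ => hρ.eigenvalues_nonneg j)
        simpa only [smul_eq_mul] using this

/-- Schur's bound in another orthonormal basis. -/
theorem vn_le_diag_conj {ρ : Matrix d d ℂ} (hρ : ρ.PosSemidef) {V : Matrix d d ℂ}
    (hV : V * Vᴴ = 1) :
    vnEntropy ρ ≤ ∑ i, negMulLog ((Vᴴ * ρ * V) i i).re := by
  have h1 : vnEntropy (Vᴴ * ρ * V) = vnEntropy ρ := by
    have := vn_conj (U := Vᴴ) (by rw [conjTranspose_conjTranspose]; exact hV) hρ.1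
    rwa [conjTranspose_conjTranspose] at this
  rw [← h1]
  exact vn_le_diag (hρ.conjTranspose_mul_mul_same V)

theorem vn_concave {X Y : Matrix d d ℂ} (hX : X.PosSemidef) (hY : Y.PosSemidef) {s t : ℝ}
    (hs : 0 ≤ s) (ht : 0 ≤ t) (hst : s + t = 1) :
    s * vnEntropy X + t * vnEntropy Y ≤ vnEntropy ((s : ℂ) • X + (t : ℂ) • Y) := by
  have hZ : ((s : ℂ) • X + (t : ℂ) • Y).PosSemidef :=
    (hX.smul (by exact_mod_cast hs)).add (hY.smul (by exact_mod_cast ht))
  obtain ⟨V, h1, h2, h3⟩ := exists_diag hZ.1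
  have hd : ∀ i, hZ.1.eigenvalues i = s * ((Vᴴ * X * V) i i).re + t * ((Vᴴ * Y * V) i i).re := by
    intro i
    have : Vᴴ * ((s : ℂ) • X + (t : ℂ) • Y) * V = diagonal (fun i => (hZ.1.eigenvalues i : ℂ)) := by
      conv_lhs => rw [h3]
      calc Vᴴ * (V * diagonal (fun i => (hZ.1.eigenvalues i : ℂ)) * Vᴴ) * V
          = (Vᴴ * V) * diagonal (fun i => (hZ.1.eigenvalues i : ℂ)) * (Vᴴ * V) := by
            simp only [Matrix.mul_assoc]
        _ = _ := by rw [h1, Matrix.one_mul, Matrix.mul_one]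
    have h4 := congrArg Complex.re (congrFun (congrFun this i) i)
    rw [diagonal_apply_eq, Complex.ofReal_re] at h4
    rw [← h4]
    simp [Matrix.mul_add, Matrix.add_mul]
  have hXi : ∀ i, 0 ≤ ((Vᴴ * X * V) i i).re := fun i =>
    (Complex.le_def.1 (hX.conjTranspose_mul_mul_same V).diag_nonneg).1
  have hYi : ∀ i, 0 ≤ ((Vᴴ * Y * V) i i).re := fun i =>
    (Complex.le_def.1 (hY.conjTranspose_mul_mul_same V).diag_nonneg).1
  calc s * vnEntropy X + t * vnEntropy Y
      ≤ s * ∑ i, negMulLog ((Vᴴ * X * V) i i).re + t * ∑ i, negMulLog ((Vᴴ * Y * V) i i).re := by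
        have a1 := vn_le_diag_conj hX h2
        have a2 := vn_le_diag_conj hY h2
        gcongr
    _ = ∑ i, (s * negMulLog ((Vᴴ * X * V) i i).re + t * negMulLog ((Vᴴ * Y * V) i i).re) := by
        rw [Finset.mul_sum, Finset.mul_sum, Finset.sum_add_distrib]
    _ ≤ ∑ i, negMulLog (hZ.1.eigenvalues i) := by
        apply Finset.sum_le_sum
        intro i _
        rw [hd i]
        have := concaveOn_negMulLog.2 (hXi i) (hYi i) hs ht hst
        simpa only [smul_eq_mul] using this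
    _ = _ := (vn_eq hZ.1).symm

/-- homogeneous entropy -/
noncomputable def St (X : Matrix d d ℂ) : ℝ := vnEntropy X - negMulLog X.trace.re

theorem St_smul {X : Matrix d d ℂ} (hX : X.IsHermitian) (c : ℝ) :
    St ((c : ℂ) • X) = c * St X := by
  unfold St
  rw [vn_smul hX, trace_smul]
  have : ((c : ℂ) • X.trace).re = c * X.trace.re := by simp
  rw [this, negMulLog_mul]
  ring

theorem St_zero : St (0 : Matrix d d ℂ) = 0 := by
  have h := St_smul (X := (0 : Matrix d d ℂ)) isHermitian_zero 0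
  rw [smul_zero, zero_mul] at h
  exact h

theorem posSemidef_trace_re_nonneg {X : Matrix d d ℂ} (hX : X.PosSemidef) : 0 ≤ X.trace.re :=
  (Complex.le_def.1 hX.trace_nonneg).1

theorem posSemidef_trace_im {X : Matrix d d ℂ} (hX : X.IsHermitian) : X.trace.im = 0 := by
  rw [hX.trace_eq_sum_eigenvalues]
  simp

theorem eq_zero_of_trace_re {X : Matrix d d ℂ} (hX : X.PosSemidef) (h : X.trace.re = 0) : X = 0 := by
  rw [← hX.trace_eq_zero_iff]
  apply Complex.ext
  · simpa using h
  · simpa using posSemidef_trace_im hX.1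

theorem exists_normalized {X : Matrix d d ℂ} (hX : X.PosSemidef) (h : 0 < X.trace.re) :
    ∃ X' : Matrix d d ℂ, X'.PosSemidef ∧ X'.trace.re = 1 ∧ X = (X.trace.re : ℂ) • X' := by
  refine ⟨((X.trace.re⁻¹ : ℝ) : ℂ) • X, hX.smul (by exact_mod_cast (inv_nonneg.2 h.le)), ?_, ?_⟩
  · rw [trace_smul]
    simp only [smul_eq_mul, Complex.re_ofReal_mul]
    exact inv_mul_cancel₀ h.ne'
  · rw [smul_smul, ← Complex.ofReal_mul, mul_inv_cancel₀ h.ne']; simp

theorem St_add {X Y : Matrix d d ℂ} (hX : X.PosSemidef) (hY : Y.PosSemidef) :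
    St X + St Y ≤ St (X + Y) := by
  have hx := posSemidef_trace_re_nonneg hX
  have hy := posSemidef_trace_re_nonneg hY
  rcases hx.eq_or_lt with h | hx'
  · rw [eq_zero_of_trace_re hX h.symm, St_zero]; simp
  rcases hy.eq_or_lt with h | hy'
  · rw [eq_zero_of_trace_re hY h.symm, St_zero]; simp
  obtain ⟨X', pX', tX', eX⟩ := exists_normalized hX hx'
  obtain ⟨Y', pY', tY', eY⟩ := exists_normalized hY hy'
  generalize X.trace.re = x at *
  generalize Y.trace.re = y at *
  subst eX eY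
  have hz : 0 < x + y := by positivity
  have hc := vn_concave pX' pY' (s := x / (x + y)) (t := y / (x + y)) (by positivity) (by positivity)
    (by field_simp)
  have hsum : (x : ℂ) • X' + (y : ℂ) • Y' = ((x + y : ℝ) : ℂ) • (((x / (x + y) : ℝ) : ℂ) • X' + ((y / (x + y) : ℝ) : ℂ) • Y') := by
    rw [smul_add, smul_smul, smul_smul, ← Complex.ofReal_mul, ← Complex.ofReal_mul,
      mul_div_cancel₀ _ hz.ne', mul_div_cancel₀ _ hz.ne']
  have pZ : (((x / (x + y) : ℝ) : ℂ) • X' + ((y / (x + y) : ℝ) : ℂ) • Y').PosSemidef :=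
    (pX'.smul (by exact_mod_cast (by positivity : (0:ℝ) ≤ x / (x + y)))).add
      (pY'.smul (by exact_mod_cast (by positivity : (0:ℝ) ≤ y / (x + y))))
  have tZ : (((x / (x + y) : ℝ) : ℂ) • X' + ((y / (x + y) : ℝ) : ℂ) • Y').trace.re = 1 := by
    rw [trace_add, trace_smul, trace_smul]
    simp only [smul_eq_mul, Complex.add_re, Complex.re_ofReal_mul, tX', tY']
    field_simp
  have sX : St X' = vnEntropy X' := by
    rw [St, tX', negMulLog_one, sub_zero]
  have sY : St Y' = vnEntropy Y' := by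
    rw [St, tY', negMulLog_one, sub_zero]
  have sZ : St (((x / (x + y) : ℝ) : ℂ) • X' + ((y / (x + y) : ℝ) : ℂ) • Y') = vnEntropy (((x / (x + y) : ℝ) : ℂ) • X' + ((y / (x + y) : ℝ) : ℂ) • Y') := by
    rw [St, tZ, negMulLog_one, sub_zero]
  rw [hsum, St_smul pZ.1, sZ, St_smul pX'.1, St_smul pY'.1, sX, sY]
  have h5 := mul_le_mul_of_nonneg_left hc hz.le
  have h6 : (x + y) * (x / (x + y) * vnEntropy X' + y / (x + y) * vnEntropy Y') = x * vnEntropy X' + y * vnEntropy Y' := by
    field_simp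
  linarith

end Crest.Agent.GAD
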