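import Mathlib

/-! A determinant inequality for positive semidefinite matrices. -/

set_option autoImplicit false
set_option linter.unusedSectionVars false

namespace Crest.Agent.GAD

open Matrix
open scoped ComplexOrder

variable {n : Type*} [Fintype n] [DecidableEq n]

/-- real part of the quadratic form -/
noncomputable def qf (M : Matrix n n ℂ) (x : n → ℂ) : ℝ := (star x ⬝ᵥ (M *ᵥ x)).re

theorem qf_nonneg {M : Matrix n n ℂ} (hM : M.PosSemidef) (x : n → ℂ) : 0 ≤ qf M x :=
  (Complex.le_def.1 (hM.dotProduct_mulVec_nonneg x)).1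

theorem psd_of_qf {M : Matrix n n ℂ} (hM : M.IsHermitian) (h : ∀ x, 0 ≤ qf M x) : M.PosSemidef := by
  apply PosSemidef.of_dotProduct_mulVec_nonneg hM
  intro x
  rw [Complex.le_def]
  refine ⟨h x, ?_⟩
  have : star (star x ⬝ᵥ (M *ᵥ x)) = star x ⬝ᵥ (M *ᵥ x) := by
    rw [← star_dotProduct, star_mulVec, hM.eq, ← dotProduct_mulVec]
  have h2 := Complex.conj_eq_iff_im.1 this
  rw [h2]; rfl

theorem qf_single {M : Matrix n n ℂ} (i : n) : qf M (Pi.single i 1) = (M i i).re := by
  unfold qf
  simp [dotProduct, Pi.single_apply, apply_ite]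

theorem qf_expand {M : Matrix n n ℂ} (hM : M.IsHermitian) (x : n → ℂ) (c : ℂ) (i : n) :
    qf M (x - c • Pi.single i 1) = qf M x - 2 * (star c * (M *ᵥ x) i).re + ‖c‖ ^ 2 * (M i i).re := by
  have h1 : star (Pi.single i (1:ℂ) : n → ℂ) = Pi.single i 1 := by
    ext j; simp [Pi.single_apply, apply_ite]
  have e1 : star x ⬝ᵥ (M *ᵥ Pi.single i 1) = star ((M *ᵥ x) i) := by
    rw [dotProduct_mulVec, dotProduct_single_one]
    rw [← hM.eq, ← star_mulVec, Pi.star_apply, hM.eq]
  have e2 : Pi.single i 1 ⬝ᵥ (M *ᵥ x) = (M *ᵥ x) i := by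
    rw [single_one_dotProduct]
  have e3 : (Pi.single i 1 : n → ℂ) ⬝ᵥ (M *ᵥ Pi.single i 1) = M i i := by
    rw [single_one_dotProduct]
    simp
  unfold qf
  rw [star_sub, star_smul, h1, mulVec_sub, mulVec_smul, sub_dotProduct, dotProduct_sub, dotProduct_sub,
    dotProduct_smul, dotProduct_smul, smul_dotProduct, smul_dotProduct, e1, e2, e3]
  simp only [smul_eq_mul, Complex.sub_re]
  have e4 : (c * star ((M *ᵥ x) i)).re = (star c * (M *ᵥ x) i).re := by
    rw [← Complex.conj_re (c * star ((M *ᵥ x) i))]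
    simp
  have e5 : (c * (star c * M i i)).re = ‖c‖ ^ 2 * (M i i).re := by
    rw [← mul_assoc, Complex.star_def, Complex.mul_conj, Complex.normSq_eq_norm_sq]
    rw [Complex.re_ofReal_mul]
  rw [e4, e5]
  ring

theorem cs {M : Matrix n n ℂ} (hM : M.PosSemidef) (x : n → ℂ) (i : n) :
    ‖(M *ᵥ x) i‖ ^ 2 ≤ (M i i).re * qf M x := by
  have h : ∀ t : ℝ, 0 ≤ qf M x - 2 * t * ‖(M *ᵥ x) i‖ ^ 2 + t ^ 2 * ‖(M *ᵥ x) i‖ ^ 2 * (M i i).re := by
    intro t
    have h1 := qf_nonneg hM (x - ((t : ℂ) * (M *ᵥ x) i) • Pi.single i 1)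
    rw [qf_expand hM.1] at h1
    have e1 : (star ((t : ℂ) * (M *ᵥ x) i) * (M *ᵥ x) i).re = t * ‖(M *ᵥ x) i‖ ^ 2 := by
      rw [Complex.star_def, map_mul, Complex.conj_ofReal, mul_assoc, ← Complex.normSq_eq_conj_mul_self,
        Complex.re_ofReal_mul, Complex.ofReal_re, Complex.normSq_eq_norm_sq]
    have e2 : ‖(t : ℂ) * (M *ᵥ x) i‖ ^ 2 = t ^ 2 * ‖(M *ᵥ x) i‖ ^ 2 := by
      rw [norm_mul, mul_pow, Complex.norm_real, Real.norm_eq_abs, sq_abs]
    rw [e1, e2] at h1
    linarith
  have hii : 0 ≤ (M i i).re := (Complex.le_def.1 hM.diag_nonneg).1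
  set N := ‖(M *ᵥ x) i‖ ^ 2 with hN
  have hN0 : 0 ≤ N := by positivity
  have hq := qf_nonneg hM x
  rcases hii.eq_or_lt with h0 | h0
  · rw [← h0] at h ⊢
    by_contra hcon
    have hNpos : 0 < N := by linarith
    have := h ((qf M x + 1) / (2 * N))
    have e : 2 * ((qf M x + 1) / (2 * N)) * N = qf M x + 1 := by field_simp
    rw [e] at this
    linarith
  · have := h ((M i i).re)⁻¹
    have e : qf M x - 2 * ((M i i).re)⁻¹ * N + ((M i i).re)⁻¹ ^ 2 * N * (M i i).re = qf M x - N / (M i i).re := by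
      field_simp
      ring
    rw [e] at this
    have h2 : N / (M i i).re ≤ qf M x := by linarith
    rw [div_le_iff₀ h0] at h2
    linarith

theorem row_zero {M : Matrix n n ℂ} (hM : M.PosSemidef) {i : n} (h : (M i i).re = 0) (j : n) :
    M i j = 0 := by
  have h1 := cs hM (Pi.single j 1) i
  rw [h, zero_mul] at h1
  have h2 : (M *ᵥ Pi.single j 1) i = M i j := by simp
  rw [h2] at h1
  have : ‖M i j‖ ^ 2 = 0 := le_antisymm h1 (by positivity)
  simpa using this

theorem inv_qf_ge {Q : Matrix n n ℂ} (hQ : Q.PosDef) (v : n → ℂ) (i : n) :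
    ‖v i‖ ^ 2 / (Q i i).re ≤ (star v ⬝ᵥ (Q⁻¹ *ᵥ v)).re := by
  have hdet : IsUnit Q.det := (Matrix.isUnit_iff_isUnit_det _).1 hQ.isUnit
  have h1 := cs hQ.posSemidef (Q⁻¹ *ᵥ v) i
  rw [mulVec_mulVec, mul_nonsing_inv _ hdet, one_mulVec] at h1
  have hpos : 0 < (Q i i).re := by
    have : Nontrivial ℂ := inferInstance
    exact (Complex.lt_def.1 hQ.diag_pos).1
  have e : qf Q (Q⁻¹ *ᵥ v) = (star v ⬝ᵥ (Q⁻¹ *ᵥ v)).re := by
    unfold qf
    rw [mulVec_mulVec, mul_nonsing_inv _ hdet, one_mulVec, star_mulVec, hQ.inv.1.eq, ← dotProduct_mulVec]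
  rw [e] at h1
  rw [div_le_iff₀ hpos]
  linarith

theorem posDef_det_re {Q : Matrix n n ℂ} (hQ : Q.PosDef) : 0 < Q.det.re ∧ Q.det.im = 0 := by
  have := Complex.lt_def.1 hQ.det_pos
  exact ⟨this.1, this.2.symm⟩

theorem det_rank_one {Q : Matrix n n ℂ} (hQ : Q.PosDef) (v : n → ℂ) (i : n) :
    Q.det.re * (1 + ‖v i‖ ^ 2 / (Q i i).re) ≤ (Q + vecMulVec v (star v)).det.re := by
  have hdet : IsUnit Q.det := (Matrix.isUnit_iff_isUnit_det _).1 hQ.isUnit
  rw [vecMulVec_eq Unit, det_add_replicateCol_mul_replicateRow hdet]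
  have e : (1 + replicateRow Unit (star v) * Q⁻¹ * replicateCol Unit v).det = 1 + star v ⬝ᵥ (Q⁻¹ *ᵥ v) := by
    rw [det_unique, Matrix.add_apply, one_apply_eq, Matrix.mul_assoc, ← replicateCol_mulVec, replicateRow_mul_replicateCol_apply]
  obtain ⟨h1, h2⟩ := posDef_det_re hQ
  rw [e, Complex.mul_re, h2, zero_mul, sub_zero, Complex.add_re, Complex.one_re]
  have := inv_qf_ge hQ v i
  gcongr


theorem det_core_aux {U : Matrix n n ℂ} (hU : U.PosDef) (s : Finset n) :
    ∀ (H : Matrix n n ℂ), H.PosSemidef → (∀ i, i ∉ s → ∀ j, H i j = 0) → ∀ h : n → ℝ,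
      (∀ i, 0 ≤ h i) → (∀ i ∈ s, ∀ z, h i * ‖z i‖ ^ 2 ≤ qf H z) →
      U.det.re * ∏ i ∈ s, (1 + h i / (U i i).re) ≤ (U + H).det.re := by
  have hUpos : ∀ i, 0 < (U i i).re := fun i => (Complex.lt_def.1 hU.diag_pos).1
  induction s using Finset.induction_on with
  | empty =>
    intro H hH hz h hh hb
    have : H = 0 := by
      ext i j
      exact hz i (by simp) j
    rw [this]
    simp
  | insert i s his ih =>
    intro H hH hz h hh hb
    have hi0 : h i ≤ (H i i).re := by
      have := hb i (Finset.mem_insert_self i s) (Pi.single i 1)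
      rw [qf_single] at this
      simpa using this
    rcases ((hh i).trans hi0).eq_or_lt with h0 | h0
    · have hi : h i = 0 := le_antisymm (by rw [h0]; exact hi0) (hh i)
      rw [Finset.prod_insert his, hi, zero_div, add_zero, one_mul]
      apply ih H hH _ h hh (fun k hk => hb k (Finset.mem_insert_of_mem hk))
      intro k hk j
      by_cases hki : k = i
      · rw [hki]; exact row_zero hH h0.symm j
      · exact hz k (by simp [hki, hk]) j
    · set P : Matrix n n ℂ := 1 - (((H i i).re⁻¹ : ℝ) : ℂ) • vecMulVec (Pi.single i 1) (fun j => H i j) with hP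
      set H' : Matrix n n ℂ := Pᴴ * H * P with hH'
      have hHii : H i i = ((H i i).re : ℂ) := by
        apply Complex.ext
        · simp
        · rw [Complex.ofReal_im]; exact (Complex.le_def.1 hH.diag_nonneg).2.symm
      have hcol : ∀ j, H j i = star (H i j) := fun j => (hH.1.apply j i).symm
      have hcne : (((H i i).re⁻¹ : ℝ) : ℂ) * H i i = 1 := by
        rw [hHii, Complex.ofReal_re, ← Complex.ofReal_mul, inv_mul_cancel₀ h0.ne', Complex.ofReal_one]
      have hHst : star (H i i) = H i i := by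
        rw [hHii]; simp
      have e1 : H * P = H - (((H i i).re⁻¹ : ℝ) : ℂ) • vecMulVec (star (fun j => H i j)) (fun j => H i j) := by
        rw [hP, Matrix.mul_sub, Matrix.mul_one, Matrix.mul_smul]
        congr 2
        rw [mul_vecMulVec]
        congr 1
        ext j
        simp [hcol]
      have e2 : Pᴴ = 1 - (((H i i).re⁻¹ : ℝ) : ℂ) • vecMulVec (star (fun j => H i j)) (Pi.single i 1) := by
        ext j k
        simp only [hP, conjTranspose_apply, Matrix.sub_apply, Matrix.smul_apply, vecMulVec_apply, one_apply, Pi.single_apply,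
          Pi.star_apply, smul_eq_mul, star_sub, star_mul']
        simp only [apply_ite star, star_one, star_zero, Complex.star_def, Complex.conj_ofReal]
        simp only [eq_comm (a := k) (b := j)]
        ring
      have hrowi : ∀ j, (H * P) i j = 0 := by
        intro j
        rw [e1]
        simp only [Matrix.sub_apply, Matrix.smul_apply, vecMulVec_apply, Pi.star_apply, smul_eq_mul]
        rw [hHst, ← mul_assoc, hcne]
        ring
      have hH'eq : H' = H - (((H i i).re⁻¹ : ℝ) : ℂ) • vecMulVec (star (fun j => H i j)) (fun j => H i j) := by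
        rw [hH', Matrix.mul_assoc, e2, Matrix.sub_mul, Matrix.one_mul, Matrix.smul_mul, vecMulVec_mul]
        have : (Pi.single i (1:ℂ) : n → ℂ) ᵥ* (H * P) = 0 := by
          ext j
          rw [single_one_vecMul]
          exact hrowi j
        rw [this, vecMulVec_zero, smul_zero, sub_zero, e1]
      have hsq : (((√((H i i).re)⁻¹ : ℝ) : ℂ)) * (((√((H i i).re)⁻¹ : ℝ) : ℂ)) = (((H i i).re⁻¹ : ℝ) : ℂ) := by
        rw [← Complex.ofReal_mul]
        congr 1
        exact Real.mul_self_sqrt (by positivity)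
      have hsum : H = H' + vecMulVec (((√((H i i).re)⁻¹ : ℝ) : ℂ) • star (fun j => H i j)) (star (((√((H i i).re)⁻¹ : ℝ) : ℂ) • star (fun j => H i j))) := by
        rw [hH'eq, star_smul, star_star, smul_vecMulVec, vecMulVec_smul, smul_smul]
        rw [Complex.star_def, Complex.conj_ofReal, hsq]
        simp
      have hH'psd : H'.PosSemidef := hH.conjTranspose_mul_mul_same P
      have hrow : ∀ k, k ∉ s → ∀ j, H' k j = 0 := by
        intro k hk j
        rw [hH'eq]
        simp only [Matrix.sub_apply, Matrix.smul_apply, vecMulVec_apply, Pi.star_apply, smul_eq_mul]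
        by_cases hki : k = i
        · rw [hki, hHst, ← mul_assoc, hcne]
          ring
        · have hk2 : k ∉ insert i s := by simp [hki, hk]
          rw [hz k hk2 j, ← hcol k, hz k hk2 i]
          ring
      have hb' : ∀ k ∈ s, ∀ z, h k * ‖z k‖ ^ 2 ≤ qf H' z := by
        intro k hk z
        have hki : k ≠ i := fun hh => his (hh ▸ hk)
        have e3 : qf H' z = qf H (P *ᵥ z) := by
          unfold qf
          rw [hH', star_mulVec, ← mulVec_mulVec, ← mulVec_mulVec, ← dotProduct_mulVec]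
        have e4 : (P *ᵥ z) k = z k := by
          rw [hP, sub_mulVec, one_mulVec, smul_mulVec, Pi.sub_apply, Pi.smul_apply]
          have : (vecMulVec (Pi.single i 1) (fun j => H i j) *ᵥ z) k = 0 := by
            simp [mulVec, dotProduct, vecMulVec_apply, hki]
          rw [this]
          simp
        rw [e3, ← e4]
        exact hb k (Finset.mem_insert_of_mem hk) _
      have h1 := ih H' hH'psd hrow h hh hb'
      have hQ : (U + H').PosDef := hU.add_posSemidef hH'psd
      have h2 := det_rank_one hQ (((√((H i i).re)⁻¹ : ℝ) : ℂ) • star (fun j => H i j)) i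
      rw [add_assoc, ← hsum] at h2
      rw [Finset.prod_insert his]
      have h3 : ‖(((√((H i i).re)⁻¹ : ℝ) : ℂ) • star (fun j => H i j)) i‖ ^ 2 / ((U + H') i i).re = (H i i).re / (U i i).re := by
        have e5 : H' i i = 0 := hrow i his i
        have e6 : ‖(((√((H i i).re)⁻¹ : ℝ) : ℂ) • star (fun j => H i j)) i‖ ^ 2 = (H i i).re := by
          rw [Pi.smul_apply, Pi.star_apply, hHst, smul_eq_mul, norm_mul, mul_pow, Complex.norm_real,
            Real.norm_eq_abs, sq_abs, Real.sq_sqrt (by positivity)]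
          conv_lhs => rw [hHii]
          rw [Complex.norm_real, Real.norm_eq_abs, sq_abs, Complex.ofReal_re]
          field_simp
        rw [e6, Matrix.add_apply, e5, add_zero]
      rw [h3] at h2
      have hd : 0 < (U + H').det.re := (posDef_det_re hQ).1
      calc U.det.re * ((1 + h i / (U i i).re) * ∏ x ∈ s, (1 + h x / (U x x).re))
          = (U.det.re * ∏ x ∈ s, (1 + h x / (U x x).re)) * (1 + h i / (U i i).re) := by ring
        _ ≤ (U + H').det.re * (1 + h i / (U i i).re) := by
            have := hUpos i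
            have := hh i
            gcongr
        _ ≤ (U + H').det.re * (1 + (H i i).re / (U i i).re) := by
            have := hUpos i
            gcongr
        _ ≤ _ := h2

theorem det_core {U H : Matrix n n ℂ} (hU : U.PosDef) (hH : H.PosSemidef) (h : n → ℝ)
    (hh : ∀ i, 0 ≤ h i) (hb : ∀ i z, h i * ‖z i‖ ^ 2 ≤ qf H z) :
    U.det.re * ∏ i, (1 + h i / (U i i).re) ≤ (U + H).det.re :=
  det_core_aux hU Finset.univ H hH (fun i hi => absurd (Finset.mem_univ i) hi) h hh (fun i _ => hb i)

end Crest.Agent.GAD
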