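import Mathlib
import Crest.Agent.GAD.DetIneq

/-! The determinant inequality for block matrices. -/

set_option autoImplicit false
set_option linter.unusedSectionVars false

namespace Crest.Agent.GAD

open Matrix
open scoped ComplexOrder

variable {κ : Type*} [Fintype κ] [DecidableEq κ]

theorem scalar_cs {a k c τ N W ζ P Y : ℝ} (ha : 0 ≤ a) (hk : 0 ≤ k) (hc : 0 ≤ c) (hτ : 0 < τ)
    (hN : 0 ≤ N) (hW : 0 ≤ W) (hζ : 0 ≤ ζ)
    (h1 : a * ζ ≤ P + √k * Y) (h2 : P ^ 2 ≤ a * N) (h3 : Y ^ 2 ≤ c * W) :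
    τ * a / (τ + k * c / a) * ζ ^ 2 ≤ N + τ * W := by
  rcases ha.eq_or_lt with h0 | h0
  · rw [← h0]; simp; positivity
  have hsk : √k ^ 2 = k := Real.sq_sqrt hk
  have e : τ * a / (τ + k * c / a) = τ * a ^ 2 / (τ * a + k * c) := by field_simp
  have hden : 0 < τ * a + k * c := by positivity
  rw [e, div_mul_eq_mul_div, div_le_iff₀ hden]
  have h4 : a ^ 2 * ζ ^ 2 ≤ (P + √k * Y) ^ 2 := by
    rw [← mul_pow]
    gcongr
  have h5 : (τ * √k * (P * Y)) ^ 2 ≤ ((k * c * N + τ ^ 2 * a * W) / 2) ^ 2 := by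
    have e1 : (τ * √k * (P * Y)) ^ 2 = τ ^ 2 * k * (P ^ 2 * Y ^ 2) := by
      rw [mul_pow, mul_pow, mul_pow, hsk]
    have e2 : P ^ 2 * Y ^ 2 ≤ (a * N) * (c * W) := by gcongr
    have e3 : τ ^ 2 * k * (P ^ 2 * Y ^ 2) ≤ τ ^ 2 * k * ((a * N) * (c * W)) := by gcongr
    rw [e1]
    nlinarith [sq_nonneg (k * c * N - τ ^ 2 * a * W)]
  have h6 : τ * √k * (P * Y) ≤ (k * c * N + τ ^ 2 * a * W) / 2 := by
    apply le_of_sq_le_sq h5 (by positivity)
  have h7 : τ * (P + √k * Y) ^ 2 = τ * P ^ 2 + 2 * (τ * √k * (P * Y)) + τ * k * Y ^ 2 := by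
    linear_combination τ * Y ^ 2 * hsk
  have h8 : τ * P ^ 2 ≤ τ * (a * N) := by gcongr
  have h9 : τ * k * Y ^ 2 ≤ τ * k * (c * W) := by gcongr
  have h10 : τ * (a ^ 2 * ζ ^ 2) ≤ τ * (P + √k * Y) ^ 2 := by gcongr
  nlinarith

theorem qf_add (M N : Matrix κ κ ℂ) (x : κ → ℂ) : qf (M + N) x = qf M x + qf N x := by
  unfold qf; rw [add_mulVec, dotProduct_add, Complex.add_re]

theorem qf_sub (M N : Matrix κ κ ℂ) (x : κ → ℂ) : qf (M - N) x = qf M x - qf N x := by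
  unfold qf; rw [sub_mulVec, dotProduct_sub, Complex.sub_re]

theorem norm_sq_sum_le (c w : κ → ℂ) :
    ‖∑ j, c j * w j‖ ^ 2 ≤ (∑ j, ‖c j‖ ^ 2) * ∑ j, ‖w j‖ ^ 2 := by
  calc ‖∑ j, c j * w j‖ ^ 2 ≤ (∑ j, ‖c j‖ * ‖w j‖) ^ 2 := by
        gcongr
        refine (norm_sum_le _ _).trans ?_
        apply le_of_eq
        apply Finset.sum_congr rfl
        intro j _
        rw [norm_mul]
    _ ≤ _ := Finset.sum_mul_sq_le_sq_mul_sq _ _ _


theorem qf_diag (a : κ → ℝ) (x : κ → ℂ) :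
    qf (diagonal (fun i => (a i : ℂ))) x = ∑ i, a i * ‖x i‖ ^ 2 := by
  unfold qf
  rw [dotProduct, Complex.re_sum]
  apply Finset.sum_congr rfl
  intro i _
  rw [mulVec_diagonal, Pi.star_apply, Complex.star_def]
  have : (starRingEnd ℂ) (x i) * (↑(a i) * x i) = ((a i * ‖x i‖ ^ 2 : ℝ) : ℂ) := by
    rw [← Complex.normSq_eq_norm_sq]
    push_cast
    rw [Complex.normSq_eq_conj_mul_self]
    ring
  rw [this, Complex.ofReal_re]

/-- the perturbed block matrix used in the proof -/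
theorem block_psd (a : κ → ℝ) (C B : Matrix κ κ ℂ)
    (hT : (fromBlocks (diagonal (fun i => (a i : ℂ))) C Cᴴ B).PosSemidef) {k : ℝ} (hk : 0 ≤ k) :
    (fromBlocks (diagonal (fun i => (a i : ℂ))) (((√k : ℝ) : ℂ) • C) ((((√k : ℝ) : ℂ) • C))ᴴ
      ((k : ℂ) • B)).PosSemidef := by
  have h := hT.conjTranspose_mul_mul_same (fromBlocks (1 : Matrix κ κ ℂ) 0 0 (((√k : ℝ) : ℂ) • (1 : Matrix κ κ ℂ)))
  convert! h using 1
  rw [fromBlocks_conjTranspose, fromBlocks_multiply, fromBlocks_multiply]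
  congr 1 <;> simp [smul_smul, Real.mul_self_sqrt hk, conjTranspose_smul]

theorem block_h_bound (a : κ → ℝ) (C B : Matrix κ κ ℂ)
    (hT : (fromBlocks (diagonal (fun i => (a i : ℂ))) C Cᴴ B).PosSemidef) {k τ : ℝ} (hk : 0 ≤ k)
    (hτ : 0 < τ) (i : κ) :
    (fromBlocks (diagonal (fun i => (a i : ℂ)) - ((τ * a i / (τ + k * (∑ j, ‖C i j‖ ^ 2) / a i) : ℝ) : ℂ) • Matrix.single i i 1)
      (((√k : ℝ) : ℂ) • C) ((((√k : ℝ) : ℂ) • C))ᴴ
      ((k : ℂ) • B + (τ : ℂ) • 1)).PosSemidef := by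
  have hT' := block_psd a C B hT hk
  have ha : 0 ≤ a i := by
    have := (Complex.le_def.1 (hT.diag_nonneg (i := Sum.inl i))).1
    simpa using this
  set h : ℝ := τ * a i / (τ + k * (∑ j, ‖C i j‖ ^ 2) / a i) with hh
  set T' := (fromBlocks (diagonal (fun i => (a i : ℂ))) (((√k : ℝ) : ℂ) • C) ((((√k : ℝ) : ℂ) • C))ᴴ
      ((k : ℂ) • B)) with hT'def
  have hdecomp : (fromBlocks (diagonal (fun i => (a i : ℂ)) - (h : ℂ) • Matrix.single i i 1)
      (((√k : ℝ) : ℂ) • C) ((((√k : ℝ) : ℂ) • C))ᴴ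
      ((k : ℂ) • B + (τ : ℂ) • 1)) = T' + diagonal (fun x => ((Sum.elim (fun j => if j = i then -h else 0) (fun _ => τ) x : ℝ) : ℂ)) := by
    rw [hT'def]
    ext x y
    rcases x with x | x <;> rcases y with y | y
    · simp only [fromBlocks_apply₁₁, Matrix.sub_apply, Matrix.smul_apply, Matrix.add_apply, diagonal_apply, Matrix.single_apply,
        Sum.inl.injEq, Sum.elim_inl, smul_eq_mul]
      by_cases hxy : x = y
      · subst hxy
        by_cases hxi : x = i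
        · subst hxi; simp; ring
        · simp [hxi, Ne.symm hxi, eq_comm (a := i)]
      · have : ¬ (i = x ∧ i = y) := fun hc => hxy (hc.1.symm.trans hc.2)
        simp [hxy, this]
    · simp
    · simp
    · simp [diagonal_apply, Matrix.one_apply]
  rw [hdecomp]
  apply psd_of_qf
  · exact hT'.1.add (isHermitian_diagonal_of_self_adjoint _ (by ext x; simp))
  · intro x
    rw [qf_add, qf_diag, Fintype.sum_sum_type]
    have e1 : ∑ a₁, Sum.elim (fun j => if j = i then -h else 0) (fun _ => τ) (Sum.inl a₁ : κ ⊕ κ) * ‖x (Sum.inl a₁)‖ ^ 2 = - (h * ‖x (Sum.inl i)‖ ^ 2) := by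
      simp
    have e2 : ∑ a₂, Sum.elim (fun j => if j = i then -h else 0) (fun _ => τ) (Sum.inr a₂ : κ ⊕ κ) * ‖x (Sum.inr a₂)‖ ^ 2 = τ * ∑ j, ‖x (Sum.inr j)‖ ^ 2 := by
      simp [Finset.mul_sum]
    rw [e1, e2]
    have hcs := cs hT' x (Sum.inl i)
    have hrow : (T' *ᵥ x) (Sum.inl i) = (a i : ℂ) * x (Sum.inl i) + ((√k : ℝ) : ℂ) * ∑ j, C i j * x (Sum.inr j) := by
      rw [mulVec, dotProduct, Fintype.sum_sum_type]
      congr 1
      · rw [hT'def]
        simp [diagonal_apply]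
      · rw [hT'def]
        simp [Finset.mul_sum, mul_assoc]
    have hTii : (T' (Sum.inl i) (Sum.inl i)).re = a i := by
      rw [hT'def]; simp
    rw [hTii] at hcs
    have hY := norm_sq_sum_le (fun j => C i j) (fun j => x (Sum.inr j))
    have htri : a i * ‖x (Sum.inl i)‖ ≤ ‖(T' *ᵥ x) (Sum.inl i)‖ + √k * ‖∑ j, C i j * x (Sum.inr j)‖ := by
      have : (a i : ℂ) * x (Sum.inl i) = (T' *ᵥ x) (Sum.inl i) - ((√k : ℝ) : ℂ) * ∑ j, C i j * x (Sum.inr j) := by
        rw [hrow]; ring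
      calc a i * ‖x (Sum.inl i)‖ = ‖(a i : ℂ) * x (Sum.inl i)‖ := by
            rw [norm_mul, Complex.norm_real, Real.norm_of_nonneg ha]
        _ ≤ ‖(T' *ᵥ x) (Sum.inl i)‖ + ‖((√k : ℝ) : ℂ) * ∑ j, C i j * x (Sum.inr j)‖ := by
            rw [this]; exact norm_sub_le _ _
        _ = _ := by
            rw [norm_mul, Complex.norm_real, Real.norm_of_nonneg (Real.sqrt_nonneg k)]
    have := scalar_cs ha hk (c := ∑ j, ‖C i j‖ ^ 2) (by positivity) hτ (qf_nonneg hT' x)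
      (W := ∑ j, ‖x (Sum.inr j)‖ ^ 2) (by positivity) (norm_nonneg (x (Sum.inl i)))
      htri hcs hY
    rw [← hh] at this
    linarith

theorem P_ineq (a : κ → ℝ) (C B : Matrix κ κ ℂ)
    (hT : (fromBlocks (diagonal (fun i => (a i : ℂ))) C Cᴴ B).PosSemidef) {f k τ : ℝ} (hf : 0 ≤ f)
    (hk : 0 ≤ k) (hτ : 0 < τ) :
    ((k : ℂ) • B + (τ : ℂ) • (1 : Matrix κ κ ℂ)).det.re * (((f : ℂ) • B + (τ : ℂ) • (1 : Matrix κ κ ℂ)).det.re *
      ∏ i, (1 + τ * a i / ((f * (B i i).re + τ) * (k * (∑ j, ‖C i j‖ ^ 2) / a i + τ)))) ≤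
    (fromBlocks (diagonal (fun i => (a i : ℂ)) + (f : ℂ) • B) (((√k : ℝ) : ℂ) • C) (((√k : ℝ) : ℂ) • Cᴴ)
      ((k : ℂ) • B) + (τ : ℂ) • (1 : Matrix (κ ⊕ κ) (κ ⊕ κ) ℂ)).det.re := by
  have hB : B.PosSemidef := by
    have := hT.submatrix Sum.inr
    convert! this using 1
  have ha : ∀ i, 0 ≤ a i := by
    intro i
    have := (Complex.le_def.1 (hT.diag_nonneg (i := Sum.inl i))).1
    simpa using this
  have hτ1 : ((τ : ℂ) • (1 : Matrix κ κ ℂ)).PosDef := by
    apply PosDef.smul PosDef.one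
    exact_mod_cast hτ
  have hD : ((k : ℂ) • B + (τ : ℂ) • (1 : Matrix κ κ ℂ)).PosDef :=
    hτ1.posSemidef_add (hB.smul (by exact_mod_cast hk))
  have hU : ((f : ℂ) • B + (τ : ℂ) • (1 : Matrix κ κ ℂ)).PosDef :=
    hτ1.posSemidef_add (hB.smul (by exact_mod_cast hf))
  set D := (k : ℂ) • B + (τ : ℂ) • (1 : Matrix κ κ ℂ) with hDdef
  set U := (f : ℂ) • B + (τ : ℂ) • (1 : Matrix κ κ ℂ) with hUdef
  let _ : Invertible D := hD.isUnit.invertible
  have hstar : ((((√k : ℝ) : ℂ) • C))ᴴ = ((√k : ℝ) : ℂ) • Cᴴ := by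
    rw [conjTranspose_smul, Complex.star_def, Complex.conj_ofReal]
  set H := diagonal (fun i => (a i : ℂ)) - (((√k : ℝ) : ℂ) • C) * D⁻¹ * ((((√k : ℝ) : ℂ) • C))ᴴ with hH
  have hHpsd : H.PosSemidef := by
    rw [hH]
    apply (PosDef.fromBlocks₂₂ _ _ hD).1
    have h1 := block_psd a C B hT hk
    have h2 : (fromBlocks (0 : Matrix κ κ ℂ) 0 0 ((τ : ℂ) • (1 : Matrix κ κ ℂ))).PosSemidef := by
      have : (fromBlocks (0 : Matrix κ κ ℂ) 0 0 ((τ : ℂ) • (1 : Matrix κ κ ℂ))) = diagonal (fun x => ((Sum.elim (fun _ => (0:ℝ)) (fun _ => τ) x : ℝ) : ℂ)) := by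
        ext x y
        rcases x with x | x <;> rcases y with y | y <;> simp [diagonal_apply, Matrix.one_apply]
      rw [this]
      apply PosSemidef.diagonal
      intro x
      rcases x with x | x
      · simp
      · simp only [Sum.elim_inr, Pi.zero_apply]
        exact_mod_cast hτ.le
    have h3 := h1.add h2
    rw [fromBlocks_add, add_zero, add_zero, add_zero] at h3
    exact h3
  have hb : ∀ i z, (τ * a i / (τ + k * (∑ j, ‖C i j‖ ^ 2) / a i)) * ‖z i‖ ^ 2 ≤ qf H z := by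
    intro i z
    have h1 := (PosDef.fromBlocks₂₂ _ _ hD).1 (block_h_bound a C B hT hk hτ i)
    have h2 := qf_nonneg h1 z
    rw [sub_right_comm, ← hH, qf_sub] at h2
    have h3 : qf (((τ * a i / (τ + k * (∑ j, ‖C i j‖ ^ 2) / a i) : ℝ) : ℂ) • Matrix.single i i (1:ℂ)) z = (τ * a i / (τ + k * (∑ j, ‖C i j‖ ^ 2) / a i)) * ‖z i‖ ^ 2 := by
      have : (((τ * a i / (τ + k * (∑ j, ‖C i j‖ ^ 2) / a i) : ℝ) : ℂ) • Matrix.single i i (1:ℂ)) = diagonal (fun x => ((if x = i then (τ * a i / (τ + k * (∑ j, ‖C i j‖ ^ 2) / a i)) else 0 : ℝ) : ℂ)) := by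
        ext x y
        by_cases hxy : x = y
        · subst hxy
          by_cases hxi : x = i
          · subst hxi; simp
          · simp [hxi, Matrix.single_apply, Ne.symm hxi]
        · have : ¬ (i = x ∧ i = y) := fun hc => hxy (hc.1.symm.trans hc.2)
          simp [hxy, this, Matrix.single_apply]
      rw [this, qf_diag]
      simp
    rw [h3] at h2
    linarith
  have hcore := det_core hU hHpsd (fun i => τ * a i / (τ + k * (∑ j, ‖C i j‖ ^ 2) / a i))
    (fun i => by have := ha i; positivity) hb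
  have hM : (fromBlocks (diagonal (fun i => (a i : ℂ)) + (f : ℂ) • B) (((√k : ℝ) : ℂ) • C) (((√k : ℝ) : ℂ) • Cᴴ)
      ((k : ℂ) • B) + (τ : ℂ) • (1 : Matrix (κ ⊕ κ) (κ ⊕ κ) ℂ)) =
      fromBlocks (diagonal (fun i => (a i : ℂ)) + U) (((√k : ℝ) : ℂ) • C) (((√k : ℝ) : ℂ) • Cᴴ) D := by
    rw [← fromBlocks_one, fromBlocks_smul, fromBlocks_add, smul_zero, add_zero, add_zero, hUdef, ← hDdef, add_assoc]
  rw [hM, det_fromBlocks₂₂, Complex.mul_re]
  have hDdet := posDef_det_re hD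
  rw [hDdet.2, zero_mul, sub_zero]
  apply mul_le_mul_of_nonneg_left _ hDdet.1.le
  have hS : diagonal (fun i => (a i : ℂ)) + U - (((√k : ℝ) : ℂ) • C) * ⅟D * (((√k : ℝ) : ℂ) • Cᴴ) = U + H := by
    rw [hH, hstar, invOf_eq_nonsing_inv]
    abel
  rw [hS]
  refine le_trans (le_of_eq ?_) hcore
  congr 1
  apply Finset.prod_congr rfl
  intro i _
  have hUii : (U i i).re = f * (B i i).re + τ := by
    rw [hUdef]; simp
  rw [hUii, div_div, mul_comm (f * (B i i).re + τ), add_comm τ]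

/-- the column constraint -/
theorem sum_constraint (a : κ → ℝ) (C B : Matrix κ κ ℂ)
    (hT : (fromBlocks (diagonal (fun i => (a i : ℂ))) C Cᴴ B).PosSemidef) :
    ∑ i, (∑ j, ‖C i j‖ ^ 2) / a i ≤ B.trace.re := by
  have hcol : ∀ j, ∑ i, ‖C i j‖ ^ 2 / a i ≤ (B j j).re := by
    intro j
    have h := qf_nonneg hT (Sum.elim (fun i => C i j / a i) (-(Pi.single j 1 : κ → ℂ)))
    unfold qf at h
    rw [fromBlocks_mulVec, Function.star_sumElim, sumElim_dotProduct_sumElim] at h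
    simp only [Sum.elim_comp_inl, Sum.elim_comp_inr] at h
    have hss : star (-(Pi.single j (1:ℂ) : κ → ℂ)) = -(Pi.single j 1) := by
      ext l; simp [Pi.single_apply, apply_ite]
    rw [hss, mulVec_neg, mulVec_neg, neg_dotProduct, single_one_dotProduct, dotProduct_add,
      dotProduct_neg, Pi.add_apply, Pi.neg_apply] at h
    have e1 : (star (fun i => C i j / (a i : ℂ)) ⬝ᵥ (diagonal (fun i => (a i : ℂ)) *ᵥ fun i => C i j / (a i : ℂ))).re = ∑ i, ‖C i j‖ ^ 2 / a i := by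
      have := qf_diag a (fun i => C i j / (a i : ℂ))
      unfold qf at this
      rw [this]
      apply Finset.sum_congr rfl
      intro i _
      rw [norm_div, Complex.norm_real, div_pow, Real.norm_eq_abs, sq_abs]
      by_cases h0 : a i = 0
      · simp [h0]
      · field_simp
    have e2 : (star (fun i => C i j / (a i : ℂ)) ⬝ᵥ (C *ᵥ Pi.single j 1)).re = ∑ i, ‖C i j‖ ^ 2 / a i := by
      rw [dotProduct, Complex.re_sum]
      apply Finset.sum_congr rfl
      intro i _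
      have : star (fun i => C i j / (a i : ℂ)) i * (C *ᵥ Pi.single j 1) i = ((‖C i j‖ ^ 2 / a i : ℝ) : ℂ) := by
        rw [mulVec_single_one, ← Complex.normSq_eq_norm_sq]
        push_cast
        rw [Complex.normSq_eq_conj_mul_self]
        simp
        ring
      rw [this, Complex.ofReal_re]
    have e3 : ((Cᴴ *ᵥ fun i => C i j / (a i : ℂ)) j).re = ∑ i, ‖C i j‖ ^ 2 / a i := by
      rw [mulVec, dotProduct, Complex.re_sum]
      apply Finset.sum_congr rfl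
      intro i _
      have : Cᴴ j i * (C i j / (a i : ℂ)) = ((‖C i j‖ ^ 2 / a i : ℝ) : ℂ) := by
        rw [← Complex.normSq_eq_norm_sq]
        push_cast
        rw [Complex.normSq_eq_conj_mul_self]
        simp
        ring
      rw [this, Complex.ofReal_re]
    have e4 : ((B *ᵥ Pi.single j 1) j).re = (B j j).re := by simp
    simp only [Complex.add_re, Complex.neg_re, e1, e2, e3, e4] at h
    linarith
  calc ∑ i, (∑ j, ‖C i j‖ ^ 2) / a i = ∑ i, ∑ j, ‖C i j‖ ^ 2 / a i := by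
        apply Finset.sum_congr rfl
        intro i _
        rw [Finset.sum_div]
    _ = ∑ j, ∑ i, ‖C i j‖ ^ 2 / a i := Finset.sum_comm
    _ ≤ ∑ j, (B j j).re := Finset.sum_le_sum (fun j _ => hcol j)
    _ = B.trace.re := by rw [trace, Complex.re_sum]; rfl

end Crest.Agent.GAD
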