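import Mathlib
import Crest.Agent.GAD.Scalar
import Crest.Agent.GAD.Entropy
import Crest.Agent.GAD.PIneq

/-! The two main block inequalities. -/

set_option autoImplicit false
set_option linter.unusedSectionVars false

namespace Crest.Agent.GAD

open Real Matrix Crest.Quantum
open scoped ComplexOrder

variable {κ : Type*} [Fintype κ] [DecidableEq κ]

theorem block_psd2 {A C B : Matrix κ κ ℂ} (hT : (fromBlocks A C Cᴴ B).PosSemidef) {e k l : ℝ}
    (he : 0 ≤ e) (hk : 0 ≤ k) (hl : 0 ≤ l) (h : l ^ 2 = e * k) :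
    (fromBlocks ((e : ℂ) • A) ((l : ℂ) • C) ((l : ℂ) • Cᴴ) ((k : ℂ) • B)).PosSemidef := by
  have hs : l = √e * √k := by
    rw [← Real.sqrt_mul he, ← h, Real.sqrt_sq hl]
  have hs2 : l = √k * √e := by rw [hs, mul_comm]
  have h1 := hT.conjTranspose_mul_mul_same
    (fromBlocks (((√e : ℝ) : ℂ) • (1 : Matrix κ κ ℂ)) 0 0 (((√k : ℝ) : ℂ) • (1 : Matrix κ κ ℂ)))
  convert! h1 using 1
  rw [fromBlocks_conjTranspose, fromBlocks_multiply, fromBlocks_multiply]
  congr 1
  · simp [smul_smul, Real.mul_self_sqrt he, conjTranspose_smul]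
  · simp only [conjTranspose_smul, conjTranspose_one, conjTranspose_zero, Complex.star_def, Complex.conj_ofReal,
      Matrix.smul_mul, Matrix.mul_smul, Matrix.mul_one, Matrix.one_mul, Matrix.mul_zero, Matrix.zero_mul, add_zero, zero_add, smul_smul, ← Complex.ofReal_mul]
    rw [hs2]
  · simp only [conjTranspose_smul, conjTranspose_one, conjTranspose_zero, Complex.star_def, Complex.conj_ofReal,
      Matrix.smul_mul, Matrix.mul_smul, Matrix.mul_one, Matrix.one_mul, Matrix.mul_zero, Matrix.zero_mul, add_zero, zero_add, smul_smul, ← Complex.ofReal_mul]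
    rw [hs]
  · simp [smul_smul, Real.mul_self_sqrt hk, conjTranspose_smul]

theorem block_diag_psd {A B : Matrix κ κ ℂ} (hA : A.PosSemidef) (hB : B.PosSemidef) :
    (fromBlocks A 0 0 B).PosSemidef := by
  apply psd_of_qf
  · rw [IsHermitian, fromBlocks_conjTranspose, hA.1.eq, hB.1.eq]; simp
  · intro x
    have e : qf (fromBlocks A 0 0 B) x = qf A (x ∘ Sum.inl) + qf B (x ∘ Sum.inr) := by
      unfold qf
      rw [← Complex.add_re]
      congr 1
      simp [dotProduct, mulVec, Fintype.sum_sum_type]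
    rw [e]
    exact add_nonneg (qf_nonneg hA _) (qf_nonneg hB _)

theorem upper_psd {A C B : Matrix κ κ ℂ} (hT : (fromBlocks A C Cᴴ B).PosSemidef) : A.PosSemidef := by
  have := hT.submatrix Sum.inl
  convert! this using 1

theorem lower_psd {A C B : Matrix κ κ ℂ} (hT : (fromBlocks A C Cᴴ B).PosSemidef) : B.PosSemidef := by
  have := hT.submatrix Sum.inr
  convert! this using 1

/-- Theorem 1 for diagonal upper block, in terms of entropies. -/
theorem thm1_diag (a : κ → ℝ) (C B : Matrix κ κ ℂ)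
    (hT : (fromBlocks (diagonal (fun i => (a i : ℂ))) C Cᴴ B).PosSemidef) {f k : ℝ} (hf : 0 ≤ f)
    (hk : 0 ≤ k) :
    vnEntropy ((k : ℂ) • B) + vnEntropy ((f : ℂ) • B) +
      ∑ i, Q (a i) (f * (B i i).re) (k * (∑ j, ‖C i j‖ ^ 2) / a i) ≤
    vnEntropy (fromBlocks (diagonal (fun i => (a i : ℂ)) + (f : ℂ) • B) (((√k : ℝ) : ℂ) • C)
      (((√k : ℝ) : ℂ) • Cᴴ) ((k : ℂ) • B)) := by
  have hA := upper_psd hT
  have hB := lower_psd hT
  have ha : ∀ i, 0 ≤ a i := by
    intro i
    have := (Complex.le_def.1 (hA.diag_nonneg (i := i))).1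
    simpa using this
  have hb : ∀ i, 0 ≤ (B i i).re := fun i => (Complex.le_def.1 (hB.diag_nonneg (i := i))).1
  have hMpsd : (fromBlocks (diagonal (fun i => (a i : ℂ)) + (f : ℂ) • B) (((√k : ℝ) : ℂ) • C)
      (((√k : ℝ) : ℂ) • Cᴴ) ((k : ℂ) • B)).PosSemidef := by
    have h1 := block_psd2 hT zero_le_one hk (Real.sqrt_nonneg k) (by rw [Real.sq_sqrt hk, one_mul])
    have h2 := block_diag_psd (hB.smul (show (0:ℂ) ≤ (f : ℂ) by exact_mod_cast hf)) (PosSemidef.zero (n := κ) (R := ℂ))
    have h3 := h1.add h2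
    rw [fromBlocks_add] at h3
    simpa using h3
  set M := fromBlocks (diagonal (fun i => (a i : ℂ)) + (f : ℂ) • B) (((√k : ℝ) : ℂ) • C)
      (((√k : ℝ) : ℂ) • Cᴴ) ((k : ℂ) • B) with hM
  have hkB : ((k : ℂ) • B).PosSemidef := hB.smul (by exact_mod_cast hk)
  have hfB : ((f : ℂ) • B).PosSemidef := hB.smul (by exact_mod_cast hf)
  set dd : κ → ℝ := fun i => k * (∑ j, ‖C i j‖ ^ 2) / a i with hdd
  have hdd0 : ∀ i, 0 ≤ dd i := fun i => by have := ha i; simp only [hdd]; positivity
  have key := entE (ι := (κ ⊕ κ) ⊕ (κ ⊕ (κ ⊕ ((κ ⊕ κ) ⊕ (κ ⊕ κ)))))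
    (Sum.elim (fun _ => 1) (Sum.elim (fun _ => -1) (Sum.elim (fun _ => -1) (Sum.elim (fun _ => -1) (fun _ => 1)))))
    (Sum.elim hMpsd.1.eigenvalues (Sum.elim hkB.1.eigenvalues (Sum.elim hfB.1.eigenvalues
      (Sum.elim (Sum.elim (fun i => rp (a i + f * (B i i).re + dd i) (f * (B i i).re * dd i))
          (fun i => rm (a i + f * (B i i).re + dd i) (f * (B i i).re * dd i)))
        (Sum.elim (fun i => f * (B i i).re) dd)))))
    (by
      rintro (i | (i | (i | ((i | i) | (i | i)))))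
      · exact hMpsd.eigenvalues_nonneg i
      · exact hkB.eigenvalues_nonneg i
      · exact hfB.eigenvalues_nonneg i
      · have := ha i; have := hb i; have := hdd0 i
        exact rp_nonneg (by positivity)
      · have := ha i; have := hb i; have := hdd0 i
        exact rm_nonneg (by positivity) (by positivity)
      · have := hb i
        simp only [Sum.elim_inr, Sum.elim_inl]; positivity
      · exact hdd0 i)
    (by simp [Fintype.sum_sum_type])
    (by
      have e1 := trace_re_eq hMpsd.1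
      have e2 := trace_re_eq hkB.1
      have e3 := trace_re_eq hfB.1
      simp only [Fintype.sum_sum_type, Sum.elim_inl, Sum.elim_inr, one_mul, neg_mul, Finset.sum_neg_distrib] at *
      have eM : M.trace.re = ∑ i, a i + f * B.trace.re + k * B.trace.re := by
        rw [hM, trace, Fintype.sum_sum_type]
        simp only [diag_apply, fromBlocks_apply₁₁, fromBlocks_apply₂₂, Matrix.add_apply, diagonal_apply_eq, Matrix.smul_apply, trace]
        simp [Finset.sum_add_distrib, Finset.mul_sum]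
      have ekB : ((k : ℂ) • B).trace.re = k * B.trace.re := by rw [trace_smul]; simp
      have efB : ((f : ℂ) • B).trace.re = f * B.trace.re := by rw [trace_smul]; simp
      have eB : ∑ i, f * (B i i).re = f * B.trace.re := by rw [trace, Complex.re_sum, Finset.mul_sum]; rfl
      rw [← e1, ← e2, ← e3, eM, ekB, efB]
      have e4 : ∑ i, rp (a i + f * (B i i).re + dd i) (f * (B i i).re * dd i) + ∑ i, rm (a i + f * (B i i).re + dd i) (f * (B i i).re * dd i)
          = ∑ i, a i + ∑ i, f * (B i i).re + ∑ i, dd i := by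
        rw [← Finset.sum_add_distrib, ← Finset.sum_add_distrib, ← Finset.sum_add_distrib]
        apply Finset.sum_congr rfl
        intro i _
        exact rp_add_rm _ _
      linarith)
    (by
      intro τ hτ
      have e1 := logdet hMpsd hτ
      have e2 := logdet hkB hτ
      have e3 := logdet hfB hτ
      have hP := P_ineq a C B hT hf hk hτ
      have hpos1 : 0 < ((k : ℂ) • B + (τ : ℂ) • (1 : Matrix κ κ ℂ)).det.re := by
        apply (posDef_det_re _).1
        exact (PosDef.smul PosDef.one (by exact_mod_cast hτ)).posSemidef_add hkB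
      have hpos2 : 0 < ((f : ℂ) • B + (τ : ℂ) • (1 : Matrix κ κ ℂ)).det.re := by
        apply (posDef_det_re _).1
        exact (PosDef.smul PosDef.one (by exact_mod_cast hτ)).posSemidef_add hfB
      have hfac : ∀ i, 0 < 1 + τ * a i / ((f * (B i i).re + τ) * (dd i + τ)) := by
        intro i
        have := ha i; have := hb i; have := hdd0 i
        positivity
      have hprod : 0 < ∏ i, (1 + τ * a i / ((f * (B i i).re + τ) * (dd i + τ))) :=
        Finset.prod_pos (fun i _ => hfac i)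
      have hlog := Real.log_le_log (by positivity) hP
      rw [Real.log_mul hpos1.ne' (by positivity), Real.log_mul hpos2.ne' hprod.ne', Real.log_prod (fun i _ => (hfac i).ne')] at hlog
      have e4 : ∑ i, Real.log (1 + τ * a i / ((f * (B i i).re + τ) * (dd i + τ))) =
          ∑ i, Real.log (rp (a i + f * (B i i).re + dd i) (f * (B i i).re * dd i) + τ) +
          ∑ i, Real.log (rm (a i + f * (B i i).re + dd i) (f * (B i i).re * dd i) + τ) -
          ∑ i, Real.log (f * (B i i).re + τ) - ∑ i, Real.log (dd i + τ) := by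
        rw [← Finset.sum_add_distrib, ← Finset.sum_sub_distrib, ← Finset.sum_sub_distrib]
        apply Finset.sum_congr rfl
        intro i _
        have h1 := ha i; have h2 := hb i; have h3 := hdd0 i
        exact (log_roots h1 (by positivity) h3 hτ).symm
      simp only [Fintype.sum_sum_type, Sum.elim_inl, Sum.elim_inr, one_mul, neg_mul, Finset.sum_neg_distrib] at *
      rw [← e1, ← e2, ← e3]
      linarith)
  simp only [Fintype.sum_sum_type, Sum.elim_inl, Sum.elim_inr, one_mul, neg_mul, Finset.sum_neg_distrib] at key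
  rw [vn_eq hMpsd.1, vn_eq hkB.1, vn_eq hfB.1]
  unfold Q sE
  rw [Finset.sum_sub_distrib, Finset.sum_sub_distrib, Finset.sum_add_distrib]
  simp only [Fintype.sum_sum_type] at *
  linarith


theorem trace_re_smul (X : Matrix κ κ ℂ) (c : ℝ) : ((c : ℂ) • X).trace.re = c * X.trace.re := by
  rw [trace_smul]; simp

theorem trace_block (A C D B : Matrix κ κ ℂ) :
    (fromBlocks A C D B).trace.re = A.trace.re + B.trace.re := by
  rw [trace, Fintype.sum_sum_type]
  simp only [diag_apply, fromBlocks_apply₁₁, fromBlocks_apply₂₂, trace]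
  simp

theorem vn_eq_St {X : Matrix κ κ ℂ} (c : ℝ) (hX : X.IsHermitian) :
    vnEntropy ((c : ℂ) • X) = c * St X + negMulLog (c * X.trace.re) := by
  have h := St_smul hX c
  unfold St at h
  rw [trace_re_smul] at h
  unfold St
  linarith

theorem thm1_diag2 (a : κ → ℝ) (C B : Matrix κ κ ℂ)
    (hT : (fromBlocks (diagonal (fun i => (a i : ℂ))) C Cᴴ B).PosSemidef) {f k : ℝ} (hf : 0 ≤ f)
    (hk : 0 ≤ k) :
    St (diagonal (fun i => (a i : ℂ))) + (f + k) * St B +
      (sE ((diagonal (fun i => (a i : ℂ))).trace.re + f * B.trace.re + k * B.trace.re) ((f * B.trace.re) * (k * B.trace.re))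
        - negMulLog ((diagonal (fun i => (a i : ℂ))).trace.re + f * B.trace.re + k * B.trace.re)) ≤
    St (fromBlocks (diagonal (fun i => (a i : ℂ)) + (f : ℂ) • B) (((√k : ℝ) : ℂ) • C)
      (((√k : ℝ) : ℂ) • Cᴴ) ((k : ℂ) • B)) := by
  have hA := upper_psd hT
  have hB := lower_psd hT
  have ha : ∀ i, 0 ≤ a i := by
    intro i
    have := (Complex.le_def.1 (hA.diag_nonneg (i := i))).1
    simpa using this
  have hb : ∀ i, 0 ≤ (B i i).re := fun i => (Complex.le_def.1 (hB.diag_nonneg (i := i))).1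
  have h1 := thm1_diag a C B hT hf hk
  have hsc := sum_constraint a C B hT
  have htr : (diagonal (fun i => (a i : ℂ))).trace.re = ∑ i, a i := by
    rw [trace_diagonal]; simp
  have h2 := Q_sum a (fun i => f * (B i i).re) (fun i => k * (∑ j, ‖C i j‖ ^ 2) / a i) ha
    (fun i => by have := hb i; positivity) (fun i => by have := ha i; positivity) (f * B.trace.re) (k * B.trace.re)
    (by
      rw [← Finset.mul_sum, trace, Complex.re_sum]; rfl)
    (by
      have : ∑ i, k * (∑ j, ‖C i j‖ ^ 2) / a i = k * ∑ i, (∑ j, ‖C i j‖ ^ 2) / a i := by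
        rw [Finset.mul_sum]
        apply Finset.sum_congr rfl
        intro i _
        rw [mul_div_assoc]
      rw [this]
      gcongr)
  have h3 : St (diagonal (fun i => (a i : ℂ))) = ∑ i, negMulLog (a i) - negMulLog (∑ i, a i) := by
    rw [St, vn_diag, htr]
  rw [vn_eq_St k hB.1, vn_eq_St f hB.1] at h1
  rw [h3]
  unfold St
  rw [trace_block, trace_add, Complex.add_re, trace_re_smul, trace_re_smul, htr]
  unfold St at h1
  unfold Q at h2 h1
  linarith

theorem St_conj {U : Matrix κ κ ℂ} (hU : Uᴴ * U = 1) {ρ : Matrix κ κ ℂ} (hρ : ρ.IsHermitian) :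
    St (U * ρ * Uᴴ) = St ρ := by
  unfold St
  rw [vn_conj hU hρ, Matrix.trace_mul_comm, ← Matrix.mul_assoc, hU, Matrix.one_mul]

/-- Theorem 1 -/
theorem thm1 {A C B : Matrix κ κ ℂ} (hT : (fromBlocks A C Cᴴ B).PosSemidef) {e f k l : ℝ}
    (he : 0 ≤ e) (hf : 0 ≤ f) (hk : 0 ≤ k) (hl : 0 ≤ l) (hek : l ^ 2 = e * k) :
    e * St A + (f + k) * St B +
      (sE (e * A.trace.re + f * B.trace.re + k * B.trace.re) ((f * B.trace.re) * (k * B.trace.re))
        - negMulLog (e * A.trace.re + f * B.trace.re + k * B.trace.re)) ≤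
    St (fromBlocks ((e : ℂ) • A + (f : ℂ) • B) ((l : ℂ) • C) ((l : ℂ) • Cᴴ) ((k : ℂ) • B)) := by
  have hA := upper_psd hT
  have hB := lower_psd hT
  have hT1 := block_psd2 hT he zero_le_one (Real.sqrt_nonneg e) (by rw [Real.sq_sqrt he, mul_one])
  rw [Complex.ofReal_one, one_smul] at hT1
  have heA : ((e : ℂ) • A).PosSemidef := hA.smul (by exact_mod_cast he)
  obtain ⟨U, hU1, hU2, hU3⟩ := exists_diag heA.1
  set α := heA.1.eigenvalues with hα
  set W : Matrix (κ ⊕ κ) (κ ⊕ κ) ℂ := fromBlocks U 0 0 U with hW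
  have hWH : Wᴴ = fromBlocks Uᴴ 0 0 Uᴴ := by
    rw [hW, fromBlocks_conjTranspose]; simp
  have hW1 : Wᴴ * W = 1 := by
    rw [hWH, hW, fromBlocks_multiply]
    simp [hU1]
  have hlk : l = √k * √e := by
    rw [← Real.sqrt_mul hk, mul_comm k e, ← hek, Real.sqrt_sq hl]
  have hdiag : Uᴴ * ((e : ℂ) • A) * U = diagonal (fun i => (α i : ℂ)) := by
    rw [hU3]
    calc Uᴴ * (U * diagonal (fun i => (α i : ℂ)) * Uᴴ) * U
        = (Uᴴ * U) * diagonal (fun i => (α i : ℂ)) * (Uᴴ * U) := by simp only [Matrix.mul_assoc]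
      _ = _ := by rw [hU1, Matrix.one_mul, Matrix.mul_one]
  set C' := Uᴴ * ((((√e : ℝ) : ℂ) • C)) * U with hC'
  set B' := Uᴴ * B * U with hB'
  have hC'H : C'ᴴ = Uᴴ * ((((√e : ℝ) : ℂ) • Cᴴ)) * U := by
    rw [hC', conjTranspose_mul, conjTranspose_mul, conjTranspose_conjTranspose, conjTranspose_smul,
      Complex.star_def, Complex.conj_ofReal, Matrix.mul_assoc]
  have hT2 : (fromBlocks (diagonal (fun i => (α i : ℂ))) C' C'ᴴ B').PosSemidef := by
    have h := hT1.conjTranspose_mul_mul_same W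
    convert! h using 1
    rw [hWH, hW, fromBlocks_multiply, fromBlocks_multiply, ← hdiag, hC'H]
    simp [hC', hB']
  have h2 := thm1_diag2 α C' B' hT2 hf hk
  have hUB : ∀ X : Matrix κ κ ℂ, U * (Uᴴ * X * U) * Uᴴ = X := by
    intro X
    calc U * (Uᴴ * X * U) * Uᴴ = (U * Uᴴ) * X * (U * Uᴴ) := by simp only [Matrix.mul_assoc]
      _ = X := by rw [hU2, Matrix.one_mul, Matrix.mul_one]
  have hM : (fromBlocks ((e : ℂ) • A + (f : ℂ) • B) ((l : ℂ) • C) ((l : ℂ) • Cᴴ) ((k : ℂ) • B)) =
      W * (fromBlocks (diagonal (fun i => (α i : ℂ)) + (f : ℂ) • B') (((√k : ℝ) : ℂ) • C')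
      (((√k : ℝ) : ℂ) • C'ᴴ) ((k : ℂ) • B')) * Wᴴ := by
    rw [hWH, hW, fromBlocks_multiply, fromBlocks_multiply, ← hdiag, hC'H, hC', hB']
    simp only [Matrix.mul_zero, Matrix.zero_mul, add_zero, zero_add, Matrix.mul_add, Matrix.add_mul,
      Matrix.mul_smul, Matrix.smul_mul]
    simp only [hUB, smul_smul, ← Complex.ofReal_mul, ← hlk, smul_zero, add_zero, zero_add]
  have hM'H : (fromBlocks (diagonal (fun i => (α i : ℂ)) + (f : ℂ) • B') (((√k : ℝ) : ℂ) • C')
      (((√k : ℝ) : ℂ) • C'ᴴ) ((k : ℂ) • B')).IsHermitian := by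
    have hB'H : B'.IsHermitian := (lower_psd hT2).1
    rw [IsHermitian, fromBlocks_conjTranspose, conjTranspose_add, conjTranspose_smul, conjTranspose_smul,
      conjTranspose_smul, conjTranspose_smul, conjTranspose_conjTranspose, (upper_psd hT2).1.eq, hB'H.eq]
    simp
  have e1 : St (fromBlocks ((e : ℂ) • A + (f : ℂ) • B) ((l : ℂ) • C) ((l : ℂ) • Cᴴ) ((k : ℂ) • B)) =
      St (fromBlocks (diagonal (fun i => (α i : ℂ)) + (f : ℂ) • B') (((√k : ℝ) : ℂ) • C')
      (((√k : ℝ) : ℂ) • C'ᴴ) ((k : ℂ) • B')) := by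
    rw [hM]
    unfold St
    rw [vn_conj hW1 hM'H, Matrix.trace_mul_comm, ← Matrix.mul_assoc, hW1, Matrix.one_mul]
  have e2 : St (diagonal (fun i => (α i : ℂ))) = e * St A := by
    rw [← St_smul hA.1]
    rw [← hdiag]
    have := St_conj (U := Uᴴ) (by rw [conjTranspose_conjTranspose]; exact hU2) heA.1
    rwa [conjTranspose_conjTranspose] at this
  have e3 : St B' = St B := by
    have := St_conj (U := Uᴴ) (by rw [conjTranspose_conjTranspose]; exact hU2) hB.1
    rwa [conjTranspose_conjTranspose] at this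
  have e4 : (diagonal (fun i => (α i : ℂ))).trace.re = e * A.trace.re := by
    rw [← hdiag, Matrix.trace_mul_comm, ← Matrix.mul_assoc, hU2, Matrix.one_mul, trace_re_smul]
  have e5 : B'.trace.re = B.trace.re := by
    rw [hB', Matrix.trace_mul_comm, ← Matrix.mul_assoc, hU2, Matrix.one_mul]
  rw [e1, ← e2, ← e3, ← e4, ← e5]
  exact h2


theorem swap_psd {A C B : Matrix κ κ ℂ} (hT : (fromBlocks A C Cᴴ B).PosSemidef) :
    (fromBlocks B Cᴴ Cᴴᴴ A).PosSemidef := by
  have h := hT.submatrix Sum.swap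
  rw [fromBlocks_submatrix_sum_swap_sum_swap] at h
  rw [conjTranspose_conjTranspose]
  exact h

theorem St_swap {A C D B : Matrix κ κ ℂ} (h : (fromBlocks A C D B).IsHermitian) :
    St (fromBlocks B D C A) = St (fromBlocks A C D B) := by
  have e : fromBlocks B D C A = Matrix.reindex (Equiv.sumComm κ κ) (Equiv.sumComm κ κ) (fromBlocks A C D B) := by
    rw [reindex_apply]
    ext x y
    rcases x with x | x <;> rcases y with y | y <;> rfl
  unfold St
  rw [trace_block, trace_block, add_comm]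
  congr 1
  rw [e]
  exact vn_reindex _ h

theorem herm_block {A C B : Matrix κ κ ℂ} (hT : (fromBlocks A C Cᴴ B).PosSemidef) (e f g k l : ℝ) :
    (fromBlocks ((e : ℂ) • A + (f : ℂ) • B) ((l : ℂ) • C) ((l : ℂ) • Cᴴ) ((g : ℂ) • A + (k : ℂ) • B)).IsHermitian := by
  have hA := (upper_psd hT).1
  have hB := (lower_psd hT).1
  rw [IsHermitian, fromBlocks_conjTranspose, conjTranspose_add, conjTranspose_add, conjTranspose_smul,
    conjTranspose_smul, conjTranspose_smul, conjTranspose_smul, conjTranspose_smul, conjTranspose_smul,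
    conjTranspose_conjTranspose, hA.eq, hB.eq]
  simp

/-- mirrored Theorem 1 -/
theorem thm1' {A C B : Matrix κ κ ℂ} (hT : (fromBlocks A C Cᴴ B).PosSemidef) {e g k l : ℝ}
    (he : 0 ≤ e) (hg : 0 ≤ g) (hk : 0 ≤ k) (hl : 0 ≤ l) (hek : l ^ 2 = e * k) :
    (g + e) * St A + k * St B +
      (sE (k * B.trace.re + g * A.trace.re + e * A.trace.re) ((g * A.trace.re) * (e * A.trace.re))
        - negMulLog (k * B.trace.re + g * A.trace.re + e * A.trace.re)) ≤
    St (fromBlocks ((e : ℂ) • A) ((l : ℂ) • C) ((l : ℂ) • Cᴴ) ((g : ℂ) • A + (k : ℂ) • B)) := by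
  have h := thm1 (swap_psd hT) hk hg he hl (by rw [hek, mul_comm])
  have hH := herm_block hT e 0 g k l
  rw [Complex.ofReal_zero, zero_smul, add_zero] at hH
  rw [← St_swap hH]
  rw [conjTranspose_conjTranspose, add_comm ((k : ℂ) • B)] at h
  linarith

theorem psd_block {A C B : Matrix κ κ ℂ} (hT : (fromBlocks A C Cᴴ B).PosSemidef) {e f g k l : ℝ}
    (he : 0 ≤ e) (hf : 0 ≤ f) (hg : 0 ≤ g) (hk : 0 ≤ k) (hl : 0 ≤ l) (h : l ^ 2 = e * k) :
    (fromBlocks ((e : ℂ) • A + (f : ℂ) • B) ((l : ℂ) • C) ((l : ℂ) • Cᴴ) ((g : ℂ) • A + (k : ℂ) • B)).PosSemidef := by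
  have h1 := block_psd2 hT he hk hl h
  have hA := upper_psd hT
  have hB := lower_psd hT
  have h2 := block_diag_psd (hB.smul (show (0:ℂ) ≤ (f : ℂ) by exact_mod_cast hf)) (hA.smul (show (0:ℂ) ≤ (g : ℂ) by exact_mod_cast hg))
  have h3 := h1.add h2
  rw [fromBlocks_add, add_zero, add_zero, add_comm ((k : ℂ) • B)] at h3
  exact h3

theorem off_zero_of_A {A C B : Matrix κ κ ℂ} (hT : (fromBlocks A C Cᴴ B).PosSemidef) (hA : A = 0) : C = 0 := by
  ext i j
  have := row_zero hT (i := Sum.inl i) (by simp [hA]) (Sum.inr j)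
  simpa using this

theorem sE_term {t D c : ℝ} (hc : 0 ≤ c) :
    sE (c * t) (c ^ 2 * D) - negMulLog (c * t) = c * (sE t D - negMulLog t) := by
  rw [sE_scale hc, negMulLog_mul]
  ring

/-- Theorem 2 -/
theorem thm2 {A C B : Matrix κ κ ℂ} (hT : (fromBlocks A C Cᴴ B).PosSemidef) {e f g k l : ℝ}
    (he : 0 ≤ e) (hf : 0 ≤ f) (hg : 0 ≤ g) (hk : 0 ≤ k) (hl : 0 ≤ l) (hek : l ^ 2 + f * g = e * k) :
    (e + g) * St A + (f + k) * St B +
      (sE ((e + g) * A.trace.re + (f + k) * B.trace.re)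
        ((e * A.trace.re + f * B.trace.re) * (g * A.trace.re + k * B.trace.re) - l ^ 2 * (A.trace.re * B.trace.re))
        - negMulLog ((e + g) * A.trace.re + (f + k) * B.trace.re)) ≤
    St (fromBlocks ((e : ℂ) • A + (f : ℂ) • B) ((l : ℂ) • C) ((l : ℂ) • Cᴴ) ((g : ℂ) • A + (k : ℂ) • B)) := by
  have hA := upper_psd hT
  have hB := lower_psd hT
  have ha := posSemidef_trace_re_nonneg hA
  have hb := posSemidef_trace_re_nonneg hB
  rcases hf.eq_or_lt with hf0 | hf0
  · subst hf0
    have h := thm1' hT he hg hk hl (by linarith)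
    rw [Complex.ofReal_zero, zero_smul, add_zero]
    refine le_trans (le_of_eq ?_) h
    have e1 : (e + g) * A.trace.re + (0 + k) * B.trace.re = k * B.trace.re + g * A.trace.re + e * A.trace.re := by ring
    have e2 : (e * A.trace.re + 0 * B.trace.re) * (g * A.trace.re + k * B.trace.re) - l ^ 2 * (A.trace.re * B.trace.re) = (g * A.trace.re) * (e * A.trace.re) := by
      have : l ^ 2 = e * k := by linarith
      rw [this]; ring
    rw [e1, e2]
    ring
  rcases hg.eq_or_lt with hg0 | hg0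
  · subst hg0
    have h := thm1 hT he hf hk hl (by linarith)
    rw [Complex.ofReal_zero, zero_smul, zero_add]
    refine le_trans (le_of_eq ?_) h
    have e1 : (e + 0) * A.trace.re + (f + k) * B.trace.re = e * A.trace.re + f * B.trace.re + k * B.trace.re := by ring
    have e2 : (e * A.trace.re + f * B.trace.re) * (0 * A.trace.re + k * B.trace.re) - l ^ 2 * (A.trace.re * B.trace.re) = (f * B.trace.re) * (k * B.trace.re) := by
      have : l ^ 2 = e * k := by linarith
      rw [this]; ring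
    rw [e1, e2]
    ring
  rcases ha.eq_or_lt with ha0 | ha0
  · have hA0 := eq_zero_of_trace_re hA ha0.symm
    have hC0 := off_zero_of_A hT hA0
    subst hA0 hC0
    have h := thm1 hT (e := 0) le_rfl hf hk (l := 0) le_rfl (by ring)
    simp only [trace_zero, Complex.zero_re, St_zero, smul_zero, conjTranspose_zero, zero_add, mul_zero, zero_mul, sub_zero] at h ⊢
    have e1 : (f + k) * B.trace.re = f * B.trace.re + k * B.trace.re := by ring
    rw [e1]
    exact h
  rcases hb.eq_or_lt with hb0 | hb0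
  · have hB0 := eq_zero_of_trace_re hB hb0.symm
    have hC0 : C = 0 := by
      have := off_zero_of_A (swap_psd hT) hB0
      rw [← conjTranspose_conjTranspose C, this, conjTranspose_zero]
    subst hB0 hC0
    have h := thm1' hT he hg (k := 0) le_rfl (l := 0) le_rfl (by ring)
    simp only [trace_zero, Complex.zero_re, St_zero, smul_zero, conjTranspose_zero, zero_add, add_zero, mul_zero, zero_mul, sub_zero] at h ⊢
    have e1 : (e + g) * A.trace.re = g * A.trace.re + e * A.trace.re := by ring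
    have e2 : e * A.trace.re * (g * A.trace.re) = g * A.trace.re * (e * A.trace.re) := by ring
    rw [e1, e2, add_comm e g]
    exact h
  -- main case
  set a := A.trace.re with hadef
  set b := B.trace.re with hbdef
  set Δ := (e * a + f * b) * (g * a + k * b) - l ^ 2 * (a * b) with hΔ
  have hΔ' : Δ = e * g * a ^ 2 + 2 * f * g * a * b + f * k * b ^ 2 := by
    have : l ^ 2 = e * k - f * g := by linarith
    rw [hΔ, this]; ring
  have hΔpos : 0 < Δ := by
    rw [hΔ']; positivity
  have hΔne := hΔpos.ne'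
  have hl2 : l ^ 2 = e * k - f * g := by linarith
  set e₁ := l ^ 2 * f * b ^ 2 / Δ with he₁
  set k₁ := f * (g * a + k * b) ^ 2 / Δ with hk₁
  set l₁ := l * f * b * (g * a + k * b) / Δ with hl₁
  set e₂ := g * (e * a + f * b) ^ 2 / Δ with he₂
  set k₂ := l ^ 2 * g * a ^ 2 / Δ with hk₂
  set l₂ := l * g * a * (e * a + f * b) / Δ with hl₂
  have p1 : 0 ≤ e₁ := by positivity
  have p2 : 0 ≤ k₁ := by positivity
  have p3 : 0 ≤ l₁ := by positivity
  have p4 : 0 ≤ e₂ := by positivity
  have p5 : 0 ≤ k₂ := by positivity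
  have p6 : 0 ≤ l₂ := by positivity
  have q1 : l₁ ^ 2 = e₁ * k₁ := by rw [hl₁, he₁, hk₁]; ring
  have q2 : l₂ ^ 2 = e₂ * k₂ := by rw [hl₂, he₂, hk₂]; ring
  have s1 : e₁ + e₂ = e := by
    rw [he₁, he₂, ← add_div, div_eq_iff hΔne, hΔ']
    rw [hl2]; ring
  have s2 : k₁ + k₂ = k := by
    rw [hk₁, hk₂, ← add_div, div_eq_iff hΔne, hΔ']
    rw [hl2]; ring
  have s3 : l₁ + l₂ = l := by
    rw [hl₁, hl₂, ← add_div, div_eq_iff hΔne, hΔ']
    ring
  have h1 := thm1 hT p1 hf p2 p3 q1
  have h2 := thm1' hT p4 hg p5 p6 q2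
  have psd1 := psd_block hT p1 hf le_rfl p2 p3 q1
  have psd2 := psd_block hT p4 le_rfl hg p5 p6 q2
  rw [Complex.ofReal_zero, zero_smul, zero_add] at psd1
  rw [Complex.ofReal_zero, zero_smul, add_zero] at psd2
  have hadd := St_add psd1 psd2
  rw [fromBlocks_add] at hadd
  have m1 : (e₁ : ℂ) • A + (f : ℂ) • B + (e₂ : ℂ) • A = (e : ℂ) • A + (f : ℂ) • B := by
    rw [← s1, Complex.ofReal_add, add_smul]; abel
  have m2 : (l₁ : ℂ) • C + (l₂ : ℂ) • C = (l : ℂ) • C := by
    rw [← s3, Complex.ofReal_add, add_smul]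
  have m3 : (l₁ : ℂ) • Cᴴ + (l₂ : ℂ) • Cᴴ = (l : ℂ) • Cᴴ := by
    rw [← s3, Complex.ofReal_add, add_smul]
  have m4 : (k₁ : ℂ) • B + ((g : ℂ) • A + (k₂ : ℂ) • B) = (g : ℂ) • A + (k : ℂ) • B := by
    rw [← s2, Complex.ofReal_add, add_smul]; abel
  rw [m1, m2, m3, m4] at hadd
  set t₁ := f * b * (g * a + k * b) / Δ with ht₁
  set t₂ := g * a * (e * a + f * b) / Δ with ht₂
  have pt1 : 0 ≤ t₁ := by positivity
  have pt2 : 0 ≤ t₂ := by positivity
  have st : t₁ + t₂ = 1 := by
    rw [ht₁, ht₂, ← add_div, div_eq_iff hΔne, hΔ']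
    ring
  have r1 : e₁ * a + f * b + k₁ * b = t₁ * ((e + g) * a + (f + k) * b) := by
    rw [he₁, hk₁, ht₁]
    field_simp
    rw [hΔ', hl2]
    ring
  have r2 : f * b * (k₁ * b) = t₁ ^ 2 * Δ := by
    rw [hk₁, ht₁]
    field_simp
  have r3 : k₂ * b + g * a + e₂ * a = t₂ * ((e + g) * a + (f + k) * b) := by
    rw [he₂, hk₂, ht₂]
    field_simp
    rw [hΔ', hl2]
    ring
  have r4 : g * a * (e₂ * a) = t₂ ^ 2 * Δ := by
    rw [he₂, ht₂]
    field_simp
  rw [r1, r2, sE_term pt1] at h1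
  rw [r3, r4, sE_term pt2] at h2
  refine le_trans ?_ hadd
  refine le_trans (le_of_eq ?_) (add_le_add h1 h2)
  rw [← s1, ← s2]
  have : t₂ = 1 - t₁ := by linarith
  rw [this]
  ring

end Crest.Agent.GAD
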