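import Mathlib
import Crest.Agent.GAD.Main1

/-! Pinching, two-level matrices, Kronecker products, convexity of the pure-state output entropy. -/

set_option autoImplicit false
set_option linter.unusedSectionVars false

namespace Crest.Agent.GAD

open Real Matrix Crest.Quantum
open scoped ComplexOrder Kronecker

variable {κ : Type*} [Fintype κ] [DecidableEq κ] {μ : Type*} [Fintype μ] [DecidableEq μ]

theorem pinch {X Z Y : Matrix κ κ ℂ} (h : (fromBlocks X Z Zᴴ Y).PosSemidef) :
    vnEntropy (fromBlocks X Z Zᴴ Y) ≤ vnEntropy X + vnEntropy Y := by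
  have hX := upper_psd h
  have hY := lower_psd h
  obtain ⟨U, u1, u2, u3⟩ := exists_diag hX.1
  obtain ⟨V, v1, v2, v3⟩ := exists_diag hY.1
  have hW : fromBlocks U 0 0 V * (fromBlocks U 0 0 V)ᴴ = 1 := by
    rw [fromBlocks_conjTranspose, fromBlocks_multiply]
    simp [u2, v2]
  have hU : Uᴴ * X * U = diagonal (fun i => (hX.1.eigenvalues i : ℂ)) := by
    conv_lhs => rw [u3]
    calc Uᴴ * (U * diagonal (fun i => (hX.1.eigenvalues i : ℂ)) * Uᴴ) * U
        = (Uᴴ * U) * diagonal (fun i => (hX.1.eigenvalues i : ℂ)) * (Uᴴ * U) := by simp only [Matrix.mul_assoc]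
      _ = _ := by rw [u1, Matrix.one_mul, Matrix.mul_one]
  have hV : Vᴴ * Y * V = diagonal (fun i => (hY.1.eigenvalues i : ℂ)) := by
    conv_lhs => rw [v3]
    calc Vᴴ * (V * diagonal (fun i => (hY.1.eigenvalues i : ℂ)) * Vᴴ) * V
        = (Vᴴ * V) * diagonal (fun i => (hY.1.eigenvalues i : ℂ)) * (Vᴴ * V) := by simp only [Matrix.mul_assoc]
      _ = _ := by rw [v1, Matrix.one_mul, Matrix.mul_one]
  refine (vn_le_diag_conj h hW).trans (le_of_eq ?_)
  rw [fromBlocks_conjTranspose, fromBlocks_multiply, fromBlocks_multiply, Fintype.sum_sum_type,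
    vn_eq hX.1, vn_eq hY.1]
  simp only [fromBlocks_apply₁₁, fromBlocks_apply₂₂, Matrix.mul_zero, Matrix.zero_mul, add_zero, zero_add,
    conjTranspose_zero, hU, hV, diagonal_apply_eq, Complex.ofReal_re]

theorem vn_bool {ρ : Matrix Bool Bool ℂ} (hρ : ρ.IsHermitian) :
    vnEntropy ρ = sE ρ.trace.re ρ.det.re := by
  rw [vn_eq hρ, trace_re_eq hρ, hρ.det_eq_prod_eigenvalues]
  have e1 : (∏ i, (hρ.eigenvalues i : ℂ)).re = hρ.eigenvalues true * hρ.eigenvalues false := by
    rw [Fintype.prod_bool]; simp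
  have e2 : (∏ i, ((hρ.eigenvalues i : ℝ) : ℂ)).re = hρ.eigenvalues true * hρ.eigenvalues false := e1
  rw [Fintype.sum_bool, Fintype.sum_bool]
  have e3 : sE (hρ.eigenvalues true + hρ.eigenvalues false) (hρ.eigenvalues true * hρ.eigenvalues false) =
      negMulLog (hρ.eigenvalues true) + negMulLog (hρ.eigenvalues false) := by
    generalize hρ.eigenvalues true = x
    generalize hρ.eigenvalues false = y
    unfold sE rp rm
    have h1 : (x + y) ^ 2 - 4 * (x * y) = (x - y) ^ 2 := by ring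
    rw [h1, Real.sqrt_sq_eq_abs]
    rcases le_total x y with h | h
    · rw [abs_of_nonpos (by linarith)]
      have e1 : (x + y + -(x - y)) / 2 = y := by ring
      have e2 : (x + y - -(x - y)) / 2 = x := by ring
      rw [e1, e2]; ring
    · rw [abs_of_nonneg (by linarith)]
      have e1 : (x + y + (x - y)) / 2 = x := by ring
      have e2 : (x + y - (x - y)) / 2 = y := by ring
      rw [e1, e2]
  rw [← e3]
  congr 1
  exact e2.symm

theorem vn_kron {σ : Matrix κ κ ℂ} {ω : Matrix μ μ ℂ} (hσ : σ.IsHermitian) (hω : ω.IsHermitian) :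
    vnEntropy (σ ⊗ₖ ω) = vnEntropy σ * ω.trace.re + vnEntropy ω * σ.trace.re := by
  obtain ⟨U, u1, u2, u3⟩ := exists_diag hσ
  obtain ⟨V, v1, v2, v3⟩ := exists_diag hω
  have h1 : σ ⊗ₖ ω = (U ⊗ₖ V) * diagonal (fun p : κ × μ => ((hσ.eigenvalues p.1 * hω.eigenvalues p.2 : ℝ) : ℂ)) * (U ⊗ₖ V)ᴴ := by
    conv_lhs => rw [u3, v3]
    rw [conjTranspose_kronecker, mul_kronecker_mul, mul_kronecker_mul, diagonal_kronecker_diagonal]
    congr 3
    ext p
    push_cast
    rfl
  have h2 : (U ⊗ₖ V)ᴴ * (U ⊗ₖ V) = 1 := by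
    rw [conjTranspose_kronecker, ← mul_kronecker_mul, u1, v1, one_kronecker_one]
  rw [h1, vn_conj h2 (isHermitian_diag _), vn_diag, vn_eq hσ, vn_eq hω, trace_re_eq hσ, trace_re_eq hω,
    Fintype.sum_prod_type]
  rw [Finset.sum_mul_sum, Finset.sum_mul_sum, Finset.sum_comm (s := (Finset.univ : Finset μ)), ← Finset.sum_add_distrib]
  apply Finset.sum_congr rfl
  intro i _
  rw [← Finset.sum_add_distrib]
  apply Finset.sum_congr rfl
  intro j _
  rw [negMulLog_mul]
  ring

end Crest.Agent.GAD
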