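import Mathlib
import Crest.Prelude.Def_QState
import Crest.Prelude.Def_QChannel
import Crest.Prelude.Def_AmpDamp
import Crest.Agent.GAD.Main2
import Crest.Agent.GAD.Conv

/-! The generalized amplitude-damping channel tensored with another channel. -/

set_option autoImplicit false
set_option linter.unusedSectionVars false

namespace Crest.Agent.GAD

open Real Matrix Crest.Quantum Crest.MathPhysics.AmpDamp
open scoped ComplexOrder Kronecker

variable {d e : Type*} [Fintype d] [Fintype e] [DecidableEq d] [DecidableEq e]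

theorem cp_any {k : Type*} [Fintype k] [DecidableEq k] {Ψ : Matrix d d ℂ → Matrix e e ℂ}
    (h : IsCompletelyPositive Ψ) {M : Matrix (k × d) (k × d) ℂ} (hM : M.PosSemidef) :
    (blockwise Ψ M).PosSemidef := by
  let s := Fintype.equivFin k
  have h1 : (M.submatrix (fun p : Fin (Fintype.card k) × d => (s.symm p.1, p.2))
    (fun p => (s.symm p.1, p.2))).PosSemidef := hM.submatrix _
  have h2 := h _ _ h1
  have h3 := h2.submatrix (fun p : k × e => (s p.1, p.2))
  convert! h3 using 1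
  ext p q
  simp only [submatrix_apply, blockwise, of_apply]
  congr 2
  ext i j
  simp [block]

/-- the equivalence between the two ways to index a qubit and a system -/
def fe (e : Type*) : e ⊕ e ≃ Bool × e := (Equiv.boolProdEquivSum e).symm

@[simp] theorem fe_inl (i : e) : fe e (Sum.inl i) = (false, i) := rfl
@[simp] theorem fe_inr (i : e) : fe e (Sum.inr i) = (true, i) := rfl

theorem vn_fe {X : Matrix (Bool × e) (Bool × e) ℂ} (hX : X.IsHermitian) :
    vnEntropy (X.submatrix (fe e) (fe e)) = vnEntropy X :=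
  vn_reindex (fe e).symm hX

theorem submatrix_fe (X : Matrix (Bool × e) (Bool × e) ℂ) :
    X.submatrix (fe e) (fe e) = fromBlocks (block X false false) (block X false true)
      (block X true false) (block X true true) := by
  ext x y
  rcases x with x | x <;> rcases y with y | y <;> rfl

theorem blockwise_fe (Ψ : Matrix d d ℂ → Matrix e e ℂ) (M : Matrix (Bool × d) (Bool × d) ℂ) :
    (blockwise Ψ M).submatrix (fe e) (fe e) = fromBlocks (Ψ (block M false false)) (Ψ (block M false true))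
      (Ψ (block M true false)) (Ψ (block M true true)) := by
  ext x y
  rcases x with x | x <;> rcases y with y | y <;> rfl

theorem blocks_psd {Ψ : Matrix d d ℂ → Matrix e e ℂ} (h : IsCompletelyPositive Ψ)
    {M : Matrix (Bool × d) (Bool × d) ℂ} (hM : M.PosSemidef) :
    (fromBlocks (Ψ (block M false false)) (Ψ (block M false true))
      (Ψ (block M true false)) (Ψ (block M true true))).PosSemidef := by
  rw [← blockwise_fe]
  exact (cp_any h hM).submatrix _

theorem off_conj {Ψ : Matrix d d ℂ → Matrix e e ℂ} (h : IsCompletelyPositive Ψ)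
    {M : Matrix (Bool × d) (Bool × d) ℂ} (hM : M.PosSemidef) :
    Ψ (block M true false) = (Ψ (block M false true))ᴴ := by
  have h1 := (blocks_psd h hM).1
  rw [IsHermitian, fromBlocks_conjTranspose, fromBlocks_inj] at h1
  exact h1.2.2.1.symm

theorem blocks_psd' {Ψ : Matrix d d ℂ → Matrix e e ℂ} (h : IsCompletelyPositive Ψ)
    {M : Matrix (Bool × d) (Bool × d) ℂ} (hM : M.PosSemidef) :
    (fromBlocks (Ψ (block M false false)) (Ψ (block M false true))
      (Ψ (block M false true))ᴴ (Ψ (block M true true))).PosSemidef := by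
  rw [← off_conj h hM]
  exact blocks_psd h hM

theorem qt_ff (γ ν : ℝ) (Ψ : Matrix d d ℂ → Matrix e e ℂ) (M : Matrix (Bool × d) (Bool × d) ℂ) :
    block (qubitTensor (gadMap γ ν) Ψ M) false false =
      ((1 - γ * ν : ℝ) : ℂ) • Ψ (block M false false) + ((γ * (1 - ν) : ℝ) : ℂ) • Ψ (block M true true) := by
  ext i j
  simp [block, qubitTensor, qubitCoeff, gadMap, Matrix.single_apply]
  ring

theorem qt_tt (γ ν : ℝ) (Ψ : Matrix d d ℂ → Matrix e e ℂ) (M : Matrix (Bool × d) (Bool × d) ℂ) :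
    block (qubitTensor (gadMap γ ν) Ψ M) true true =
      ((γ * ν : ℝ) : ℂ) • Ψ (block M false false) + ((1 - γ + γ * ν : ℝ) : ℂ) • Ψ (block M true true) := by
  ext i j
  simp [block, qubitTensor, qubitCoeff, gadMap, Matrix.single_apply]
  ring

theorem qt_ft (γ ν : ℝ) (Ψ : Matrix d d ℂ → Matrix e e ℂ) (M : Matrix (Bool × d) (Bool × d) ℂ) :
    block (qubitTensor (gadMap γ ν) Ψ M) false true =
      ((√(1 - γ) : ℝ) : ℂ) • Ψ (block M false true) := by
  ext i j
  simp [block, qubitTensor, qubitCoeff, gadMap, Matrix.single_apply]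

theorem qt_tf (γ ν : ℝ) (Ψ : Matrix d d ℂ → Matrix e e ℂ) (M : Matrix (Bool × d) (Bool × d) ℂ) :
    block (qubitTensor (gadMap γ ν) Ψ M) true false =
      ((√(1 - γ) : ℝ) : ℂ) • Ψ (block M true false) := by
  ext i j
  simp [block, qubitTensor, qubitCoeff, gadMap, Matrix.single_apply]

theorem qt_fe (γ ν : ℝ) (Ψ : Matrix d d ℂ → Matrix e e ℂ) (M : Matrix (Bool × d) (Bool × d) ℂ) :
    (qubitTensor (gadMap γ ν) Ψ M).submatrix (fe e) (fe e) =
      fromBlocks (((1 - γ * ν : ℝ) : ℂ) • Ψ (block M false false) + ((γ * (1 - ν) : ℝ) : ℂ) • Ψ (block M true true))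
        (((√(1 - γ) : ℝ) : ℂ) • Ψ (block M false true)) (((√(1 - γ) : ℝ) : ℂ) • Ψ (block M true false))
        (((γ * ν : ℝ) : ℂ) • Ψ (block M false false) + ((1 - γ + γ * ν : ℝ) : ℂ) • Ψ (block M true true)) := by
  rw [submatrix_fe, qt_ff, qt_tt, qt_ft, qt_tf]

theorem psd_block_le {κ : Type*} [Fintype κ] [DecidableEq κ] {A C B : Matrix κ κ ℂ}
    (hT : (fromBlocks A C Cᴴ B).PosSemidef) {e f g k l : ℝ}
    (he : 0 ≤ e) (hf : 0 ≤ f) (hg : 0 ≤ g) (hk : 0 ≤ k) (hl : 0 ≤ l) (h : l ^ 2 ≤ e * k) :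
    (fromBlocks ((e : ℂ) • A + (f : ℂ) • B) ((l : ℂ) • C) ((l : ℂ) • Cᴴ) ((g : ℂ) • A + (k : ℂ) • B)).PosSemidef := by
  have hA := upper_psd hT
  rcases hk.eq_or_lt with h0 | h0
  · have hl0 : l = 0 := by
      rw [← h0, mul_zero] at h
      exact pow_eq_zero_iff (two_ne_zero) |>.1 (le_antisymm h (by positivity))
    subst hl0
    subst h0
    have h1 := psd_block hT (e := 0) le_rfl hf hg le_rfl (l := 0) le_rfl (by ring)
    have h2 := block_diag_psd (hA.smul (show (0:ℂ) ≤ (e : ℂ) by exact_mod_cast he)) (PosSemidef.zero (n := κ) (R := ℂ))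
    have h3 := h2.add h1
    rw [fromBlocks_add] at h3
    simpa using h3
  · have he' : l ^ 2 / k ≤ e := by rw [div_le_iff₀ h0]; exact h
    have h1 := psd_block hT (e := l ^ 2 / k) (by positivity) hf hg hk hl (by field_simp)
    have h2 := block_diag_psd (hA.smul (show (0:ℂ) ≤ ((e - l ^ 2 / k : ℝ) : ℂ) by exact_mod_cast (sub_nonneg.2 he'))) (PosSemidef.zero (n := κ) (R := ℂ))
    have h3 := h2.add h1
    rw [fromBlocks_add, ← add_assoc, ← add_smul, ← Complex.ofReal_add, sub_add_cancel, zero_add, zero_add, zero_add] at h3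
    exact h3

theorem par1 {γ ν : ℝ} (hγ : γ ∈ Set.Icc (0:ℝ) 1) (hν : ν ∈ Set.Icc (0:ℝ) 1) :
    0 ≤ 1 - γ * ν ∧ 0 ≤ γ * (1 - ν) ∧ 0 ≤ γ * ν ∧ 0 ≤ 1 - γ + γ * ν ∧ 0 ≤ √(1 - γ) ∧
      √(1 - γ) ^ 2 + (γ * (1 - ν)) * (γ * ν) = (1 - γ * ν) * (1 - γ + γ * ν) := by
  have h1 := hγ.1; have h2 := hν.1
  have h3 : 0 ≤ 1 - γ := by linarith [hγ.2]
  have h4 : 0 ≤ 1 - ν := by linarith [hν.2]
  refine ⟨?_, by positivity, by positivity, by positivity, by positivity, ?_⟩
  · nlinarith
  · rw [Real.sq_sqrt h3]; ring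

theorem qt_psd {γ ν : ℝ} (hγ : γ ∈ Set.Icc (0:ℝ) 1) (hν : ν ∈ Set.Icc (0:ℝ) 1)
    {Ψ : Matrix d d ℂ → Matrix e e ℂ} (h : IsCompletelyPositive Ψ)
    {M : Matrix (Bool × d) (Bool × d) ℂ} (hM : M.PosSemidef) :
    (qubitTensor (gadMap γ ν) Ψ M).PosSemidef := by
  obtain ⟨p1, p2, p3, p4, p5, p6⟩ := par1 hγ hν
  have h1 := psd_block_le (blocks_psd' h hM) p1 p2 p3 p4 p5 (by nlinarith [mul_nonneg p2 p3])
  rw [← off_conj h hM, ← qt_fe] at h1
  have h2 := h1.submatrix (fe e).symm
  rw [submatrix_submatrix] at h2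
  simpa using h2

theorem map_psd {Ψ : Matrix d d ℂ → Matrix e e ℂ} (h : IsCompletelyPositive Ψ)
    {X : Matrix d d ℂ} (hX : X.PosSemidef) : (Ψ X).PosSemidef := by
  have h1 : (X.submatrix (fun p : Unit × d => p.2) (fun p => p.2)).PosSemidef := hX.submatrix _
  have h2 := (cp_any h h1).submatrix (fun i : e => ((), i))
  convert! h2 using 1

theorem block_psd_tt {M : Matrix (Bool × d) (Bool × d) ℂ} (hM : M.PosSemidef) (s : Bool) :
    (block M s s).PosSemidef := by
  have := hM.submatrix (fun i : d => (s, i))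
  convert! this using 1

theorem trace_blocks (M : Matrix (Bool × d) (Bool × d) ℂ) :
    M.trace = (block M false false).trace + (block M true true).trace := by
  simp only [trace, diag_apply, Fintype.sum_prod_type, Fintype.sum_bool, block, of_apply]
  rw [add_comm]

theorem gad_lower {γ ν : ℝ} (hγ : γ ∈ Set.Icc (0:ℝ) 1) (hν : ν ∈ Set.Icc (0:ℝ) 1)
    {Ψ : Matrix d d ℂ → Matrix e e ℂ} (h : IsChannel Ψ)
    {M : Matrix (Bool × d) (Bool × d) ℂ} (hM : IsDensity M) :
    St (Ψ (block M false false)) + St (Ψ (block M true true)) + EE γ ν (block M true true).trace.re ≤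
      vnEntropy (qubitTensor (gadMap γ ν) Ψ M) := by
  obtain ⟨p1, p2, p3, p4, p5, p6⟩ := par1 hγ hν
  have hpsd := qt_psd hγ hν h.2.1 hM.1
  have h1 := thm2 (blocks_psd' h.2.1 hM.1) p1 p2 p3 p4 p5 p6
  rw [← off_conj h.2.1 hM.1, ← qt_fe] at h1
  rw [h.2.2, h.2.2] at h1
  have htr : (block M false false).trace.re + (block M true true).trace.re = 1 := by
    rw [← Complex.add_re, ← trace_blocks, hM.2, Complex.one_re]
  have e1 : (block M false false).trace.re = 1 - (block M true true).trace.re := by linarith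
  rw [e1] at h1
  set p := (block M true true).trace.re with hp
  have e2 : (1 - γ * ν + γ * ν) * (1 - p) + (γ * (1 - ν) + (1 - γ + γ * ν)) * p = 1 := by ring
  have e3 : ((1 - γ * ν) * (1 - p) + γ * (1 - ν) * p) * (γ * ν * (1 - p) + (1 - γ + γ * ν) * p) - √(1 - γ) ^ 2 * ((1 - p) * p) =
      γ * ν * (1 - ν) + γ * (1 - γ) * (p - ν) ^ 2 := by
    rw [Real.sq_sqrt (by linarith [hγ.2])]; ring
  rw [e2, e3, negMulLog_one, sub_zero, ← EE_sE] at h1
  have e4 : St ((qubitTensor (gadMap γ ν) Ψ M).submatrix (fe e) (fe e)) = vnEntropy (qubitTensor (gadMap γ ν) Ψ M) := by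
    rw [St, vn_fe hpsd.1, qt_fe, trace_block, trace_add, trace_add, Complex.add_re, Complex.add_re,
      trace_re_smul, trace_re_smul, trace_re_smul, trace_re_smul, h.2.2, h.2.2, e1, ← hp]
    have : (1 - γ * ν) * (1 - p) + γ * (1 - ν) * p + (γ * ν * (1 - p) + (1 - γ + γ * ν) * p) = 1 := by ring
    rw [this, negMulLog_one, sub_zero]
  rw [e4] at h1
  have e5 : (1 - γ * ν + γ * ν) = 1 := by ring
  have e6 : (γ * (1 - ν) + (1 - γ + γ * ν)) = 1 := by ring
  rw [e5, e6] at h1
  linarith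

theorem gad_upper {γ ν : ℝ} (hγ : γ ∈ Set.Icc (0:ℝ) 1) (hν : ν ∈ Set.Icc (0:ℝ) 1)
    {Ψ : Matrix d d ℂ → Matrix e e ℂ} (h : IsChannel Ψ)
    {M : Matrix (Bool × d) (Bool × d) ℂ} (hM : IsDensity M) :
    vnEntropy (qubitTensor (gadMap γ ν) Ψ M) ≤ binEntropy ((1 - γ) * (block M true true).trace.re + γ * ν) +
      vnEntropy (Ψ (block M false false + block M true true)) := by
  obtain ⟨p1, p2, p3, p4, p5, p6⟩ := par1 hγ hν
  have hpsd := qt_psd hγ hν h.2.1 hM.1
  have hfe := hpsd.submatrix (fe e)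
  rw [← vn_fe hpsd.1]
  rw [qt_fe, off_conj h.2.1 hM.1] at hfe ⊢
  have hst : ((√(1 - γ) : ℝ) : ℂ) • (Ψ (block M false true))ᴴ = (((√(1 - γ) : ℝ) : ℂ) • Ψ (block M false true))ᴴ := by
    rw [conjTranspose_smul, Complex.star_def, Complex.conj_ofReal]
  rw [hst] at hfe ⊢
  refine (pinch hfe).trans ?_
  have htr : (block M false false).trace.re + (block M true true).trace.re = 1 := by
    rw [← Complex.add_re, ← trace_blocks, hM.2, Complex.one_re]
  have e1 : (block M false false).trace.re = 1 - (block M true true).trace.re := by linarith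
  set p := (block M true true).trace.re with hp
  have hadd := St_add (upper_psd hfe) (lower_psd hfe)
  have e2 : ((1 - γ * ν : ℝ) : ℂ) • Ψ (block M false false) + ((γ * (1 - ν) : ℝ) : ℂ) • Ψ (block M true true) +
      (((γ * ν : ℝ) : ℂ) • Ψ (block M false false) + ((1 - γ + γ * ν : ℝ) : ℂ) • Ψ (block M true true)) =
      Ψ (block M false false + block M true true) := by
    rw [h.1.map_add]
    push_cast
    module
  rw [e2] at hadd
  unfold St at hadd
  rw [h.2.2, trace_add, trace_add, trace_add, Complex.add_re, Complex.add_re, Complex.add_re,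
      trace_re_smul, trace_re_smul, trace_re_smul, trace_re_smul, h.2.2, h.2.2, e1, ← hp] at hadd
  rw [binEntropy_eq_negMulLog_add_negMulLog_one_sub]
  have e3 : (1 - γ * ν) * (1 - p) + γ * (1 - ν) * p = 1 - ((1 - γ) * p + γ * ν) := by ring
  have e4 : γ * ν * (1 - p) + (1 - γ + γ * ν) * p = (1 - γ) * p + γ * ν := by ring
  have e5 : 1 - p + p = 1 := by ring
  rw [e3, e4, e5, negMulLog_one] at hadd
  linarith

end Crest.Agent.GAD
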