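import Mathlib
import Crest.Prelude.Def_QState
import Crest.Prelude.Def_QChannel
import Crest.Prelude.Def_AmpDamp
import Crest.Agent.GAD.Channel

/-! Ensembles, pure states and products. -/

set_option autoImplicit false
set_option linter.unusedSectionVars false

namespace Crest.Agent.GAD

open Real Matrix Crest.Quantum Crest.MathPhysics.AmpDamp
open scoped ComplexOrder Kronecker

variable {d e : Type*} [Fintype d] [Fintype e] [DecidableEq d] [DecidableEq e]

/-- ensembles over arbitrary finite index types can be reindexed -/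
theorem exists_fin_ensemble {ι : Type*} [Fintype ι] (q : ι → ℝ) (ρ : ι → Matrix d d ℂ)
    (h0 : ∀ a, 0 ≤ q a) (h1 : ∑ a, q a = 1) (h2 : ∀ a, IsDensity (ρ a)) :
    ∃ (m : ℕ) (q' : Fin m → ℝ) (ρ' : Fin m → Matrix d d ℂ), IsEnsemble q' ρ' ∧
      ∀ Φ : Matrix d d ℂ → Matrix e e ℂ, holevoInfo Φ q' ρ' =
        vnEntropy (∑ a, (q a : ℂ) • Φ (ρ a)) - ∑ a, q a * vnEntropy (Φ (ρ a)) := by
  let s := (Fintype.equivFin ι).symm
  refine ⟨Fintype.card ι, fun a => q (s a), fun a => ρ (s a), ⟨fun a => h0 _, ?_, fun a => h2 _⟩, ?_⟩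
  · rw [← h1]; exact Equiv.sum_comp s q
  · intro Φ
    unfold holevoInfo
    rw [Equiv.sum_comp s (fun a => (q a : ℂ) • Φ (ρ a)), Equiv.sum_comp s (fun a => q a * vnEntropy (Φ (ρ a)))]

/-- pure state with excited population `p` and sign `s` -/
noncomputable def phi (p : ℝ) (s : Bool) : Matrix Bool Bool ℂ :=
  of fun i j => (((if i then (if j then p else (if s then 1 else -1) * √(p * (1 - p)))
    else (if j then (if s then 1 else -1) * √(p * (1 - p)) else 1 - p)) : ℝ) : ℂ)

theorem phi_density {p : ℝ} (hp : p ∈ Set.Icc (0:ℝ) 1) (s : Bool) : IsDensity (phi p s) := by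
  have h1p : 0 ≤ 1 - p := by linarith [hp.2]
  constructor
  · have h := posSemidef_vecMulVec_self_star (fun i : Bool => (((if i then (if s then 1 else -1) * √p else √(1 - p)) : ℝ) : ℂ))
    convert! h using 1
    ext i j
    have e1 : √p * √p = p := Real.mul_self_sqrt hp.1
    have e2 : √(1 - p) * √(1 - p) = 1 - p := Real.mul_self_sqrt h1p
    have e3 : √(p * (1 - p)) = √p * √(1 - p) := Real.sqrt_mul hp.1 _
    rw [vecMulVec_apply, Pi.star_apply, Complex.star_def, Complex.conj_ofReal, ← Complex.ofReal_mul, phi, of_apply]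
    congr 1
    rw [e3]
    cases i <;> cases j <;> cases s <;> simp [e1, e2, mul_comm]
  · simp [trace, phi]

theorem det_bool (A : Matrix Bool Bool ℂ) : A.det = A false false * A true true - A false true * A true false := by
  rw [← det_reindex_self finTwoEquiv.symm A, det_fin_two]
  rfl

theorem cp_id : IsCompletelyPositive (fun X : Matrix d d ℂ => X) := by
  intro k M hM
  convert! hM using 1

theorem gad_apply (γ ν : ℝ) (ρ : Matrix Bool Bool ℂ) (s t : Bool) :
    gadMap γ ν ρ s t = ∑ s', ∑ t', qubitCoeff (gadMap γ ν) s t s' t' * ρ s' t' := by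
  cases s <;> cases t <;> simp [qubitCoeff, gadMap, Matrix.single_apply, add_comm]

theorem gad_psd {γ ν : ℝ} (hγ : γ ∈ Set.Icc (0:ℝ) 1) (hν : ν ∈ Set.Icc (0:ℝ) 1)
    {ρ : Matrix Bool Bool ℂ} (h : ρ.PosSemidef) : (gadMap γ ν ρ).PosSemidef := by
  have h1 : (ρ.submatrix (fun p : Bool × Unit => p.1) (fun p => p.1)).PosSemidef := h.submatrix _
  have h2 := (qt_psd hγ hν cp_id h1).submatrix (fun i : Bool => (i, ()))
  convert! h2 using 1
  ext s t
  rw [gad_apply]
  simp [qubitTensor, block]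

theorem gad_trace (γ ν : ℝ) (ρ : Matrix Bool Bool ℂ) : (gadMap γ ν ρ).trace = ρ.trace := by
  simp [trace, gadMap]
  ring

theorem gad_density {γ ν : ℝ} (hγ : γ ∈ Set.Icc (0:ℝ) 1) (hν : ν ∈ Set.Icc (0:ℝ) 1)
    {ρ : Matrix Bool Bool ℂ} (h : IsDensity ρ) : IsDensity (gadMap γ ν ρ) := by
  exact ⟨gad_psd hγ hν h.1, by rw [gad_trace]; exact h.2⟩

theorem vn_phi {γ ν p : ℝ} (hγ : γ ∈ Set.Icc (0:ℝ) 1) (hν : ν ∈ Set.Icc (0:ℝ) 1)
    (hp : p ∈ Set.Icc (0:ℝ) 1) (s : Bool) : vnEntropy (gadMap γ ν (phi p s)) = EE γ ν p := by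
  have hH : (gadMap γ ν (phi p s)).IsHermitian := (gad_density hγ hν (phi_density hp s)).1.1
  rw [vn_bool hH, EE_sE]
  congr 1
  · simp [trace, gadMap, phi]
    ring
  · rw [det_bool]
    have h1p : 0 ≤ 1 - p := by linarith [hp.2]
    have h1 : √(p * (1 - p)) ^ 2 = p * (1 - p) := Real.sq_sqrt (mul_nonneg hp.1 h1p)
    have h2 : √(1 - γ) ^ 2 = 1 - γ := Real.sq_sqrt (by linarith [hγ.2])
    have : (gadMap γ ν (phi p s) false false * gadMap γ ν (phi p s) true true -
        gadMap γ ν (phi p s) false true * gadMap γ ν (phi p s) true false) =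
        ((((1 - γ * ν) * (1 - p) + γ * (1 - ν) * p) * (γ * ν * (1 - p) + (1 - γ + γ * ν) * p) -
          √(1 - γ) ^ 2 * √(p * (1 - p)) ^ 2 : ℝ) : ℂ) := by
      cases s
      · simp [gadMap, phi]
        ring
      · simp [gadMap, phi]
        ring
    rw [this, Complex.ofReal_re, h1, h2]
    ring

theorem gad_linear (γ ν : ℝ) : IsLinearMap ℂ (gadMap γ ν) := by
  constructor
  · intro x y
    ext s t
    cases s <;> cases t <;> simp [gadMap] <;> ring
  · intro c x
    ext s t
    cases s <;> cases t <;> simp [gadMap] <;> ring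

theorem gad_tp (γ ν : ℝ) : IsTracePreserving (gadMap γ ν) := gad_trace γ ν

theorem phi_avg (p : ℝ) : ((1 / 2 : ℝ) : ℂ) • phi p true + ((1 / 2 : ℝ) : ℂ) • phi p false =
    diagonal (fun s : Bool => ((if s then p else 1 - p : ℝ) : ℂ)) := by
  ext s t
  cases s <;> cases t <;> simp [phi] <;> ring

theorem gad_diag (γ ν p : ℝ) :
    gadMap γ ν (diagonal (fun s : Bool => ((if s then p else 1 - p : ℝ) : ℂ))) =
      diagonal (fun s : Bool => ((if s then (1 - γ) * p + γ * ν else 1 - ((1 - γ) * p + γ * ν) : ℝ) : ℂ)) := by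
  ext s t
  cases s <;> cases t <;> simp [gadMap] <;> ring

theorem vn_gad_diag (γ ν p : ℝ) :
    vnEntropy (gadMap γ ν (diagonal (fun s : Bool => ((if s then p else 1 - p : ℝ) : ℂ)))) =
      binEntropy ((1 - γ) * p + γ * ν) := by
  rw [gad_diag, vn_diag, binEntropy_eq_negMulLog_add_negMulLog_one_sub]
  simp

theorem exists_density [Nonempty d] {X : Matrix d d ℂ} (hX : X.PosSemidef) :
    ∃ Y, IsDensity Y ∧ X = (X.trace.re : ℂ) • Y := by
  rcases (posSemidef_trace_re_nonneg hX).eq_or_lt with h | h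
  · let i : d := Classical.arbitrary d
    refine ⟨diagonal (fun j => if j = i then 1 else 0), ⟨?_, ?_⟩, ?_⟩
    · apply PosSemidef.diagonal
      intro j
      by_cases hj : j = i <;> simp [hj]
    · simp [trace_diagonal]
    · rw [← h, eq_zero_of_trace_re hX h.symm]; simp
  · obtain ⟨Y, h1, h2, h3⟩ := exists_normalized hX h
    refine ⟨Y, ⟨h1, ?_⟩, h3⟩
    apply Complex.ext
    · rw [h2, Complex.one_re]
    · rw [posSemidef_trace_im h1.1, Complex.one_im]

theorem map_density {Ψ : Matrix d d ℂ → Matrix e e ℂ} (h : IsChannel Ψ) {X : Matrix d d ℂ}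
    (hX : IsDensity X) : IsDensity (Ψ X) :=
  ⟨map_psd h.2.1 hX.1, by rw [h.2.2]; exact hX.2⟩

theorem St_density {X : Matrix d d ℂ} (hX : IsDensity X) : St X = vnEntropy X := by
  rw [St, hX.2, Complex.one_re, negMulLog_one, sub_zero]

theorem St_map {Ψ : Matrix d d ℂ → Matrix e e ℂ} (h : IsChannel Ψ) {Y : Matrix d d ℂ}
    (hY : IsDensity Y) (c : ℝ) : St (Ψ ((c : ℂ) • Y)) = c * vnEntropy (Ψ Y) := by
  rw [h.1.map_smul, St_smul (map_psd h.2.1 hY.1).1, St_density (map_density h hY)]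

theorem map_sum_smul {Ψ : Matrix d d ℂ → Matrix e e ℂ} (h : IsLinearMap ℂ Ψ) {ι : Type*} (s : Finset ι)
    (c : ι → ℂ) (X : ι → Matrix d d ℂ) : Ψ (∑ a ∈ s, c a • X a) = ∑ a ∈ s, c a • Ψ (X a) := by
  have := map_sum (h.mk' Ψ) (fun a => c a • X a) s
  simp only [IsLinearMap.mk'_apply] at this
  rw [this]
  apply Finset.sum_congr rfl
  intro a _
  rw [h.map_smul]

theorem density_sum {ι : Type*} [Fintype ι] {q : ι → ℝ} {ρ : ι → Matrix d d ℂ}
    (h0 : ∀ a, 0 ≤ q a) (h1 : ∑ a, q a = 1) (h2 : ∀ a, IsDensity (ρ a)) :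
    IsDensity (∑ a, (q a : ℂ) • ρ a) := by
  constructor
  · apply posSemidef_sum
    intro a _
    exact (h2 a).1.smul (by exact_mod_cast h0 a)
  · rw [trace_sum]
    simp only [trace_smul, (h2 _).2, smul_eq_mul, mul_one]
    rw [← Complex.ofReal_sum, h1, Complex.ofReal_one]

theorem qt_linear (γ ν : ℝ) {Ψ : Matrix d d ℂ → Matrix e e ℂ} (h : IsLinearMap ℂ Ψ) :
    IsLinearMap ℂ (qubitTensor (gadMap γ ν) Ψ) := by
  have hb1 : ∀ (x y : Matrix (Bool × d) (Bool × d) ℂ) s t, block (x + y) s t = block x s t + block y s t := by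
    intro x y s t; ext i j; simp [block]
  have hb2 : ∀ (c : ℂ) (x : Matrix (Bool × d) (Bool × d) ℂ) s t, block (c • x) s t = c • block x s t := by
    intro c x s t; ext i j; simp [block]
  constructor
  · intro x y
    ext p q
    simp only [qubitTensor, of_apply, Matrix.add_apply, hb1, h.map_add, mul_add, Finset.sum_add_distrib]
  · intro c x
    ext p q
    simp only [qubitTensor, of_apply, Matrix.smul_apply, hb2, h.map_smul, smul_eq_mul, Finset.mul_sum]
    apply Finset.sum_congr rfl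
    intro s _
    apply Finset.sum_congr rfl
    intro t _
    ring

end Crest.Agent.GAD
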