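import Mathlib
import Crest.Agent.GAD.Ens

/-! The four parts of the additivity statement. -/

set_option autoImplicit false
set_option linter.unusedSectionVars false

namespace Crest.Agent.GAD

open Real Matrix Crest.Quantum Crest.MathPhysics.AmpDamp
open scoped ComplexOrder Kronecker

variable {d e : Type*} [Fintype d] [Fintype e] [DecidableEq d] [DecidableEq e]

theorem block_add (x y : Matrix (Bool × d) (Bool × d) ℂ) (s t : Bool) :
    block (x + y) s t = block x s t + block y s t := by ext i j; simp [block]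

theorem block_smul (c : ℂ) (x : Matrix (Bool × d) (Bool × d) ℂ) (s t : Bool) :
    block (c • x) s t = c • block x s t := by ext i j; simp [block]

theorem block_sum {ι : Type*} (u : Finset ι) (x : ι → Matrix (Bool × d) (Bool × d) ℂ) (s t : Bool) :
    block (∑ a ∈ u, x a) s t = ∑ a ∈ u, block (x a) s t := by
  ext i j
  simp only [block, of_apply, Matrix.sum_apply]

theorem p_mem {M : Matrix (Bool × d) (Bool × d) ℂ} (hM : IsDensity M) :
    (block M true true).trace.re ∈ Set.Icc (0:ℝ) 1 := by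
  have htr : (block M false false).trace.re + (block M true true).trace.re = 1 := by
    rw [← Complex.add_re, ← trace_blocks, hM.2, Complex.one_re]
  have h1 := posSemidef_trace_re_nonneg (block_psd_tt hM.1 true)
  have h2 := posSemidef_trace_re_nonneg (block_psd_tt hM.1 false)
  exact ⟨h1, by linarith⟩

theorem part1 {γ ν : ℝ} (hγ : γ ∈ Set.Icc (0:ℝ) 1) (hν : ν ∈ Set.Icc (0:ℝ) 1)
    {Ψ : Matrix d d ℂ → Matrix e e ℂ} (h : IsChannel Ψ) [Nonempty d] {m : ℕ} (q : Fin m → ℝ)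
    (ρ : Fin m → Matrix (Bool × d) (Bool × d) ℂ) (hE : IsEnsemble q ρ) :
    ∃ (m₁ : ℕ) (q₁ : Fin m₁ → ℝ) (ρ₁ : Fin m₁ → Matrix Bool Bool ℂ)
        (m₂ : ℕ) (q₂ : Fin m₂ → ℝ) (ρ₂ : Fin m₂ → Matrix d d ℂ),
        IsEnsemble q₁ ρ₁ ∧ IsEnsemble q₂ ρ₂ ∧
          holevoInfo (qubitTensor (gadMap γ ν) Ψ) q ρ ≤
            holevoInfo (gadMap γ ν) q₁ ρ₁ + holevoInfo Ψ q₂ ρ₂ := by
  obtain ⟨h0, h1, h2⟩ := hE
  have hY : ∀ (a : Fin m) (s : Bool), ∃ Y, IsDensity Y ∧ block (ρ a) s s = ((block (ρ a) s s).trace.re : ℂ) • Y :=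
    fun a s => exists_density (block_psd_tt (h2 a).1 s)
  choose Y hY1 hY2 using hY
  set p : Fin m → ℝ := fun a => (block (ρ a) true true).trace.re with hp
  have hp01 : ∀ a, p a ∈ Set.Icc (0:ℝ) 1 := fun a => p_mem (h2 a)
  have htr : ∀ a, (block (ρ a) false false).trace.re = 1 - p a := by
    intro a
    have : (block (ρ a) false false).trace.re + (block (ρ a) true true).trace.re = 1 := by
      rw [← Complex.add_re, ← trace_blocks, (h2 a).2, Complex.one_re]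
    simp only [hp]; linarith
  obtain ⟨m₁, q₁, ρ₁, hE1, hχ1⟩ := exists_fin_ensemble (e := Bool) (ι := Fin m × Bool) (fun x => q x.1 / 2)
    (fun x => phi (p x.1) x.2) (fun x => by have := h0 x.1; positivity)
    (by
      rw [Fintype.sum_prod_type]
      simp only [Fintype.sum_bool, add_halves]
      exact h1)
    (fun x => phi_density (hp01 x.1) x.2)
  obtain ⟨m₂, q₂, ρ₂, hE2, hχ2⟩ := exists_fin_ensemble (e := e) (ι := Fin m × Bool)
    (fun x => q x.1 * (block (ρ x.1) x.2 x.2).trace.re)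
    (fun x => Y x.1 x.2) (fun x => mul_nonneg (h0 x.1) (posSemidef_trace_re_nonneg (block_psd_tt (h2 x.1).1 x.2)))
    (by
      rw [Fintype.sum_prod_type]
      simp only [Fintype.sum_bool]
      rw [← h1]
      apply Finset.sum_congr rfl
      intro a _
      rw [htr a]
      simp only [hp]
      ring)
    (fun x => hY1 x.1 x.2)
  refine ⟨m₁, q₁, ρ₁, m₂, q₂, ρ₂, hE1, hE2, ?_⟩
  rw [hχ1, hχ2]
  unfold holevoInfo
  have hρbar := density_sum h0 h1 h2
  rw [← map_sum_smul (qt_linear γ ν h.1)]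
  set R := ∑ a, (q a : ℂ) • ρ a with hR
  have hup := gad_upper hγ hν h hρbar
  have hlow : ∑ a, q a * (St (Ψ (block (ρ a) false false)) + St (Ψ (block (ρ a) true true)) + EE γ ν (p a)) ≤
      ∑ a, q a * vnEntropy (qubitTensor (gadMap γ ν) Ψ (ρ a)) := by
    apply Finset.sum_le_sum
    intro a _
    exact mul_le_mul_of_nonneg_left (gad_lower hγ hν h (h2 a)) (h0 a)
  have hpbar : (block R true true).trace.re = ∑ a, q a * p a := by
    rw [hR, block_sum, trace_sum, Complex.re_sum]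
    apply Finset.sum_congr rfl
    intro a _
    rw [block_smul, trace_re_smul]
  rw [hpbar] at hup
  -- first ensemble
  have hA1 : ∑ x : Fin m × Bool, ((q x.1 / 2 : ℝ) : ℂ) • gadMap γ ν (phi (p x.1) x.2) =
      gadMap γ ν (diagonal (fun s : Bool => ((if s then ∑ a, q a * p a else 1 - ∑ a, q a * p a : ℝ) : ℂ))) := by
    rw [← map_sum_smul (gad_linear γ ν)]
    congr 1
    rw [Fintype.sum_prod_type]
    have e1 : ∀ a, ∑ s : Bool, ((q a / 2 : ℝ) : ℂ) • phi (p a) s = (q a : ℂ) • diagonal (fun s : Bool => ((if s then p a else 1 - p a : ℝ) : ℂ)) := by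
      intro a
      rw [← phi_avg, Fintype.sum_bool, smul_add, smul_smul, smul_smul, ← Complex.ofReal_mul]
      congr 3 <;> ring_nf
    simp only [e1]
    ext s t
    rw [Matrix.sum_apply]
    cases s <;> cases t <;> simp [mul_sub]
    rw [← Complex.ofReal_sum, h1, Complex.ofReal_one]
  have hB1 : ∑ x : Fin m × Bool, (q x.1 / 2) * vnEntropy (gadMap γ ν (phi (p x.1) x.2)) = ∑ a, q a * EE γ ν (p a) := by
    rw [Fintype.sum_prod_type]
    apply Finset.sum_congr rfl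
    intro a _
    rw [Fintype.sum_bool, vn_phi hγ hν (hp01 a), vn_phi hγ hν (hp01 a)]
    ring
  have hA2 : ∑ x : Fin m × Bool, ((q x.1 * (block (ρ x.1) x.2 x.2).trace.re : ℝ) : ℂ) • Ψ (Y x.1 x.2) =
      Ψ (block R false false + block R true true) := by
    rw [← map_sum_smul h.1]
    congr 1
    rw [Fintype.sum_prod_type, hR, block_sum, block_sum, ← Finset.sum_add_distrib]
    apply Finset.sum_congr rfl
    intro a _
    rw [Fintype.sum_bool, block_smul, block_smul]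
    conv_rhs => rw [hY2 a false, hY2 a true]
    rw [smul_smul, smul_smul, ← Complex.ofReal_mul, ← Complex.ofReal_mul, add_comm]
  have hB2 : ∑ x : Fin m × Bool, (q x.1 * (block (ρ x.1) x.2 x.2).trace.re) * vnEntropy (Ψ (Y x.1 x.2)) =
      ∑ a, q a * (St (Ψ (block (ρ a) false false)) + St (Ψ (block (ρ a) true true))) := by
    rw [Fintype.sum_prod_type]
    apply Finset.sum_congr rfl
    intro a _
    rw [Fintype.sum_bool]
    conv_rhs => rw [hY2 a false, hY2 a true]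
    rw [St_map h (hY1 a false), St_map h (hY1 a true)]
    ring
  rw [hA1, hB1, hA2, hB2, vn_gad_diag]
  have hsplit : ∑ a, q a * (St (Ψ (block (ρ a) false false)) + St (Ψ (block (ρ a) true true)) + EE γ ν (p a)) =
      ∑ a, q a * (St (Ψ (block (ρ a) false false)) + St (Ψ (block (ρ a) true true))) + ∑ a, q a * EE γ ν (p a) := by
    rw [← Finset.sum_add_distrib]
    apply Finset.sum_congr rfl
    intro a _
    ring
  rw [hsplit] at hlow
  linarith

theorem block_kron (σ : Matrix Bool Bool ℂ) (ω : Matrix d d ℂ) (s t : Bool) :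
    block (σ ⊗ₖ ω) s t = σ s t • ω := by
  ext i j
  simp [block, kronecker_apply]

theorem qt_kron (γ ν : ℝ) {Ψ : Matrix d d ℂ → Matrix e e ℂ} (h : IsLinearMap ℂ Ψ)
    (σ : Matrix Bool Bool ℂ) (ω : Matrix d d ℂ) :
    qubitTensor (gadMap γ ν) Ψ (σ ⊗ₖ ω) = gadMap γ ν σ ⊗ₖ Ψ ω := by
  ext p q
  rw [kronecker_apply, gad_apply]
  simp only [qubitTensor, of_apply, block_kron, h.map_smul, Matrix.smul_apply, smul_eq_mul]
  rw [Finset.sum_mul]
  apply Finset.sum_congr rfl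
  intro s _
  rw [Finset.sum_mul]
  apply Finset.sum_congr rfl
  intro t _
  ring

theorem kron_density {σ : Matrix Bool Bool ℂ} {ω : Matrix d d ℂ} (h1 : IsDensity σ) (h2 : IsDensity ω) :
    IsDensity (σ ⊗ₖ ω) :=
  ⟨h1.1.kronecker h2.1, by rw [trace_kronecker, h1.2, h2.2, mul_one]⟩

theorem vn_kron_density {σ : Matrix Bool Bool ℂ} {ω : Matrix d d ℂ} (h1 : IsDensity σ) (h2 : IsDensity ω) :
    vnEntropy (σ ⊗ₖ ω) = vnEntropy σ + vnEntropy ω := by
  rw [vn_kron h1.1.1 h2.1.1, h1.2, h2.2, Complex.one_re, mul_one, mul_one]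

theorem part2 {γ ν : ℝ} (hγ : γ ∈ Set.Icc (0:ℝ) 1) (hν : ν ∈ Set.Icc (0:ℝ) 1)
    {Ψ : Matrix d d ℂ → Matrix e e ℂ} (h : IsChannel Ψ) {m₁ : ℕ} (q₁ : Fin m₁ → ℝ)
    (ρ₁ : Fin m₁ → Matrix Bool Bool ℂ) {m₂ : ℕ} (q₂ : Fin m₂ → ℝ) (ρ₂ : Fin m₂ → Matrix d d ℂ)
    (hE1 : IsEnsemble q₁ ρ₁) (hE2 : IsEnsemble q₂ ρ₂) :
    ∃ (m : ℕ) (q : Fin m → ℝ) (ρ : Fin m → Matrix (Bool × d) (Bool × d) ℂ), IsEnsemble q ρ ∧
        holevoInfo (gadMap γ ν) q₁ ρ₁ + holevoInfo Ψ q₂ ρ₂ ≤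
          holevoInfo (qubitTensor (gadMap γ ν) Ψ) q ρ := by
  obtain ⟨a0, a1, a2⟩ := hE1
  obtain ⟨b0, b1, b2⟩ := hE2
  obtain ⟨m, q, ρ, hE, hχ⟩ := exists_fin_ensemble (e := Bool × e) (ι := Fin m₁ × Fin m₂) (fun x => q₁ x.1 * q₂ x.2)
    (fun x => ρ₁ x.1 ⊗ₖ ρ₂ x.2) (fun x => mul_nonneg (a0 x.1) (b0 x.2))
    (by
      rw [Fintype.sum_prod_type]
      simp only [← Finset.mul_sum, b1, mul_one, a1])
    (fun x => kron_density (a2 x.1) (b2 x.2))
  refine ⟨m, q, ρ, hE, ?_⟩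
  rw [hχ]
  have hsum : ∑ x : Fin m₁ × Fin m₂, ((q₁ x.1 * q₂ x.2 : ℝ) : ℂ) • qubitTensor (gadMap γ ν) Ψ (ρ₁ x.1 ⊗ₖ ρ₂ x.2) =
      (∑ a, (q₁ a : ℂ) • gadMap γ ν (ρ₁ a)) ⊗ₖ (∑ b, (q₂ b : ℂ) • Ψ (ρ₂ b)) := by
    ext u v
    rw [kronecker_apply, Matrix.sum_apply, Matrix.sum_apply, Matrix.sum_apply, Finset.sum_mul_sum, Fintype.sum_prod_type]
    apply Finset.sum_congr rfl
    intro a _
    apply Finset.sum_congr rfl
    intro b _
    rw [qt_kron γ ν h.1, Matrix.smul_apply, kronecker_apply, Matrix.smul_apply, Matrix.smul_apply, Complex.ofReal_mul]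
    simp only [smul_eq_mul]
    ring
  have d1 : IsDensity (∑ a, (q₁ a : ℂ) • gadMap γ ν (ρ₁ a)) :=
    density_sum a0 a1 (fun a => gad_density hγ hν (a2 a))
  have d2 : IsDensity (∑ b, (q₂ b : ℂ) • Ψ (ρ₂ b)) :=
    density_sum b0 b1 (fun b => map_density h (b2 b))
  rw [hsum, vn_kron_density d1 d2]
  have hs2 : ∑ x : Fin m₁ × Fin m₂, (q₁ x.1 * q₂ x.2) * vnEntropy (qubitTensor (gadMap γ ν) Ψ (ρ₁ x.1 ⊗ₖ ρ₂ x.2)) =
      ∑ a, q₁ a * vnEntropy (gadMap γ ν (ρ₁ a)) + ∑ b, q₂ b * vnEntropy (Ψ (ρ₂ b)) := by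
    rw [Fintype.sum_prod_type]
    have e1 : ∀ a, ∑ b, (q₁ a * q₂ b) * vnEntropy (qubitTensor (gadMap γ ν) Ψ (ρ₁ a ⊗ₖ ρ₂ b)) =
        q₁ a * vnEntropy (gadMap γ ν (ρ₁ a)) + q₁ a * ∑ b, q₂ b * vnEntropy (Ψ (ρ₂ b)) := by
      intro a
      have : ∀ b, (q₁ a * q₂ b) * vnEntropy (qubitTensor (gadMap γ ν) Ψ (ρ₁ a ⊗ₖ ρ₂ b)) =
          q₂ b * (q₁ a * vnEntropy (gadMap γ ν (ρ₁ a))) + q₁ a * (q₂ b * vnEntropy (Ψ (ρ₂ b))) := by
        intro b
        rw [qt_kron γ ν h.1, vn_kron_density (gad_density hγ hν (a2 a)) (map_density h (b2 b))]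
        ring
      simp only [this, Finset.sum_add_distrib, ← Finset.sum_mul, ← Finset.mul_sum, b1, one_mul]
    simp only [e1, Finset.sum_add_distrib, ← Finset.sum_mul, a1, one_mul]
  rw [hs2]
  unfold holevoInfo
  apply le_of_eq
  ring

theorem part3 {γ ν : ℝ} (hγ : γ ∈ Set.Icc (0:ℝ) 1) (hν : ν ∈ Set.Icc (0:ℝ) 1)
    {Ψ : Matrix d d ℂ → Matrix e e ℂ} (h : IsChannel Ψ) [Nonempty d]
    (ρ : Matrix (Bool × d) (Bool × d) ℂ) (hρ : IsDensity ρ) :
    ∃ (ρ₁ : Matrix Bool Bool ℂ) (ρ₂ : Matrix d d ℂ), IsDensity ρ₁ ∧ IsDensity ρ₂ ∧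
        vnEntropy (gadMap γ ν ρ₁) + vnEntropy (Ψ ρ₂) ≤ vnEntropy (qubitTensor (gadMap γ ν) Ψ ρ) := by
  have hlow := gad_lower hγ hν h hρ
  obtain ⟨Y0, d0, e0⟩ := exists_density (block_psd_tt hρ.1 false)
  obtain ⟨Y1, d1, e1⟩ := exists_density (block_psd_tt hρ.1 true)
  have htr : (block ρ false false).trace.re + (block ρ true true).trace.re = 1 := by
    rw [← Complex.add_re, ← trace_blocks, hρ.2, Complex.one_re]
  have hp := p_mem hρ
  have s0 : St (Ψ (block ρ false false)) = (block ρ false false).trace.re * vnEntropy (Ψ Y0) := by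
    conv_lhs => rw [e0]
    exact St_map h d0 _
  have s1 : St (Ψ (block ρ true true)) = (block ρ true true).trace.re * vnEntropy (Ψ Y1) := by
    conv_lhs => rw [e1]
    exact St_map h d1 _
  rw [s0, s1] at hlow
  have h1 := posSemidef_trace_re_nonneg (block_psd_tt hρ.1 true)
  have h2 := posSemidef_trace_re_nonneg (block_psd_tt hρ.1 false)
  rcases le_total (vnEntropy (Ψ Y0)) (vnEntropy (Ψ Y1)) with hle | hle
  · refine ⟨phi (block ρ true true).trace.re true, Y0, phi_density hp true, d0, ?_⟩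
    rw [vn_phi hγ hν hp]
    have e2 : (block ρ false false).trace.re = 1 - (block ρ true true).trace.re := by linarith
    rw [e2] at hlow
    nlinarith
  · refine ⟨phi (block ρ true true).trace.re true, Y1, phi_density hp true, d1, ?_⟩
    rw [vn_phi hγ hν hp]
    have e2 : (block ρ true true).trace.re = 1 - (block ρ false false).trace.re := by linarith
    have h3 : (block ρ false false).trace.re * vnEntropy (Ψ Y1) ≤ (block ρ false false).trace.re * vnEntropy (Ψ Y0) :=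
      mul_le_mul_of_nonneg_left hle h2
    have h4 : (block ρ true true).trace.re * vnEntropy (Ψ Y1) + (block ρ false false).trace.re * vnEntropy (Ψ Y1) = vnEntropy (Ψ Y1) := by
      rw [← add_mul, add_comm, htr, one_mul]
    linarith

theorem part4 {γ ν : ℝ} (hγ : γ ∈ Set.Icc (0:ℝ) 1) (hν : ν ∈ Set.Icc (0:ℝ) 1)
    {Ψ : Matrix d d ℂ → Matrix e e ℂ} (h : IsChannel Ψ) (ρ₁ : Matrix Bool Bool ℂ) (ρ₂ : Matrix d d ℂ)
    (h1 : IsDensity ρ₁) (h2 : IsDensity ρ₂) :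
    ∃ ρ : Matrix (Bool × d) (Bool × d) ℂ, IsDensity ρ ∧
        vnEntropy (qubitTensor (gadMap γ ν) Ψ ρ) ≤ vnEntropy (gadMap γ ν ρ₁) + vnEntropy (Ψ ρ₂) := by
  refine ⟨ρ₁ ⊗ₖ ρ₂, kron_density h1 h2, ?_⟩
  rw [qt_kron γ ν h.1, vn_kron_density (gad_density hγ hν h1) (map_density h h2)]

end Crest.Agent.GAD
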