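import Mathlib
import Crest.Agent.GAD.Parts

/-! Tensor powers. -/

set_option autoImplicit false
set_option linter.unusedSectionVars false

namespace Crest.Agent.GAD

open Real Matrix Crest.Quantum Crest.MathPhysics.AmpDamp
open scoped ComplexOrder Kronecker

variable {d e : Type*} [Fintype d] [Fintype e] [DecidableEq d] [DecidableEq e]

theorem cp_blockwise {Ψ : Matrix d d ℂ → Matrix e e ℂ} (h : IsCompletelyPositive Ψ) (k : ℕ) :
    IsCompletelyPositive (blockwise (k := Fin k) Ψ) := by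
  intro k' N hN
  have h1 : (N.submatrix (fun p : (Fin k' × Fin k) × d => (p.1.1, (p.1.2, p.2)))
    (fun p => (p.1.1, (p.1.2, p.2)))).PosSemidef := hN.submatrix _
  have h2 := (cp_any h h1).submatrix (fun p : Fin k' × (Fin k × e) => ((p.1, p.2.1), p.2.2))
  convert! h2 using 1

theorem qt_cp {γ ν : ℝ} (hγ : γ ∈ Set.Icc (0:ℝ) 1) (hν : ν ∈ Set.Icc (0:ℝ) 1)
    {Ψ : Matrix d d ℂ → Matrix e e ℂ} (h : IsCompletelyPositive Ψ) :
    IsCompletelyPositive (qubitTensor (gadMap γ ν) Ψ) := by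
  intro k M hM
  have h1 : (M.submatrix (fun p : Bool × (Fin k × d) => (p.2.1, (p.1, p.2.2)))
    (fun p => (p.2.1, (p.1, p.2.2)))).PosSemidef := hM.submatrix _
  have h2 := (qt_psd hγ hν (cp_blockwise h k) h1).submatrix (fun p : Fin k × (Bool × e) => (p.2.1, (p.1, p.2.2)))
  convert! h2 using 1

theorem qt_tp (γ ν : ℝ) {Ψ : Matrix d d ℂ → Matrix e e ℂ} (h : IsTracePreserving Ψ) :
    IsTracePreserving (qubitTensor (gadMap γ ν) Ψ) := by
  intro M
  rw [trace_blocks, qt_ff, qt_tt, trace_add, trace_add, trace_smul, trace_smul, trace_smul, trace_smul,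
    h, h, trace_blocks M]
  simp only [smul_eq_mul]
  push_cast
  ring

theorem qt_channel {γ ν : ℝ} (hγ : γ ∈ Set.Icc (0:ℝ) 1) (hν : ν ∈ Set.Icc (0:ℝ) 1)
    {Ψ : Matrix d d ℂ → Matrix e e ℂ} (h : IsChannel Ψ) : IsChannel (qubitTensor (gadMap γ ν) Ψ) :=
  ⟨qt_linear γ ν h.1, qt_cp hγ hν h.2.1, qt_tp γ ν h.2.2⟩

/-- prepend a bit -/
def ce (n : ℕ) : Bool × (Fin n → Bool) ≃ (Fin (n + 1) → Bool) := Fin.consEquiv (fun _ => Bool)

theorem ce_apply (n : ℕ) (s : Bool) (σ : Fin n → Bool) : ce n (s, σ) = (Fin.cons s σ : Fin (n + 1) → Bool) := rfl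

theorem power_submatrix (n : ℕ) (Φ : Matrix Bool Bool ℂ → Matrix Bool Bool ℂ)
    (M : Matrix (Fin (n + 1) → Bool) (Fin (n + 1) → Bool) ℂ) :
    (qubitPower (n + 1) Φ M).submatrix (ce n) (ce n) = qubitTensor Φ (qubitPower n Φ) (M.submatrix (ce n) (ce n)) := by
  ext ⟨s, σ⟩ ⟨t, τ⟩
  rw [submatrix_apply]
  simp only [qubitPower, qubitTensor, of_apply, ce_apply]
  rw [← Equiv.sum_comp (ce n), Fintype.sum_prod_type]
  apply Finset.sum_congr rfl
  intro s' _
  have e1 : ∀ σ' : Fin n → Bool, ∑ τ' : Fin (n + 1) → Bool,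
      (∏ i, qubitCoeff Φ ((Fin.cons s σ : Fin (n + 1) → Bool) i) ((Fin.cons t τ : Fin (n + 1) → Bool) i) (ce n (s', σ') i) (τ' i)) * M (ce n (s', σ')) τ' =
      ∑ t' : Bool, ∑ τ'' : Fin n → Bool, qubitCoeff Φ s t s' t' * ((∏ i, qubitCoeff Φ (σ i) (τ i) (σ' i) (τ'' i)) * M (ce n (s', σ')) (ce n (t', τ''))) := by
    intro σ'
    rw [← Equiv.sum_comp (ce n), Fintype.sum_prod_type]
    apply Finset.sum_congr rfl
    intro t' _
    apply Finset.sum_congr rfl
    intro τ'' _
    rw [Fin.prod_univ_succ]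
    simp only [ce_apply, Fin.cons_zero, Fin.cons_succ]
    ring
  simp only [e1]
  rw [Finset.sum_comm]
  apply Finset.sum_congr rfl
  intro t' _
  rw [Finset.mul_sum]
  apply Finset.sum_congr rfl
  intro σ' _
  rw [Finset.mul_sum]
  rfl

theorem power_succ (n : ℕ) (Φ : Matrix Bool Bool ℂ → Matrix Bool Bool ℂ)
    (M : Matrix (Fin (n + 1) → Bool) (Fin (n + 1) → Bool) ℂ) :
    qubitPower (n + 1) Φ M = (qubitTensor Φ (qubitPower n Φ) (M.submatrix (ce n) (ce n))).submatrix (ce n).symm (ce n).symm := by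
  rw [← power_submatrix, submatrix_submatrix]
  simp

theorem power_zero (Φ : Matrix Bool Bool ℂ → Matrix Bool Bool ℂ) (M : Matrix (Fin 0 → Bool) (Fin 0 → Bool) ℂ) :
    qubitPower 0 Φ M = M := by
  ext σ τ
  simp only [qubitPower, of_apply, Finset.univ_eq_empty, Finset.prod_empty, one_mul, Fintype.sum_unique]
  congr 1 <;> exact Subsingleton.elim _ _

theorem channel_reindex {a b a' b' : Type*} [Fintype a] [Fintype b] [DecidableEq a] [DecidableEq b]
    [Fintype a'] [Fintype b'] [DecidableEq a'] [DecidableEq b'] {Ψ : Matrix a a ℂ → Matrix b b ℂ} (h : IsChannel Ψ)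
    (s : a ≃ a') (r : b' ≃ b) : IsChannel (fun M : Matrix a' a' ℂ => (Ψ (M.submatrix s s)).submatrix r r) := by
  refine ⟨⟨?_, ?_⟩, ?_, ?_⟩
  · intro x y
    rw [submatrix_add, Pi.add_apply, Pi.add_apply, h.1.map_add]; rfl
  · intro c x
    rw [submatrix_smul, Pi.smul_apply, Pi.smul_apply, h.1.map_smul]; rfl
  · intro k M hM
    have h1 : (M.submatrix (fun p : Fin k × a => (p.1, s p.2)) (fun p => (p.1, s p.2))).PosSemidef := hM.submatrix _
    have h2 := (h.2.1 k _ h1).submatrix (fun p : Fin k × b' => (p.1, r p.2))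
    convert! h2 using 1
  · intro M
    have h1 : ((Ψ (M.submatrix s s)).submatrix r r).trace = (Ψ (M.submatrix s s)).trace := by
      simp only [trace, diag_apply, submatrix_apply]
      exact Equiv.sum_comp r (fun i => Ψ (M.submatrix s s) i i)
    have h2 : (M.submatrix s s).trace = M.trace := by
      simp only [trace, diag_apply, submatrix_apply]
      exact Equiv.sum_comp s (fun i => M i i)
    change ((Ψ (M.submatrix s s)).submatrix r r).trace = M.trace
    rw [h1, h.2.2, h2]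

theorem power_channel {γ ν : ℝ} (hγ : γ ∈ Set.Icc (0:ℝ) 1) (hν : ν ∈ Set.Icc (0:ℝ) 1) (n : ℕ) :
    IsChannel (qubitPower n (gadMap γ ν)) := by
  induction n with
  | zero =>
    have : qubitPower 0 (gadMap γ ν) = fun M => M := by
      funext M; exact power_zero _ M
    rw [this]
    exact ⟨⟨fun _ _ => rfl, fun _ _ => rfl⟩, cp_id, fun _ => rfl⟩
  | succ n ih =>
    have : qubitPower (n + 1) (gadMap γ ν) = fun M => (qubitTensor (gadMap γ ν) (qubitPower n (gadMap γ ν)) (M.submatrix (ce n) (ce n))).submatrix (ce n).symm (ce n).symm := by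
      funext M; exact power_succ n _ M
    rw [this]
    exact channel_reindex (qt_channel hγ hν ih) (ce n) (ce n).symm

/-- excited population of qubit `i` -/
noncomputable def pop {n : ℕ} (ρ : Matrix (Fin n → Bool) (Fin n → Bool) ℂ) (i : Fin n) : ℝ :=
  ∑ σ, if σ i then (ρ σ σ).re else 0

theorem pop_smul {n : ℕ} (c : ℝ) (ρ : Matrix (Fin n → Bool) (Fin n → Bool) ℂ) (i : Fin n) :
    pop ((c : ℂ) • ρ) i = c * pop ρ i := by
  unfold pop
  rw [Finset.mul_sum]
  apply Finset.sum_congr rfl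
  intro σ _
  by_cases h : σ i <;> simp [h]

theorem pop_add {n : ℕ} (ρ ρ' : Matrix (Fin n → Bool) (Fin n → Bool) ℂ) (i : Fin n) :
    pop (ρ + ρ') i = pop ρ i + pop ρ' i := by
  unfold pop
  rw [← Finset.sum_add_distrib]
  apply Finset.sum_congr rfl
  intro σ _
  by_cases h : σ i <;> simp [h]

theorem pop_sum {n : ℕ} {ι : Type*} (s : Finset ι) (ρ : ι → Matrix (Fin n → Bool) (Fin n → Bool) ℂ) (i : Fin n) :
    pop (∑ a ∈ s, ρ a) i = ∑ a ∈ s, pop (ρ a) i := by
  unfold pop
  rw [Finset.sum_comm]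
  apply Finset.sum_congr rfl
  intro σ _
  by_cases h : σ i <;> simp [h, Matrix.sum_apply]

theorem pop_mem {n : ℕ} {ρ : Matrix (Fin n → Bool) (Fin n → Bool) ℂ} (h : IsDensity ρ) (i : Fin n) :
    pop ρ i ∈ Set.Icc (0:ℝ) 1 := by
  have h0 : ∀ σ, 0 ≤ (ρ σ σ).re := fun σ => (Complex.le_def.1 (h.1.diag_nonneg (i := σ))).1
  constructor
  · apply Finset.sum_nonneg
    intro σ _
    by_cases hs : σ i <;> simp [hs, h0 σ]
  · have h1 : ∑ σ, (ρ σ σ).re = 1 := by
      have := congrArg Complex.re h.2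
      rw [trace, Complex.re_sum, Complex.one_re] at this
      exact this
    rw [← h1]
    apply Finset.sum_le_sum
    intro σ _
    by_cases hs : σ i <;> simp [hs, h0 σ]

theorem pop_zero {n : ℕ} (ρ : Matrix (Fin (n + 1) → Bool) (Fin (n + 1) → Bool) ℂ) :
    pop ρ 0 = (block (ρ.submatrix (ce n) (ce n)) true true).trace.re := by
  unfold pop
  rw [← Equiv.sum_comp (ce n), Fintype.sum_prod_type, Fintype.sum_bool, trace, Complex.re_sum]
  simp only [ce_apply, Fin.cons_zero, block, diag_apply, of_apply, submatrix_apply]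
  simp

theorem pop_succ {n : ℕ} (ρ : Matrix (Fin (n + 1) → Bool) (Fin (n + 1) → Bool) ℂ) (i : Fin n) :
    pop ρ i.succ = pop (block (ρ.submatrix (ce n) (ce n)) false false + block (ρ.submatrix (ce n) (ce n)) true true) i := by
  rw [pop_add]
  unfold pop
  rw [← Equiv.sum_comp (ce n), Fintype.sum_prod_type, Fintype.sum_bool, add_comm]
  simp only [ce_apply, Fin.cons_succ, block, of_apply, submatrix_apply]

theorem density_submatrix {a b : Type*} [Fintype a] [Fintype b] {ρ : Matrix b b ℂ} (h : IsDensity ρ) (s : a ≃ b) :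
    IsDensity (ρ.submatrix s s) := by
  refine ⟨h.1.submatrix s, ?_⟩
  rw [← h.2]
  simp only [trace, diag_apply, submatrix_apply]
  exact Equiv.sum_comp s (fun i => ρ i i)

theorem vn_nonneg {ρ : Matrix d d ℂ} (h : IsDensity ρ) : 0 ≤ vnEntropy ρ := by
  rw [vn_eq h.1.1]
  have h1 : ∑ i, h.1.1.eigenvalues i = 1 := by
    rw [← trace_re_eq h.1.1, h.2, Complex.one_re]
  apply Finset.sum_nonneg
  intro i _
  apply negMulLog_nonneg (h.1.eigenvalues_nonneg i)
  rw [← h1]
  exact Finset.single_le_sum (fun j _ => h.1.eigenvalues_nonneg j) (Finset.mem_univ i)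

theorem vn_power_succ {γ ν : ℝ} (hγ : γ ∈ Set.Icc (0:ℝ) 1) (hν : ν ∈ Set.Icc (0:ℝ) 1) (n : ℕ)
    {ρ : Matrix (Fin (n + 1) → Bool) (Fin (n + 1) → Bool) ℂ} (h : IsDensity ρ) :
    vnEntropy (qubitPower (n + 1) (gadMap γ ν) ρ) =
      vnEntropy (qubitTensor (gadMap γ ν) (qubitPower n (gadMap γ ν)) (ρ.submatrix (ce n) (ce n))) := by
  have h1 := (map_density (power_channel hγ hν (n + 1)) h).1.1
  rw [← power_submatrix]
  exact (vn_reindex (ce n).symm h1).symm

theorem power_low {γ ν : ℝ} (hγ : γ ∈ Set.Icc (0:ℝ) 1) (hν : ν ∈ Set.Icc (0:ℝ) 1) (n : ℕ) :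
    ∀ ρ : Matrix (Fin n → Bool) (Fin n → Bool) ℂ, IsDensity ρ →
      ∑ i, EE γ ν (pop ρ i) ≤ vnEntropy (qubitPower n (gadMap γ ν) ρ) := by
  induction n with
  | zero =>
    intro ρ h
    rw [Finset.univ_eq_empty, Finset.sum_empty]
    exact vn_nonneg (map_density (power_channel hγ hν 0) h)
  | succ n ih =>
    intro ρ h
    rw [vn_power_succ hγ hν n h, Fin.sum_univ_succ, pop_zero]
    have h' := density_submatrix h (ce n)
    set ρ' := ρ.submatrix (ce n) (ce n) with hρ'
    have hlow := gad_lower hγ hν (power_channel hγ hν n) h'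
    obtain ⟨Y0, d0, e0⟩ := exists_density (block_psd_tt h'.1 false)
    obtain ⟨Y1, d1, e1⟩ := exists_density (block_psd_tt h'.1 true)
    have htr : (block ρ' false false).trace.re + (block ρ' true true).trace.re = 1 := by
      rw [← Complex.add_re, ← trace_blocks, h'.2, Complex.one_re]
    have s0 : St (qubitPower n (gadMap γ ν) (block ρ' false false)) = (block ρ' false false).trace.re * vnEntropy (qubitPower n (gadMap γ ν) Y0) := by
      conv_lhs => rw [e0]
      exact St_map (power_channel hγ hν n) d0 _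
    have s1 : St (qubitPower n (gadMap γ ν) (block ρ' true true)) = (block ρ' true true).trace.re * vnEntropy (qubitPower n (gadMap γ ν) Y1) := by
      conv_lhs => rw [e1]
      exact St_map (power_channel hγ hν n) d1 _
    rw [s0, s1] at hlow
    have i0 := ih Y0 d0
    have i1 := ih Y1 d1
    have h1 := posSemidef_trace_re_nonneg (block_psd_tt h'.1 true)
    have h2 := posSemidef_trace_re_nonneg (block_psd_tt h'.1 false)
    have hconv : ∑ i : Fin n, EE γ ν (pop ρ i.succ) ≤ (block ρ' false false).trace.re * ∑ i, EE γ ν (pop Y0 i) +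
        (block ρ' true true).trace.re * ∑ i, EE γ ν (pop Y1 i) := by
      rw [Finset.mul_sum, Finset.mul_sum, ← Finset.sum_add_distrib]
      apply Finset.sum_le_sum
      intro i _
      have hc := (EE_convex hγ hν).2 (pop_mem d0 i) (pop_mem d1 i) h2 h1 htr
      simp only [smul_eq_mul] at hc
      have e2 : pop ρ i.succ = (block ρ' false false).trace.re * pop Y0 i + (block ρ' true true).trace.re * pop Y1 i := by
        rw [pop_succ, ← hρ', ← pop_smul, ← pop_smul, ← e0, ← e1, ← pop_add]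
      rw [e2]
      exact hc
    have j0 := mul_le_mul_of_nonneg_left i0 h2
    have j1 := mul_le_mul_of_nonneg_left i1 h1
    linarith

theorem density_marginal {M : Matrix (Bool × d) (Bool × d) ℂ} (hM : IsDensity M) :
    IsDensity (block M false false + block M true true) :=
  ⟨(block_psd_tt hM.1 false).add (block_psd_tt hM.1 true), by rw [trace_add, ← trace_blocks]; exact hM.2⟩

theorem power_up {γ ν : ℝ} (hγ : γ ∈ Set.Icc (0:ℝ) 1) (hν : ν ∈ Set.Icc (0:ℝ) 1) (n : ℕ) :
    ∀ ρ : Matrix (Fin n → Bool) (Fin n → Bool) ℂ, IsDensity ρ →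
      vnEntropy (qubitPower n (gadMap γ ν) ρ) ≤ ∑ i, binEntropy ((1 - γ) * pop ρ i + γ * ν) := by
  induction n with
  | zero =>
    intro ρ h
    rw [Finset.univ_eq_empty, Finset.sum_empty]
    have h1 := map_density (power_channel hγ hν 0) h
    refine (vn_le_diag h1.1).trans ?_
    have h2 := congrArg Complex.re h1.2
    rw [trace, Complex.re_sum, Complex.one_re] at h2
    apply Finset.sum_nonpos
    intro i _
    have h3 : (qubitPower 0 (gadMap γ ν) ρ i i).re = 1 := by
      rw [← h2, Finset.sum_eq_single_of_mem i (Finset.mem_univ i)]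
      · rfl
      · intro b _ hb
        exact absurd (Subsingleton.elim b i) hb
    rw [h3, negMulLog_one]
  | succ n ih =>
    intro ρ h
    rw [vn_power_succ hγ hν n h, Fin.sum_univ_succ, pop_zero]
    have h' := density_submatrix h (ce n)
    refine (gad_upper hγ hν (power_channel hγ hν n) h').trans ?_
    have := ih _ (density_marginal h')
    simp only [pop_succ]
    linarith

theorem power_upper {γ ν : ℝ} (hγ : γ ∈ Set.Icc (0:ℝ) 1) (hν : ν ∈ Set.Icc (0:ℝ) 1) {n : ℕ} (hn : 1 ≤ n)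
    {m : ℕ} (q : Fin m → ℝ) (ρ : Fin m → Matrix (Fin n → Bool) (Fin n → Bool) ℂ) (hE : IsEnsemble q ρ) :
    ∃ p ∈ Set.Icc (0 : ℝ) 1, holevoInfo (qubitPower n (gadMap γ ν)) q ρ ≤ n * gadRate γ ν p := by
  obtain ⟨h0, h1, h2⟩ := hE
  have hR := density_sum h0 h1 h2
  set R := ∑ a, (q a : ℂ) • ρ a with hRdef
  have hpop : ∀ i, pop R i = ∑ a, q a * pop (ρ a) i := by
    intro i
    rw [hRdef, pop_sum]
    apply Finset.sum_congr rfl
    intro a _
    rw [pop_smul]
  have hup := power_up hγ hν n R hR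
  have hJ : ∀ i, EE γ ν (pop R i) ≤ ∑ a, q a * EE γ ν (pop (ρ a) i) := by
    intro i
    have := (EE_convex hγ hν).map_sum_le (t := Finset.univ) (w := q) (p := fun a => pop (ρ a) i)
      (fun a _ => h0 a) h1 (fun a _ => pop_mem (h2 a) i)
    simp only [smul_eq_mul] at this
    rw [hpop i]
    exact this
  have hchi : holevoInfo (qubitPower n (gadMap γ ν)) q ρ ≤ ∑ i, gadRate γ ν (pop R i) := by
    unfold holevoInfo
    rw [← map_sum_smul (power_channel hγ hν n).1, ← hRdef]
    have hlow : ∑ a, q a * ∑ i, EE γ ν (pop (ρ a) i) ≤ ∑ a, q a * vnEntropy (qubitPower n (gadMap γ ν) (ρ a)) := by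
      apply Finset.sum_le_sum
      intro a _
      exact mul_le_mul_of_nonneg_left (power_low hγ hν n (ρ a) (h2 a)) (h0 a)
    have hsw : ∑ a, q a * ∑ i, EE γ ν (pop (ρ a) i) = ∑ i, ∑ a, q a * EE γ ν (pop (ρ a) i) := by
      simp only [Finset.mul_sum]
      exact Finset.sum_comm
    have hJs : ∑ i, EE γ ν (pop R i) ≤ ∑ i, ∑ a, q a * EE γ ν (pop (ρ a) i) :=
      Finset.sum_le_sum (fun i _ => hJ i)
    have hrate : ∑ i, gadRate γ ν (pop R i) = ∑ i, binEntropy ((1 - γ) * pop R i + γ * ν) - ∑ i, EE γ ν (pop R i) := by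
      rw [← Finset.sum_sub_distrib]
      rfl
    rw [hrate]
    linarith
  have hne : (Finset.univ : Finset (Fin n)).Nonempty := ⟨⟨0, hn⟩, Finset.mem_univ _⟩
  obtain ⟨i, _, hi⟩ := Finset.exists_max_image Finset.univ (fun i => gadRate γ ν (pop R i)) hne
  refine ⟨pop R i, pop_mem hR i, hchi.trans ?_⟩
  have := Finset.sum_le_card_nsmul Finset.univ (fun i => gadRate γ ν (pop R i)) (gadRate γ ν (pop R i)) hi
  rw [Finset.card_univ, Fintype.card_fin, nsmul_eq_mul] at this
  exact this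

theorem one_ensemble {γ ν p : ℝ} (hγ : γ ∈ Set.Icc (0:ℝ) 1) (hν : ν ∈ Set.Icc (0:ℝ) 1)
    (hp : p ∈ Set.Icc (0:ℝ) 1) :
    ∃ (m : ℕ) (q : Fin m → ℝ) (ρ : Fin m → Matrix Bool Bool ℂ), IsEnsemble q ρ ∧
      holevoInfo (gadMap γ ν) q ρ = gadRate γ ν p := by
  obtain ⟨m, q, ρ, hE, hχ⟩ := exists_fin_ensemble (e := Bool) (ι := Bool) (fun _ => 1 / 2)
    (fun s => phi p s) (fun _ => by norm_num) (by rw [Fintype.sum_bool]; norm_num) (fun s => phi_density hp s)
  refine ⟨m, q, ρ, hE, ?_⟩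
  rw [hχ, ← map_sum_smul (gad_linear γ ν), Fintype.sum_bool, phi_avg, vn_gad_diag, Fintype.sum_bool,
    vn_phi hγ hν hp, vn_phi hγ hν hp]
  unfold gadRate EE
  ring

theorem power_lower {γ ν p : ℝ} (hγ : γ ∈ Set.Icc (0:ℝ) 1) (hν : ν ∈ Set.Icc (0:ℝ) 1)
    (hp : p ∈ Set.Icc (0:ℝ) 1) (n : ℕ) :
    ∃ (m : ℕ) (q : Fin m → ℝ) (ρ : Fin m → Matrix (Fin n → Bool) (Fin n → Bool) ℂ),
        IsEnsemble q ρ ∧ n * gadRate γ ν p ≤ holevoInfo (qubitPower n (gadMap γ ν)) q ρ := by
  induction n with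
  | zero =>
    refine ⟨1, fun _ => 1, fun _ => 1, ⟨fun _ => zero_le_one, by simp, fun _ => ⟨PosSemidef.one, by simp⟩⟩, ?_⟩
    unfold holevoInfo
    simp
  | succ n ih =>
    obtain ⟨m₂, q₂, ρ₂, hE2, hχ2⟩ := ih
    obtain ⟨m₁, q₁, ρ₁, hE1, hχ1⟩ := one_ensemble hγ hν hp
    obtain ⟨m, q, ρ, hE, hχ⟩ := part2 hγ hν (power_channel hγ hν n) q₁ ρ₁ q₂ ρ₂ hE1 hE2
    refine ⟨m, q, fun a => (ρ a).submatrix (ce n).symm (ce n).symm, ⟨hE.1, hE.2.1, fun a => density_submatrix (hE.2.2 a) (ce n).symm⟩, ?_⟩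
    have e1 : ∀ X : Matrix (Bool × (Fin n → Bool)) (Bool × (Fin n → Bool)) ℂ,
        qubitPower (n + 1) (gadMap γ ν) (X.submatrix (ce n).symm (ce n).symm) =
        (qubitTensor (gadMap γ ν) (qubitPower n (gadMap γ ν)) X).submatrix (ce n).symm (ce n).symm := by
      intro X
      rw [power_succ, submatrix_submatrix]
      simp
    have hch := qt_channel hγ hν (power_channel hγ hν n)
    have e2 : holevoInfo (qubitPower (n + 1) (gadMap γ ν)) q (fun a => (ρ a).submatrix (ce n).symm (ce n).symm) =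
        holevoInfo (qubitTensor (gadMap γ ν) (qubitPower n (gadMap γ ν))) q ρ := by
      unfold holevoInfo
      congr 1
      · have hd := density_sum hE.1 hE.2.1 hE.2.2
        have h1 := (map_density hch hd).1.1
        rw [← map_sum_smul hch.1, ← map_sum_smul (power_channel hγ hν (n + 1)).1]
        rw [← vn_reindex (ce n) h1, reindex_apply, ← e1]
        congr 2
        ext i j
        simp [Matrix.sum_apply]
      · apply Finset.sum_congr rfl
        intro a _
        rw [e1]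
        congr 1
        exact vn_reindex (ce n) (map_density hch (hE.2.2 a)).1.1
    rw [e2]
    refine le_trans (le_of_eq ?_) ((add_le_add hχ1.ge hχ2).trans hχ)
    push_cast
    ring

end Crest.Agent.GAD
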